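import Vale.Agent.P224.R2.H582.If
import Vale.Agent.P224.R2.H728.T0d

/-!
The two point means at level zero in terms of the one point tensors.
-/

namespace Vale.Agent.P224.R2.H582

open MeasureTheory Set Filter Function Real Vale.Agent.P224.SM2 Vale.Agent.P224.R2.H820
open Vale.Agent.P224.R2.H728
open scoped Topology RealInnerProductSpace

set_option linter.unusedSectionVars false

section

variable {X : Type*} [MeasurableSpace X] {E : Type*} [NormedAddCommGroup E]
  [InnerProductSpace ℝ E] {μ : Measure X} [IsFiniteMeasure μ] {p n : X → E}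

variable (μ) in
/-- the normalised measure -/
noncomputable def nrm : Measure X := (μ univ)⁻¹ • μ

/-- scaling of the two point means -/
lemma E2_nrm [NeZero μ] (f : R4 → ℝ) :
    E2 μ p n f = μ.real univ ^ 2 * ∫ q, f (SM2.pr p n q) ∂((nrm μ).prod (nrm μ)) := by
  have h0 : μ univ ≠ 0 := by
    simpa using (NeZero.ne μ)
  have ht : μ univ ≠ ⊤ := measure_ne_top _ _
  have hi : (μ univ)⁻¹ ≠ ⊤ := ENNReal.inv_ne_top.2 h0
  have e1 : (nrm μ).prod (nrm μ) = ((μ univ)⁻¹ * (μ univ)⁻¹) • μ.prod μ := by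
    unfold nrm
    rw [Measure.prod_smul_left, Measure.prod_smul_right, smul_smul]
  rw [e1, integral_smul_measure, ENNReal.toReal_mul, ENNReal.toReal_inv, smul_eq_mul]
  have h1 : (μ univ).toReal ≠ 0 := (ENNReal.toReal_pos h0 ht).ne'
  unfold E2 Measure.real
  field_simp

variable {ι : Type*} [Fintype ι] [DecidableEq ι] (b : OrthonormalBasis ι ℝ E)

/-- coordinates -/
noncomputable def co (p : X → E) : ι → X → ℝ := fun a w => ⟪p w, b a⟫

lemma ip_co (p n : X → E) (w w' : X) : ip (co b p) (co b n) w w' = ⟪p w, n w'⟫ := by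
  unfold ip co
  rw [← b.sum_inner_mul_inner]
  exact Finset.sum_congr rfl fun a _ => by rw [real_inner_comm (n w') (b a)]

end

section

variable {X : Type*} [MeasurableSpace X] {E : Type*} [NormedAddCommGroup E]
  [InnerProductSpace ℝ E] {μ : Measure X} [IsFiniteMeasure μ] [NeZero μ] {p n : X → E}
  {ι : Type*} [Fintype ι] [DecidableEq ι] (b : OrthonormalBasis ι ℝ E) {m : ℝ}

/-- the mean of `(p - t)^2` at level zero -/
theorem E2_Xk (hm : m + 1 ≠ 0) (h : T0Data (nrm μ) m (co b p) (co b n)) :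
    E2 μ p n Xk = μ.real univ ^ 2 * (2 * ((1 - ∑ i, ∑ j, m2 (nrm μ) (co b n) (co b n) i j ^ 2) / (m + 1)
      - ∑ i, ∑ j, m2 (nrm μ) (co b n) (co b p) i j ^ 2)) := by
  rw [E2_nrm, ← h.E_pt hm]
  congr 1
  refine integral_congr_ae (Eventually.of_forall fun q => ?_)
  simp only [ip_co]
  rfl

/-- the mean of `(c - s)^2` at level zero -/
theorem E2_Ck (h : T0Data (nrm μ) m (co b p) (co b n)) :
    E2 μ p n Ck = μ.real univ ^ 2 * (∑ i, ∑ j, m2 (nrm μ) (co b n) (co b n) i j ^ 2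
      - 2 * ∑ i, ∑ j, m2 (nrm μ) (co b n) (co b p) i j ^ 2
      + ∑ i, ∑ j, m2 (nrm μ) (co b p) (co b p) i j ^ 2) := by
  rw [E2_nrm, ← h.E_cs]
  congr 1
  refine integral_congr_ae (Eventually.of_forall fun q => ?_)
  simp only [ip_co]
  rfl

/-- the mean of `(p - t)^2 s` at level zero -/
theorem E2_Xks (hm : m + 1 ≠ 0) (h : T0Data (nrm μ) m (co b p) (co b n)) :
    E2 μ p n (fun k => Xk k * k.1) = μ.real univ ^ 2
      * (-((m + 2) * ∑ i, ∑ j, ∑ l, m3 (nrm μ) (co b p) (co b p) (co b p) i j l ^ 2)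
        - 2 * ∑ i, ∑ j, ∑ l, m3 (nrm μ) (co b n) (co b p) (co b p) i j l ^ 2
        + 2 * (∑ i, m1 (nrm μ) (co b n) i ^ 2) / (m + 1)) := by
  rw [E2_nrm, ← h.E_pts hm]
  congr 1
  refine integral_congr_ae (Eventually.of_forall fun q => ?_)
  simp only [ip_co]
  rfl

/-- the mean of the normal -/
theorem sum_m1_sq [CompleteSpace E] (hi : Integrable n μ) :
    ‖∫ x, n x ∂μ‖ ^ 2 = μ.real univ ^ 2 * ∑ i, m1 (nrm μ) (co b n) i ^ 2 := by
  have h0 : μ univ ≠ 0 := by
    simpa using (NeZero.ne μ)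
  have ht : μ univ ≠ ⊤ := measure_ne_top _ _
  have h1 : μ.real univ ≠ 0 := (ENNReal.toReal_pos h0 ht).ne'
  have e1 : ∀ i, m1 (nrm μ) (co b n) i = (μ.real univ)⁻¹ * ⟪∫ x, n x ∂μ, b i⟫ := by
    intro i
    unfold m1 nrm co
    rw [integral_smul_measure, ENNReal.toReal_inv, smul_eq_mul, real_inner_comm,
      ← integral_inner hi]
    congr 1
    exact integral_congr_ae (Eventually.of_forall fun x => real_inner_comm _ _)
  have e2 : ‖∫ x, n x ∂μ‖ ^ 2 = ∑ i, ⟪∫ x, n x ∂μ, b i⟫ ^ 2 := by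
    rw [← b.sum_sq_inner_right]
    exact Finset.sum_congr rfl fun i _ => by rw [real_inner_comm]
  rw [e2, Finset.mul_sum]
  refine Finset.sum_congr rfl fun i _ => ?_
  rw [e1]
  field_simp

end

end Vale.Agent.P224.R2.H582
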