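import Vale.Agent.P224.R2.H582.Int

/-!
The law with the minorant of the defect by the one point tensors, all constants explicit.
-/

namespace Vale.Agent.P224.R2.H582

open MeasureTheory Set Filter Function Real Module Vale.Agent.P224 Vale.Agent.P224.FV
open Vale.Agent.P224.SM2 Vale.Agent.P224.R2.H820 Vale.Agent.P224.R2.H728
open Vale.Agent.P224.R2.H627
open scoped Topology RealInnerProductSpace ContDiff Manifold

set_option linter.unusedSectionVars false

section

variable {ι Ω : Type*} [Fintype ι] [DecidableEq ι] [MeasurableSpace Ω] {μ : Measure Ω}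
  {m : ℝ} {x N : ι → Ω → ℝ}

/-- `E (c - s)^2 s` -/
noncomputable def Qcss (μ : Measure Ω) (m : ℝ) (x N : ι → Ω → ℝ) : ℝ :=
  ((m + 2) ^ 2 / 4 + 1) * ∑ i, ∑ j, ∑ l, m3 μ x x x i j l ^ 2
    - 2 * ∑ i, ∑ j, ∑ l, m3 μ N x x i j l ^ 2

/-- the mean of `(c - s)^2 s` -/
theorem E_css (h : T0Data μ m x N) :
    ∫ q, (ip N N q.1 q.2 - ip x x q.1 q.2) ^ 2 * ip x x q.1 q.2 ∂(μ.prod μ) = Qcss μ m x N := by
  have := h.prob
  have e : ∀ q : Ω × Ω, (ip N N q.1 q.2 - ip x x q.1 q.2) ^ 2 * ip x x q.1 q.2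
      = ip N N q.1 q.2 * ip N N q.1 q.2 * ip x x q.1 q.2
        - 2 * (ip N N q.1 q.2 * ip x x q.1 q.2 * ip x x q.1 q.2)
        + ip x x q.1 q.2 * ip x x q.1 q.2 * ip x x q.1 q.2 := fun q => by ring
  simp_rw [e]
  rw [T0Data.int_comb (h.int3 h.bN h.bN h.bN h.bN h.bx h.bx) (h.int3 h.bN h.bN h.bx h.bx h.bx h.bx)
    (h.int3 h.bx h.bx h.bx h.bx h.bx h.bx), E2_three h.bN h.bN h.bN h.bN h.bx h.bx,
    E2_three h.bN h.bN h.bx h.bx h.bx h.bx, E2_three h.bx h.bx h.bx h.bx h.bx h.bx]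
  have h1 : ∑ a, ∑ b, ∑ c, m3 μ N N x a b c * m3 μ N N x a b c
      = (m + 2) ^ 2 / 4 * ∑ a, ∑ b, ∑ c, m3 μ x x x a b c ^ 2 := by
    simp only [Finset.mul_sum]
    refine Finset.sum_congr rfl fun a _ => Finset.sum_congr rfl fun b _ =>
      Finset.sum_congr rfl fun c _ => ?_
    rw [h.NNx]
    ring
  rw [h1]
  simp only [← sq]
  unfold Qcss
  ring

end

section

variable {X : Type*} [MeasurableSpace X] {E : Type*} [NormedAddCommGroup E]
  [InnerProductSpace ℝ E] {μ : Measure X} [IsFiniteMeasure μ] [NeZero μ] {p n : X → E}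
  {ι : Type*} [Fintype ι] [DecidableEq ι] (b : OrthonormalBasis ι ℝ E) {m : ℝ}

theorem E2_Cks (h : T0Data (nrm μ) m (co b p) (co b n)) :
    E2 μ p n (fun k => Ck k * k.1) = μ.real univ ^ 2 * Qcss (nrm μ) m (co b p) (co b n) := by
  rw [E2_nrm, ← E_css h]
  congr 1
  refine integral_congr_ae (Eventually.of_forall fun q => ?_)
  simp only [ip_co]
  rfl

end

section

variable {m : ℕ}

lemma contOn_yM (h4 : 4 ≤ m) : ContinuousOn (yM m) (Icc 0 1) :=
  (continuous_yF (half_le h4)).continuousOn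

lemma contOn_eM (h4 : 4 ≤ m) : ContinuousOn (eM m) (Icc 0 1) := contOn_eF (cn_nonneg h4) (half_le h4)

lemma contOn_rM (h4 : 4 ≤ m) : ContinuousOn (rM m) (Icc 0 1) := contOn_rF (cn_nonneg h4) (half_le h4)

end

section

variable {V W M : Type*} [NormedAddCommGroup V] [InnerProductSpace ℝ V] [FiniteDimensional ℝ V]
  [NormedAddCommGroup W] [InnerProductSpace ℝ W] [FiniteDimensional ℝ W]
  [TopologicalSpace M] [ChartedSpace V M]
  [MeasurableSpace V] [BorelSpace V] [MeasurableSpace M] [BorelSpace M]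
  [MeasurableSpace W] [BorelSpace W] [IsManifold 𝓘(ℝ, V) ∞ M]
  [CompactSpace M] [T2Space M]

/-- the law with the tangent line: `σ` is minus the base point of the tangent, `lamP` the
threshold polynomial and `τ` a bound of the tail -/
theorem law_T0 [Nonempty M] (hm : 4 ≤ finrank ℝ V) (hW : finrank ℝ W = finrank ℝ V + 2)
    {F : M → W} (hF : SphImm V F) (hmin : ∀ x n, IsUnitNormal V F x n → meanCurv V F x n = 0)
    {N : M → W} (hNs : ContMDiff 𝓘(ℝ, V) 𝓘(ℝ, W) ∞ N) (hN : ∀ x, IsUnitNormal V F x (N x))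
    (hinj : Injective F) {ι : Type*} [Fintype ι] [DecidableEq ι] (b : OrthonormalBasis ι ℝ W)
    {κ σ l0 l1 l2 l3 l4 : ℝ} (hκ : 0 ≤ κ) (hσ : 0 ≤ σ) (h0 : 0 ≤ l0) (h1 : 0 ≤ l1) (h2 : 0 ≤ l2) (h3 : 0 ≤ l3)
    (h4 : 0 ≤ l4) {m : ℕ} (hmm : m = finrank ℝ V)
    (hβ : ∀ T ∈ Ioo (0 : ℝ) 1,
      m * (m + 1) * (T * |2 * rM m T - eM m T| - 2 * T ^ 2 * rM m T) ≤ be m κ T (eM m T) (rM m T))
    (hα : ∀ T ∈ Ioo (0 : ℝ) 1, 0 ≤ al m T (yM m T) (rM m T) (lamP l0 l1 l2 l3 l4 T))
    (hconv : ∀ T ∈ Ioo (0 : ℝ) 1, (m + 3) * be m κ T (eM m T) (rM m T)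
      ≤ (m + 1) * al m T (yM m T) (rM m T) (lamP l0 l1 l2 l3 l4 T) * (1 - T))
    {τ : ℝ → ℝ} (hτi : IntervalIntegrable τ volume 0 1)
    (hτ : ∀ T ∈ Ioo (0 : ℝ) 1, (m + 1) * (m + 2) * T ^ 2 * rM m T / (1 - T ^ 2) / 2
      * E2 (volM V F) F N (TK m T ((1 - T ^ 2) * lamP l0 l1 l2 l3 l4 T))
      ≤ τ T * (volM V F).real univ ^ 2) :
    2 * lamM m * (sphereVol m / (volM V F).real univ)
        + (W0 m κ σ l0 l1 l2 l3 l4 (YM m) (EM m) (RM m) * Qpt (nrm (volM V F)) m (co b F) (co b N)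
        + W1 m κ σ l0 l1 l2 l3 l4 (YM m) (EM m) (RM m) * min (Qpts (nrm (volM V F)) m (co b F) (co b N)
          + σ * Qpt (nrm (volM V F)) m (co b F) (co b N)) 0
        + m / ((m + 2) * (m + 4)) * Qcs (nrm (volM V F)) (co b F) (co b N)
        + m * (m + 1) * EM m 1 * Qcss (nrm (volM V F)) m (co b F) (co b N)
        - ∫ T in (0 : ℝ)..1, τ T)
      ≤ 1 + m * rM m 0 * ∑ i, m1 (nrm (volM V F)) (co b N) i ^ 2 := by
  subst hmm
  set m := finrank ℝ V with hmdef
  have hfin : IsFiniteMeasure (volM V F) := isFiniteMeasure_volM hF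
  have hm1 : 1 ≤ m := by omega
  have hpos : 0 < volM V F univ := volM_pos_of_isOpen hW hF isOpen_univ univ_nonempty
  have hnz : NeZero (volM V F) := ⟨fun h => by rw [h] at hpos; simp at hpos⟩
  have hA : 0 < (volM V F).real univ := ENNReal.toReal_pos hpos.ne' (measure_ne_top _ _)
  have hT0 : T0Data (nrm (volM V F)) m (co b F) (co b N) :=
    t0Data_of_min hm1 hW hF hmin hNs hN b
  have hmR : (m : ℝ) + 1 ≠ 0 := by positivity
  have h2p : Two (volM V F) m F N := two_of_min hW hF hmin hNs hN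
  have hc := certO_M hm
  set A := (volM V F).real univ with hAdef
  have cy := contOn_yM hm
  have ce := contOn_eM hm
  have cr := contOn_rM hm
  obtain ⟨i0, e0⟩ := int_b0 (m := m) (κ := κ) (σ := σ) (l0 := l0) (l1 := l1) (l2 := l2) (l3 := l3) (l4 := l4)
    cy ce cr
  obtain ⟨i1, e1⟩ := int_b1 (m := m) (κ := κ) (σ := σ) (l0 := l0) (l1 := l1) (l2 := l2) (l3 := l3) (l4 := l4)
    cy ce cr
  have e2 := E2_Xk b hmR hT0
  have e3 := E2_Xks b hmR hT0
  have e4 := E2_Ck b hT0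
  have e5 := E2_Cks b hT0
  set X0 := E2 (volM V F) F N Xk with hX0
  set X1 := E2 (volM V F) F N (fun k => Xk k * k.1) with hX1
  set C0 := E2 (volM V F) F N Ck with hC0
  set C1 := E2 (volM V F) F N (fun k => Ck k * k.1) with hC1
  -- the pointwise bound
  have key : ∀ T ∈ Ioo (0 : ℝ) 1, b0 m κ σ T (yM m T) (eM m T) (rM m T) (lamP l0 l1 l2 l3 l4 T) * X0
      + b1 m κ σ T (yM m T) (eM m T) (rM m T) (lamP l0 l1 l2 l3 l4 T) * min (X1 + σ * X0) 0
      + (m * (T ^ 0 * eM m T)) * C0 + (m * (m + 1) * (T ^ 1 * eM m T)) * C1 - τ T * A ^ 2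
      ≤ DM V F N T := by
    intro T hT
    have hy := hc.y0 T hT
    have he := hc.e0 T hT
    have hr := hc.r0 T hT
    have hk : 0 < 1 - T ^ 2 := by nlinarith [hT.1, hT.2]
    have hl : 0 ≤ lamP l0 l1 l2 l3 l4 T := by
      have := hT.1.le
      unfold lamP
      positivity
    have hX0n : 0 ≤ X0 := integral_nonneg fun q => sq_nonneg _
    have q1 := DF_ge_zero h2p hc (T := T) (l := (1 - T ^ 2) * lamP l0 l1 l2 l3 l4 T)
      (α := al m T (yM m T) (rM m T) (lamP l0 l1 l2 l3 l4 T)) (β := be m κ T (eM m T) (rM m T))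
      (ε := m * eM m T) (G := (m + 1) * (m + 2) * T ^ 2 * rM m T / (1 - T ^ 2) / 2)
      (s0 := -σ) (s1 := 0) hT ?_ ?_ le_rfl le_rfl (hα T hT) (by positivity)
      (by linarith) (by norm_num) (hconv T hT)
    · have q2 := b0_le (m := m) (κ := κ) (σ := σ) (T := T) hκ hσ hT.1.le hT.2.le hy he hr hl
      have q3 := le_b1 (m := m) (κ := κ) (σ := σ) (T := T) hκ hσ hT.1.le hT.2.le hy he hr hl
      have q4 := tb_nonneg (m := m) (σ := σ) (T := T) hσ hT.1.le (hα T hT) (hconv T hT)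
      have q5 := mul_le_mul_of_nonneg_right q2 hX0n
      have q6 : b1 m κ σ T (yM m T) (eM m T) (rM m T) (lamP l0 l1 l2 l3 l4 T) * min (X1 + σ * X0) 0
          ≤ 1 / 2 * tb (m + 1) T (al m T (yM m T) (rM m T) (lamP l0 l1 l2 l3 l4 T))
            (be m κ T (eM m T) (rM m T)) (-σ) * (X1 + σ * X0) := by
        rcases le_total (X1 + σ * X0) 0 with h | h
        · rw [min_eq_left h]
          exact mul_le_mul_of_nonpos_right q3 h
        · rw [min_eq_right h, mul_zero]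
          exact mul_nonneg (by linarith) h
      have q7 : ta (m + 1) T (m * eM m T) 0 0 = m * eM m T := by
        unfold ta SM2.ker
        simp
      have q8 : tb (m + 1) T (m * eM m T) 0 0 = m * (m + 1) * (T ^ 1 * eM m T) := by
        unfold tb SM2.ker
        push_cast
        simp
        ring
      rw [q7, q8] at q1
      have q9 := hτ T hT
      unfold DM
      rw [← hmdef]
      refine le_trans ?_ q1
      have e7 : X1 - -σ * X0 = X1 + σ * X0 := by ring
      rw [e7, zero_mul, sub_zero, pow_zero, one_mul]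
      linarith
    · unfold al
      rw [show (m + 1) * (m + 2) * T ^ 2 * rM m T / (1 - T ^ 2) * ((1 - T ^ 2) * lamP l0 l1 l2 l3 l4 T)
        = (m + 1) * (m + 2) * T ^ 2 * rM m T * lamP l0 l1 l2 l3 l4 T by
          field_simp]
    · exact hβ T hT
  have ie0 : IntervalIntegrable (fun T => T ^ 0 * eM m T) volume 0 1 := intble (contOn_pow_mul ce 0)
  have ie1 : IntervalIntegrable (fun T => T ^ 1 * eM m T) volume 0 1 := intble (contOn_pow_mul ce 1)
  have iB : IntervalIntegrable (fun T =>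
      b0 m κ σ T (yM m T) (eM m T) (rM m T) (lamP l0 l1 l2 l3 l4 T) * X0
      + b1 m κ σ T (yM m T) (eM m T) (rM m T) (lamP l0 l1 l2 l3 l4 T) * min (X1 + σ * X0) 0
      + (m * (T ^ 0 * eM m T)) * C0 + (m * (m + 1) * (T ^ 1 * eM m T)) * C1 - τ T * A ^ 2)
      volume 0 1 :=
    ((((i0.mul_const _).add (i1.mul_const _)).add ((ie0.const_mul _).mul_const _)).add
      ((ie1.const_mul _).mul_const _)).sub (hτi.mul_const _)
  have hL := sharp_defect hm hW hF hmin hNs hN hinj iB key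
  have eI : ∫ T in (0 : ℝ)..1,
      (b0 m κ σ T (yM m T) (eM m T) (rM m T) (lamP l0 l1 l2 l3 l4 T) * X0
      + b1 m κ σ T (yM m T) (eM m T) (rM m T) (lamP l0 l1 l2 l3 l4 T) * min (X1 + σ * X0) 0
      + (m * (T ^ 0 * eM m T)) * C0 + (m * (m + 1) * (T ^ 1 * eM m T)) * C1 - τ T * A ^ 2)
      = W0 m κ σ l0 l1 l2 l3 l4 (YM m) (EM m) (RM m) * X0
        + W1 m κ σ l0 l1 l2 l3 l4 (YM m) (EM m) (RM m) * min (X1 + σ * X0) 0
        + m * EM m 0 * C0 + m * (m + 1) * EM m 1 * C1 - (∫ T in (0 : ℝ)..1, τ T) * A ^ 2 := by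
    rw [intervalIntegral.integral_sub ((((i0.mul_const _).add (i1.mul_const _)).add
      ((ie0.const_mul _).mul_const _)).add ((ie1.const_mul _).mul_const _)) (hτi.mul_const _),
      intervalIntegral.integral_add (((i0.mul_const _).add (i1.mul_const _)).add
      ((ie0.const_mul _).mul_const _)) ((ie1.const_mul _).mul_const _),
      intervalIntegral.integral_add ((i0.mul_const _).add (i1.mul_const _))
      ((ie0.const_mul _).mul_const _),
      intervalIntegral.integral_add (i0.mul_const _) (i1.mul_const _)]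
    simp only [intervalIntegral.integral_mul_const, intervalIntegral.integral_const_mul]
    rw [e0, e1]
    rfl
  have hcN : Continuous N := hNs.continuous
  have e6 : ‖∫ x, N x ∂(volM V F)‖ ^ 2 = A ^ 2 * ∑ i, m1 (nrm (volM V F)) (co b N) i ^ 2 :=
    sum_m1_sq b (hcN.integrable_of_hasCompactSupport (HasCompactSupport.of_compactSpace N))
  have hA2 : 0 < A ^ 2 := pow_pos hA 2
  have e7 : min (X1 + σ * X0) 0 = A ^ 2 * min (Qpts (nrm (volM V F)) m (co b F) (co b N)
      + σ * Qpt (nrm (volM V F)) m (co b F) (co b N)) 0 := by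
    have h5 : X1 + σ * X0 = A ^ 2 * (Qpts (nrm (volM V F)) m (co b F) (co b N)
      + σ * Qpt (nrm (volM V F)) m (co b F) (co b N)) := by
      rw [e2, e3]
      unfold Qpt Qpts
      ring
    rw [h5, mul_min_of_nonneg _ _ hA2.le, mul_zero]
  have e8 : X0 = A ^ 2 * Qpt (nrm (volM V F)) m (co b F) (co b N) := e2
  have e9 : C0 = A ^ 2 * Qcs (nrm (volM V F)) (co b F) (co b N) := e4
  rw [eI, e7, e8, e9, e5, e6, EM_zero hm] at hL
  refine le_of_mul_le_mul_left (a := A ^ 2) ?_ hA2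
  refine le_trans (le_of_eq ?_) (hL.trans (le_of_eq ?_))
  · have e10 : A ^ 2 * (2 * lamM m * (sphereVol m / A)) = 2 * lamM m * (sphereVol m * A) := by
      field_simp
    rw [mul_add, e10]
    ring
  · ring

/-- the law with the second square only: `lamP` is the threshold polynomial and `τ` a bound of
the tail -/
theorem law_V0 [Nonempty M] (hm : 4 ≤ finrank ℝ V) (hW : finrank ℝ W = finrank ℝ V + 2)
    {F : M → W} (hF : SphImm V F) (hmin : ∀ x n, IsUnitNormal V F x n → meanCurv V F x n = 0)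
    {N : M → W} (hNs : ContMDiff 𝓘(ℝ, V) 𝓘(ℝ, W) ∞ N) (hN : ∀ x, IsUnitNormal V F x (N x))
    (hinj : Injective F) {ι : Type*} [Fintype ι] [DecidableEq ι] (b : OrthonormalBasis ι ℝ W)
    {κ l0 l1 l2 l3 l4 : ℝ} {m : ℕ} (hmm : m = finrank ℝ V)
    (hβ : ∀ T ∈ Ioo (0 : ℝ) 1,
      m * (m + 1) * (T * |2 * rM m T - eM m T| - 2 * T ^ 2 * rM m T) ≤ be m κ T (eM m T) (rM m T))
    (hα : ∀ T ∈ Ioo (0 : ℝ) 1, 0 ≤ al m T (yM m T) (rM m T) (lamP l0 l1 l2 l3 l4 T))
    (hpos : ∀ T ∈ Ioo (0 : ℝ) 1, be m κ T (eM m T) (rM m T)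
      ≤ al m T (yM m T) (rM m T) (lamP l0 l1 l2 l3 l4 T) * (1 - T))
    {τ : ℝ → ℝ} (hτi : IntervalIntegrable τ volume 0 1)
    (hτ : ∀ T ∈ Ioo (0 : ℝ) 1, (m + 1) * (m + 2) * T ^ 2 * rM m T / (1 - T ^ 2) / 2
      * E2 (volM V F) F N (TK m T ((1 - T ^ 2) * lamP l0 l1 l2 l3 l4 T))
      ≤ τ T * (volM V F).real univ ^ 2) :
    2 * lamM m * (sphereVol m / (volM V F).real univ)
        + (m / ((m + 2) * (m + 4)) * Qcs (nrm (volM V F)) (co b F) (co b N)
        + m * (m + 1) * EM m 1 * Qcss (nrm (volM V F)) m (co b F) (co b N)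
        - ∫ T in (0 : ℝ)..1, τ T)
      ≤ 1 + m * rM m 0 * ∑ i, m1 (nrm (volM V F)) (co b N) i ^ 2 := by
  subst hmm
  set m := finrank ℝ V with hmdef
  have hfin : IsFiniteMeasure (volM V F) := isFiniteMeasure_volM hF
  have hm1 : 1 ≤ m := by omega
  have hvpos : 0 < volM V F univ := volM_pos_of_isOpen hW hF isOpen_univ univ_nonempty
  have hnz : NeZero (volM V F) := ⟨fun h => by rw [h] at hvpos; simp at hvpos⟩
  have hA : 0 < (volM V F).real univ := ENNReal.toReal_pos hvpos.ne' (measure_ne_top _ _)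
  have hT0 : T0Data (nrm (volM V F)) m (co b F) (co b N) :=
    t0Data_of_min hm1 hW hF hmin hNs hN b
  have h2p : Two (volM V F) m F N := two_of_min hW hF hmin hNs hN
  have hc := certO_M hm
  set A := (volM V F).real univ with hAdef
  have ce := contOn_eM hm
  have e4 := E2_Ck b hT0
  have e5 := E2_Cks b hT0
  set C0 := E2 (volM V F) F N Ck with hC0
  set C1 := E2 (volM V F) F N (fun k => Ck k * k.1) with hC1
  -- the pointwise bound
  have key : ∀ T ∈ Ioo (0 : ℝ) 1, (m * (T ^ 0 * eM m T)) * C0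
      + (m * (m + 1) * (T ^ 1 * eM m T)) * C1 - τ T * A ^ 2 ≤ DM V F N T := by
    intro T hT
    have he := hc.e0 T hT
    have hk : 0 < 1 - T ^ 2 := by nlinarith [hT.1, hT.2]
    have q1 := DF_ge_C h2p hc (T := T) (l := (1 - T ^ 2) * lamP l0 l1 l2 l3 l4 T)
      (α := al m T (yM m T) (rM m T) (lamP l0 l1 l2 l3 l4 T)) (β := be m κ T (eM m T) (rM m T))
      (ε := m * eM m T) (G := (m + 1) * (m + 2) * T ^ 2 * rM m T / (1 - T ^ 2) / 2)
      (s1 := 0) hT ?_ ?_ le_rfl le_rfl (hα T hT) (by positivity) (by norm_num) (hpos T hT)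
    · have q7 : ta (m + 1) T (m * eM m T) 0 0 = m * eM m T := by
        unfold ta SM2.ker
        simp
      have q8 : tb (m + 1) T (m * eM m T) 0 0 = m * (m + 1) * (T ^ 1 * eM m T) := by
        unfold tb SM2.ker
        push_cast
        simp
        ring
      rw [q7, q8] at q1
      have q9 := hτ T hT
      unfold DM
      rw [← hmdef]
      refine le_trans ?_ q1
      rw [zero_mul, sub_zero, pow_zero, one_mul]
      linarith
    · unfold al
      rw [show (m + 1) * (m + 2) * T ^ 2 * rM m T / (1 - T ^ 2) * ((1 - T ^ 2) * lamP l0 l1 l2 l3 l4 T)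
        = (m + 1) * (m + 2) * T ^ 2 * rM m T * lamP l0 l1 l2 l3 l4 T by
          field_simp]
    · exact hβ T hT
  have ie0 : IntervalIntegrable (fun T => T ^ 0 * eM m T) volume 0 1 := intble (contOn_pow_mul ce 0)
  have ie1 : IntervalIntegrable (fun T => T ^ 1 * eM m T) volume 0 1 := intble (contOn_pow_mul ce 1)
  have iB : IntervalIntegrable (fun T => (m * (T ^ 0 * eM m T)) * C0
      + (m * (m + 1) * (T ^ 1 * eM m T)) * C1 - τ T * A ^ 2) volume 0 1 :=
    (((ie0.const_mul _).mul_const _).add ((ie1.const_mul _).mul_const _)).sub (hτi.mul_const _)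
  have hL := sharp_defect hm hW hF hmin hNs hN hinj iB key
  have eI : ∫ T in (0 : ℝ)..1, ((m * (T ^ 0 * eM m T)) * C0
      + (m * (m + 1) * (T ^ 1 * eM m T)) * C1 - τ T * A ^ 2)
      = m * EM m 0 * C0 + m * (m + 1) * EM m 1 * C1 - (∫ T in (0 : ℝ)..1, τ T) * A ^ 2 := by
    rw [intervalIntegral.integral_sub (((ie0.const_mul _).mul_const _).add
      ((ie1.const_mul _).mul_const _)) (hτi.mul_const _),
      intervalIntegral.integral_add ((ie0.const_mul _).mul_const _)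
      ((ie1.const_mul _).mul_const _)]
    simp only [intervalIntegral.integral_mul_const, intervalIntegral.integral_const_mul]
    rfl
  have hcN : Continuous N := hNs.continuous
  have e6 : ‖∫ x, N x ∂(volM V F)‖ ^ 2 = A ^ 2 * ∑ i, m1 (nrm (volM V F)) (co b N) i ^ 2 :=
    sum_m1_sq b (hcN.integrable_of_hasCompactSupport (HasCompactSupport.of_compactSpace N))
  have hA2 : 0 < A ^ 2 := pow_pos hA 2
  have e9 : C0 = A ^ 2 * Qcs (nrm (volM V F)) (co b F) (co b N) := e4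
  rw [eI, e9, e5, e6, EM_zero hm] at hL
  refine le_of_mul_le_mul_left (a := A ^ 2) ?_ hA2
  refine le_trans (le_of_eq ?_) (hL.trans (le_of_eq ?_))
  · have e10 : A ^ 2 * (2 * lamM m * (sphereVol m / A)) = 2 * lamM m * (sphereVol m * A) := by
      field_simp
    rw [mul_add, e10]
    ring
  · ring

end

end Vale.Agent.P224.R2.H582
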