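import Vale.Agent.P224.R2.H582.Scal
import Vale.Agent.P224.R2.H820.Ident

/-!
Lower bounds of the defect at level T.
-/

namespace Vale.Agent.P224.R2.H582

open MeasureTheory Set Filter Function Real Vale.Agent.P224.SM2 Vale.Agent.P224.R2.H820
open scoped Topology RealInnerProductSpace

set_option linter.unusedSectionVars false

/-- the square of the antisymmetric part -/
def Xk (k : R4) : ℝ := (k.2.2.1 - k.2.1) ^ 2

/-- the square of the second antisymmetric part -/
def Ck (k : R4) : ℝ := (k.2.2.2 - k.1) ^ 2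

/-- the normalised product -/
noncomputable def Yk (m T : ℝ) (k : R4) : ℝ :=
  -(m * (1 - T ^ 2) * (k.2.2.1 * k.2.1) / (1 - T * k.1) ^ 2)

/-- the tail above the threshold l -/
noncomputable def TK (m : ℕ) (T l : ℝ) (k : R4) : ℝ :=
  ker T (m + 1) k.1 * Xk k * max (Yk m T k - l) 0

/-- the pointwise lower bound -/
lemma FK_ge {m : ℕ} {T y e r l α β ε G : ℝ} {k : R4} (hT0 : 0 ≤ T) (hT1 : T < 1) (hr : 0 ≤ r)
    (hk : k ∈ KK)
    (hα : α ≤ m * (T * y + m * r) - (m + 1) * (m + 2) * T ^ 2 * r / (1 - T ^ 2) * l)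
    (hβ : m * (m + 1) * (T * |2 * r - e| - 2 * T ^ 2 * r) ≤ β) (hε : ε ≤ m * e)
    (hG : (m + 1) * (m + 2) * T ^ 2 * r / (1 - T ^ 2) / 2 ≤ G) :
    ε * (ker T (m + 1) k.1 * Ck k)
      + 1 / 2 * (Xk k * (α * ker T (m + 1) k.1 - β * ker T (m + 2) k.1)) - G * TK m T l k
      ≤ FK m T y e r k := by
  obtain ⟨s, t, p, c⟩ := k
  have hs : s ≤ 1 := hk.1.2
  have hc : |c| ≤ 1 := abs_le.2 hk.2.2.2
  have hv : 0 < 1 - T * s := by nlinarith
  have hkap : 0 < 1 - T ^ 2 := by nlinarith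
  have k1 := (ker_pos (m + 1) hv).le
  have k2 := (ker_pos (m + 2) hv).le
  have e1 : ker T m s / (1 - T * s) = ker T (m + 1) s := by
    have := ker_succ_div T s m 1
    rw [pow_one] at this
    rw [this]
  have e2 : ker T m s / (1 - T * s) ^ 2 = ker T (m + 2) s := (ker_succ_div T s m 2).symm
  have e3 : ker T m s / (1 - T * s) ^ 3 = ker T (m + 1) s / (1 - T * s) ^ 2 := by
    rw [← e1, div_div, ← pow_succ']
  have hFK : FK m T y e r (s, t, p, c) = m * e * ker T (m + 1) s * (c - s) ^ 2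
      + (p - t) ^ 2 / 2 * (m * (T * y + m * r) * ker T (m + 1) s
        + m * (m + 1) * (2 * T ^ 2 * r + c * (T * (2 * r - e))) * ker T (m + 2) s
        - (m + 1) * (m + 2) * T ^ 2 * r / (1 - T ^ 2) * (ker T (m + 1) s * Yk m T (s, t, p, c))) := by
    have h0 : (m : ℝ) * (m + 1) * (m + 2) * T ^ 2 * r * (p * t) * (ker T (m + 1) s / (1 - T * s) ^ 2)
        = -((m + 1) * (m + 2) * T ^ 2 * r / (1 - T ^ 2)
          * (ker T (m + 1) s * Yk m T (s, t, p, c))) := by
      unfold Yk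
      simp only
      field_simp
    unfold FK FF
    simp only
    rw [e1, e2, e3, h0]
    ring
  rw [hFK]
  have hX : 0 ≤ (p - t) ^ 2 := sq_nonneg _
  set Y := Yk m T (s, t, p, c) with hY
  set H : ℝ := (m + 1) * (m + 2) * T ^ 2 * r / (1 - T ^ 2) with hH
  have hH0 : 0 ≤ H := by positivity
  have t1 : ε * (ker T (m + 1) s * (c - s) ^ 2) ≤ m * e * ker T (m + 1) s * (c - s) ^ 2 := by
    have : 0 ≤ ker T (m + 1) s * (c - s) ^ 2 := mul_nonneg k1 (sq_nonneg _)
    nlinarith
  have t2 : Y ≤ l + max (Y - l) 0 := by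
    have := le_max_left (Y - l) 0
    linarith
  have t3 : -β ≤ m * (m + 1) * (2 * T ^ 2 * r + c * (T * (2 * r - e))) := by
    have h1 : -(T * |2 * r - e|) ≤ c * (T * (2 * r - e)) := by
      have h2 : |c * (T * (2 * r - e))| ≤ T * |2 * r - e| := by
        rw [abs_mul, abs_mul, abs_of_nonneg hT0]
        exact mul_le_of_le_one_left (by positivity) hc
      exact (abs_le.1 h2).1
    have h2 : (m : ℝ) * (m + 1) * (2 * T ^ 2 * r + -(T * |2 * r - e|))
        ≤ m * (m + 1) * (2 * T ^ 2 * r + c * (T * (2 * r - e))) :=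
      mul_le_mul_of_nonneg_left (by linarith) (by positivity)
    linarith
  have t4 : (ker T (m + 1) s) * Y ≤ ker T (m + 1) s * (l + max (Y - l) 0) :=
    mul_le_mul_of_nonneg_left t2 k1
  have hTK : 0 ≤ ker T (m + 1) s * max (Y - l) 0 := mul_nonneg k1 (le_max_right _ _)
  have t5 : α * ker T (m + 1) s - β * ker T (m + 2) s
      - 2 * G * (ker T (m + 1) s * max (Y - l) 0)
      ≤ m * (T * y + m * r) * ker T (m + 1) s
        + m * (m + 1) * (2 * T ^ 2 * r + c * (T * (2 * r - e))) * ker T (m + 2) s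
        - H * (ker T (m + 1) s * Y) := by
    have h1 : α * ker T (m + 1) s ≤ (m * (T * y + m * r) - H * l) * ker T (m + 1) s :=
      mul_le_mul_of_nonneg_right hα k1
    have h2 : -β * ker T (m + 2) s
        ≤ m * (m + 1) * (2 * T ^ 2 * r + c * (T * (2 * r - e))) * ker T (m + 2) s :=
      mul_le_mul_of_nonneg_right t3 k2
    have h3 : H * (ker T (m + 1) s * Y) ≤ H * (ker T (m + 1) s * (l + max (Y - l) 0)) :=
      mul_le_mul_of_nonneg_left t4 hH0
    have h4 : H * (ker T (m + 1) s * max (Y - l) 0) ≤ 2 * G * (ker T (m + 1) s * max (Y - l) 0) :=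
      mul_le_mul_of_nonneg_right (by linarith) hTK
    linarith
  have t6 := mul_le_mul_of_nonneg_left t5 (show 0 ≤ (p - t) ^ 2 / 2 by positivity)
  have e7 : ε * (ker T (m + 1) s * Ck (s, t, p, c))
      + 1 / 2 * (Xk (s, t, p, c) * (α * ker T (m + 1) s - β * ker T (m + 2) s))
      - G * TK m T l (s, t, p, c)
      = ε * (ker T (m + 1) s * (c - s) ^ 2)
        + (p - t) ^ 2 / 2 * (α * ker T (m + 1) s - β * ker T (m + 2) s
          - 2 * G * (ker T (m + 1) s * max (Y - l) 0)) := by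
    simp only [Ck, Xk, TK, ← hY]
    ring
  rw [e7]
  linarith

lemma measurable_Yk (m T : ℝ) : Measurable (Yk m T) := by
  unfold Yk
  fun_prop

lemma measurable_TK (m : ℕ) (T l : ℝ) : Measurable (TK m T l) := by
  have h1 := measurable_ker T (m + 1)
  have h2 := measurable_Yk m T
  unfold TK Xk
  fun_prop

lemma contOn_TK {T : ℝ} (hT : T ∈ Ico (0 : ℝ) 1) (m : ℕ) (l : ℝ) : ContinuousOn (TK m T l) KK := by
  have h1 := contOn_ker' hT (m + 1)
  have h2 : ContinuousOn (Yk m T) KK := by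
    unfold Yk
    refine (ContinuousOn.div (by fun_prop) (by fun_prop) fun k hk => ?_).neg
    exact pow_ne_zero _ (one_sub_pos' hT hk.1.2).ne'
  unfold TK
  refine ContinuousOn.mul (h1.mul ?_) ?_
  · unfold Xk
    fun_prop
  · exact ContinuousOn.sup (h2.sub continuousOn_const) continuousOn_const

section

variable {X : Type*} [MeasurableSpace X] {E : Type*} [NormedAddCommGroup E]
  [InnerProductSpace ℝ E] [MeasurableSpace E] [BorelSpace E] [SecondCountableTopology E]
  {μ : Measure X} [IsFiniteMeasure μ] {m : ℕ} {p n : X → E} {y Z e r : ℝ → ℝ}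

variable (μ p n) in
/-- the two point mean of a function of the pair data -/
noncomputable def E2 (f : R4 → ℝ) : ℝ := ∫ q, f (SM2.pr p n q) ∂(μ.prod μ)

lemma int_E2 (h : Two μ m p n) {f : R4 → ℝ} (hf : Measurable f) (hc : ContinuousOn f KK) :
    Integrable (fun q => f (SM2.pr p n q)) (μ.prod μ) :=
  integrable_param (μ.prod μ) h.measurable_pr isCompact_KK h.pr_mem hf hc

lemma E2_mono (h : Two μ m p n) {f g : R4 → ℝ} (hf : Measurable f) (hfc : ContinuousOn f KK)
    (hg : Measurable g) (hgc : ContinuousOn g KK)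
    (hfg : ∀ q, f (SM2.pr p n q) ≤ g (SM2.pr p n q)) : E2 μ p n f ≤ E2 μ p n g :=
  integral_mono (int_E2 h hf hfc) (int_E2 h hg hgc) hfg

lemma E2_add (h : Two μ m p n) {f g : R4 → ℝ} (hf : Measurable f) (hfc : ContinuousOn f KK)
    (hg : Measurable g) (hgc : ContinuousOn g KK) :
    E2 μ p n (fun k => f k + g k) = E2 μ p n f + E2 μ p n g :=
  integral_add (int_E2 h hf hfc) (int_E2 h hg hgc)

lemma E2_sub (h : Two μ m p n) {f g : R4 → ℝ} (hf : Measurable f) (hfc : ContinuousOn f KK)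
    (hg : Measurable g) (hgc : ContinuousOn g KK) :
    E2 μ p n (fun k => f k - g k) = E2 μ p n f - E2 μ p n g :=
  integral_sub (int_E2 h hf hfc) (int_E2 h hg hgc)

lemma E2_mul (a : ℝ) (f : R4 → ℝ) : E2 μ p n (fun k => a * f k) = a * E2 μ p n f :=
  integral_const_mul _ _

/-- the defect at level T, kept at level T -/
theorem DF_ge_level (h : Two μ m p n) (hc : CertO m y Z e r) {T l α β ε G : ℝ}
    (hT : T ∈ Ioo (0 : ℝ) 1)
    (hα : α ≤ m * (T * y T + m * r T) - (m + 1) * (m + 2) * T ^ 2 * r T / (1 - T ^ 2) * l)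
    (hβ : m * (m + 1) * (T * |2 * r T - e T| - 2 * T ^ 2 * r T) ≤ β) (hε : ε ≤ m * e T)
    (hG : (m + 1) * (m + 2) * T ^ 2 * r T / (1 - T ^ 2) / 2 ≤ G) :
    ε * E2 μ p n (fun k => ker T (m + 1) k.1 * Ck k)
      + 1 / 2 * E2 μ p n (fun k => Xk k * (α * ker T (m + 1) k.1 - β * ker T (m + 2) k.1))
      - G * E2 μ p n (TK m T l) ≤ DF μ m p n y e r T := by
  have hT' : T ∈ Ico (0 : ℝ) 1 := ⟨hT.1.le, hT.2⟩
  have m1 := measurable_ker T (m + 1)
  have m2 := measurable_ker T (m + 2)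
  have c1 := contOn_ker' hT' (m + 1)
  have c2 := contOn_ker' hT' (m + 2)
  have a1 : Measurable (fun k : R4 => ker T (m + 1) k.1 * Ck k) := by
    unfold Ck; fun_prop
  have a2 : ContinuousOn (fun k : R4 => ker T (m + 1) k.1 * Ck k) KK := by
    refine c1.mul ?_
    unfold Ck; fun_prop
  have b1 : Measurable (fun k : R4 => Xk k * (α * ker T (m + 1) k.1 - β * ker T (m + 2) k.1)) := by
    unfold Xk; fun_prop
  have b2 : ContinuousOn (fun k : R4 => Xk k * (α * ker T (m + 1) k.1 - β * ker T (m + 2) k.1))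
      KK := by
    refine ContinuousOn.mul ?_ ((continuousOn_const.mul c1).sub (continuousOn_const.mul c2))
    unfold Xk; fun_prop
  have d1 := measurable_TK m T l
  have d2 := contOn_TK hT' m l
  have a3 : Measurable (fun k : R4 => ε * (ker T (m + 1) k.1 * Ck k)) := a1.const_mul ε
  have a4 : ContinuousOn (fun k : R4 => ε * (ker T (m + 1) k.1 * Ck k)) KK :=
    continuousOn_const.mul a2
  have b3 : Measurable (fun k : R4 =>
      1 / 2 * (Xk k * (α * ker T (m + 1) k.1 - β * ker T (m + 2) k.1))) := b1.const_mul _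
  have b4 : ContinuousOn (fun k : R4 =>
      1 / 2 * (Xk k * (α * ker T (m + 1) k.1 - β * ker T (m + 2) k.1))) KK :=
    continuousOn_const.mul b2
  have d3 : Measurable (fun k : R4 => G * TK m T l k) := d1.const_mul G
  have d4 : ContinuousOn (fun k : R4 => G * TK m T l k) KK := continuousOn_const.mul d2
  have f1 : Measurable (fun k : R4 => ε * (ker T (m + 1) k.1 * Ck k)
      + 1 / 2 * (Xk k * (α * ker T (m + 1) k.1 - β * ker T (m + 2) k.1))) := a3.add b3
  have f2 : ContinuousOn (fun k : R4 => ε * (ker T (m + 1) k.1 * Ck k)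
      + 1 / 2 * (Xk k * (α * ker T (m + 1) k.1 - β * ker T (m + 2) k.1))) KK := a4.add b4
  have hsum : ε * E2 μ p n (fun k => ker T (m + 1) k.1 * Ck k)
      + 1 / 2 * E2 μ p n (fun k => Xk k * (α * ker T (m + 1) k.1 - β * ker T (m + 2) k.1))
      - G * E2 μ p n (TK m T l)
      = E2 μ p n (fun k => ε * (ker T (m + 1) k.1 * Ck k)
        + 1 / 2 * (Xk k * (α * ker T (m + 1) k.1 - β * ker T (m + 2) k.1)) - G * TK m T l k) := by
    rw [E2_sub h f1 f2 d3 d4, E2_add h a3 a4 b3 b4, E2_mul, E2_mul, E2_mul]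
  rw [hsum]
  refine integral_mono ?_ (integrable_FK h hc hT') fun q => ?_
  · exact int_E2 h (f1.sub d3) (f2.sub d4)
  · exact FK_ge hT.1.le hT.2 (hc.r0 T hT) (h.pr_mem q) hα hβ hε hG

/-- the tangent value of `α v^(-q) - β v^(-q-1)` -/
noncomputable def ta (q : ℕ) (T α β s0 : ℝ) : ℝ := α * ker T q s0 - β * ker T (q + 1) s0

/-- the tangent slope of `α v^(-q) - β v^(-q-1)` -/
noncomputable def tb (q : ℕ) (T α β s0 : ℝ) : ℝ :=
  T * (q * α * ker T (q + 1) s0 - (q + 1) * β * ker T (q + 2) s0)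

/-- the defect at level T in terms of the means at level zero -/
theorem DF_ge_zero (h : Two μ m p n) (hc : CertO m y Z e r) {T l α β ε G s0 s1 : ℝ}
    (hT : T ∈ Ioo (0 : ℝ) 1)
    (hα : α ≤ m * (T * y T + m * r T) - (m + 1) * (m + 2) * T ^ 2 * r T / (1 - T ^ 2) * l)
    (hβ : m * (m + 1) * (T * |2 * r T - e T| - 2 * T ^ 2 * r T) ≤ β) (hε : ε ≤ m * e T)
    (hG : (m + 1) * (m + 2) * T ^ 2 * r T / (1 - T ^ 2) / 2 ≤ G)
    (hα0 : 0 ≤ α) (hε0 : 0 ≤ ε) (hs0 : s0 < 1) (hs1 : s1 < 1)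
    (hconv : (m + 3) * β ≤ (m + 1) * α * (1 - T)) :
    ta (m + 1) T ε 0 s1 * E2 μ p n Ck
      + tb (m + 1) T ε 0 s1 * (E2 μ p n (fun k => Ck k * k.1) - s1 * E2 μ p n Ck)
      + 1 / 2 * (ta (m + 1) T α β s0 * E2 μ p n Xk
        + tb (m + 1) T α β s0 * (E2 μ p n (fun k => Xk k * k.1) - s0 * E2 μ p n Xk))
      - G * E2 μ p n (TK m T l) ≤ DF μ m p n y e r T := by
  have hT' : T ∈ Ico (0 : ℝ) 1 := ⟨hT.1.le, hT.2⟩
  refine le_trans ?_ (DF_ge_level h hc hT hα hβ hε hG)
  have m1 := measurable_ker T (m + 1)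
  have m2 := measurable_ker T (m + 2)
  have c1 := contOn_ker' hT' (m + 1)
  have c2 := contOn_ker' hT' (m + 2)
  have mX : Measurable Xk := by unfold Xk; fun_prop
  have cX : ContinuousOn Xk KK := by unfold Xk; fun_prop
  have mC : Measurable Ck := by unfold Ck; fun_prop
  have cC : ContinuousOn Ck KK := by unfold Ck; fun_prop
  have mXs : Measurable (fun k : R4 => Xk k * k.1) := by fun_prop
  have cXs : ContinuousOn (fun k : R4 => Xk k * k.1) KK := cX.mul (by fun_prop)
  have mCs : Measurable (fun k : R4 => Ck k * k.1) := by fun_prop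
  have cCs : ContinuousOn (fun k : R4 => Ck k * k.1) KK := cC.mul (by fun_prop)
  -- the part with the second square
  have p1 : ta (m + 1) T ε 0 s1 * E2 μ p n Ck
      + tb (m + 1) T ε 0 s1 * (E2 μ p n (fun k => Ck k * k.1) - s1 * E2 μ p n Ck)
      ≤ ε * E2 μ p n (fun k => ker T (m + 1) k.1 * Ck k) := by
    have e1 : ta (m + 1) T ε 0 s1 * E2 μ p n Ck
        + tb (m + 1) T ε 0 s1 * (E2 μ p n (fun k => Ck k * k.1) - s1 * E2 μ p n Ck)
        = E2 μ p n (fun k => (ta (m + 1) T ε 0 s1 - tb (m + 1) T ε 0 s1 * s1) * Ck k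
          + tb (m + 1) T ε 0 s1 * (Ck k * k.1)) := by
      rw [E2_add h (mC.const_mul _) (continuousOn_const.mul cC) (mCs.const_mul _)
        (continuousOn_const.mul cCs), E2_mul, E2_mul]
      ring
    rw [e1, ← E2_mul]
    refine E2_mono h ((mC.const_mul _).add (mCs.const_mul _))
      ((continuousOn_const.mul cC).add (continuousOn_const.mul cCs)) ((m1.comp measurable_fst).mul mC |>.const_mul _)
      (continuousOn_const.mul (c1.mul cC)) fun q => ?_
    have hk := h.pr_mem q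
    set k := SM2.pr p n q
    have h1 := comb_tangent (T := T) (s := k.1) (s0 := s1) (α := ε) (β := 0) (q := m + 1) hT.1.le
      hT.2 hk.1.2 hs1 hε0 (by
        rw [mul_zero]
        have : 0 < 1 - T := by linarith [hT.2]
        positivity)
    have hC : 0 ≤ Ck k := sq_nonneg _
    have h2 := mul_le_mul_of_nonneg_right h1 hC
    unfold ta tb
    rw [zero_mul, sub_zero] at h2 
    linarith
  have p2 : ta (m + 1) T α β s0 * E2 μ p n Xk
        + tb (m + 1) T α β s0 * (E2 μ p n (fun k => Xk k * k.1) - s0 * E2 μ p n Xk)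
      ≤ E2 μ p n (fun k => Xk k * (α * ker T (m + 1) k.1 - β * ker T (m + 2) k.1)) := by
    have e1 : ta (m + 1) T α β s0 * E2 μ p n Xk
        + tb (m + 1) T α β s0 * (E2 μ p n (fun k => Xk k * k.1) - s0 * E2 μ p n Xk)
        = E2 μ p n (fun k => (ta (m + 1) T α β s0 - tb (m + 1) T α β s0 * s0) * Xk k
          + tb (m + 1) T α β s0 * (Xk k * k.1)) := by
      rw [E2_add h (mX.const_mul _) (continuousOn_const.mul cX) (mXs.const_mul _)
        (continuousOn_const.mul cXs), E2_mul, E2_mul]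
      ring
    rw [e1]
    refine E2_mono h ((mX.const_mul _).add (mXs.const_mul _))
      ((continuousOn_const.mul cX).add (continuousOn_const.mul cXs))
      (mX.mul (((m1.comp measurable_fst).const_mul _).sub ((m2.comp measurable_fst).const_mul _)))
      (cX.mul ((continuousOn_const.mul c1).sub (continuousOn_const.mul c2))) fun q => ?_
    have hk := h.pr_mem q
    set k := SM2.pr p n q
    have h1 := comb_tangent (T := T) (s := k.1) (s0 := s0) (α := α) (β := β) (q := m + 1) hT.1.le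
      hT.2 hk.1.2 hs0 hα0 (by push_cast; linarith)
    have hX : 0 ≤ Xk k := sq_nonneg _
    have h2 := mul_le_mul_of_nonneg_left h1 hX
    unfold ta tb
    linarith
  linarith

/-- the defect is bounded below by the tail -/
theorem DF_ge_tail (h : Two μ m p n) (hc : CertO m y Z e r) {T l α β ε G : ℝ}
    (hT : T ∈ Ioo (0 : ℝ) 1)
    (hα : α ≤ m * (T * y T + m * r T) - (m + 1) * (m + 2) * T ^ 2 * r T / (1 - T ^ 2) * l)
    (hβ : m * (m + 1) * (T * |2 * r T - e T| - 2 * T ^ 2 * r T) ≤ β) (hε : ε ≤ m * e T)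
    (hG : (m + 1) * (m + 2) * T ^ 2 * r T / (1 - T ^ 2) / 2 ≤ G)
    (hα0 : 0 ≤ α) (hε0 : 0 ≤ ε) (hpos : β ≤ α * (1 - T)) :
    -(G * E2 μ p n (TK m T l)) ≤ DF μ m p n y e r T := by
  have hT' : T ∈ Ico (0 : ℝ) 1 := ⟨hT.1.le, hT.2⟩
  refine le_trans ?_ (DF_ge_level h hc hT hα hβ hε hG)
  have p1 : 0 ≤ E2 μ p n (fun k => ker T (m + 1) k.1 * Ck k) := by
    refine integral_nonneg fun q => ?_
    exact mul_nonneg (ker_pos _ (one_sub_pos' hT' (h.pr_mem q).1.2)).le (sq_nonneg _)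
  have p2 : 0 ≤ E2 μ p n (fun k => Xk k * (α * ker T (m + 1) k.1 - β * ker T (m + 2) k.1)) := by
    refine integral_nonneg fun q => ?_
    have hk := h.pr_mem q
    have hv := one_sub_pos' hT' hk.1.2
    change 0 ≤ Xk (SM2.pr p n q) * (α * ker T (m + 1) (SM2.pr p n q).1
      - β * ker T (m + 2) (SM2.pr p n q).1)
    refine mul_nonneg (sq_nonneg _) ?_
    have e2 : ker T (m + 2) (SM2.pr p n q).1
        = ker T (m + 1) (SM2.pr p n q).1 / (1 - T * (SM2.pr p n q).1) := by
      have := ker_succ_div T (SM2.pr p n q).1 (m + 1) 1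
      rw [pow_one] at this
      rw [← this]
    rw [e2]
    have hk1 := ker_pos (m + 1) hv
    have h1 : 1 - T ≤ 1 - T * (SM2.pr p n q).1 := by nlinarith [hT.1, hk.1.2]
    have h2 : β / (1 - T * (SM2.pr p n q).1) ≤ α := by
      rw [div_le_iff₀ hv]
      exact hpos.trans (mul_le_mul_of_nonneg_left h1 hα0)
    have h3 := mul_le_mul_of_nonneg_right h2 hk1.le
    have h4 : β * (ker T (m + 1) (SM2.pr p n q).1 / (1 - T * (SM2.pr p n q).1))
        = β / (1 - T * (SM2.pr p n q).1) * ker T (m + 1) (SM2.pr p n q).1 := by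
      field_simp
    linarith
  have p3 : 0 ≤ ε * E2 μ p n (fun k => ker T (m + 1) k.1 * Ck k) := mul_nonneg hε0 p1
  linarith

/-- the defect is bounded below by the second square and the tail -/
theorem DF_ge_C (h : Two μ m p n) (hc : CertO m y Z e r) {T l α β ε G s1 : ℝ}
    (hT : T ∈ Ioo (0 : ℝ) 1)
    (hα : α ≤ m * (T * y T + m * r T) - (m + 1) * (m + 2) * T ^ 2 * r T / (1 - T ^ 2) * l)
    (hβ : m * (m + 1) * (T * |2 * r T - e T| - 2 * T ^ 2 * r T) ≤ β) (hε : ε ≤ m * e T)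
    (hG : (m + 1) * (m + 2) * T ^ 2 * r T / (1 - T ^ 2) / 2 ≤ G)
    (hα0 : 0 ≤ α) (hε0 : 0 ≤ ε) (hs1 : s1 < 1) (hpos : β ≤ α * (1 - T)) :
    ta (m + 1) T ε 0 s1 * E2 μ p n Ck
      + tb (m + 1) T ε 0 s1 * (E2 μ p n (fun k => Ck k * k.1) - s1 * E2 μ p n Ck)
      - G * E2 μ p n (TK m T l) ≤ DF μ m p n y e r T := by
  have hT' : T ∈ Ico (0 : ℝ) 1 := ⟨hT.1.le, hT.2⟩
  refine le_trans ?_ (DF_ge_level h hc hT hα hβ hε hG)
  have m1 := measurable_ker T (m + 1)
  have c1 := contOn_ker' hT' (m + 1)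
  have mC : Measurable Ck := by unfold Ck; fun_prop
  have cC : ContinuousOn Ck KK := by unfold Ck; fun_prop
  have mCs : Measurable (fun k : R4 => Ck k * k.1) := by fun_prop
  have cCs : ContinuousOn (fun k : R4 => Ck k * k.1) KK := cC.mul (by fun_prop)
  have p1 : ta (m + 1) T ε 0 s1 * E2 μ p n Ck
      + tb (m + 1) T ε 0 s1 * (E2 μ p n (fun k => Ck k * k.1) - s1 * E2 μ p n Ck)
      ≤ ε * E2 μ p n (fun k => ker T (m + 1) k.1 * Ck k) := by
    have e1 : ta (m + 1) T ε 0 s1 * E2 μ p n Ck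
        + tb (m + 1) T ε 0 s1 * (E2 μ p n (fun k => Ck k * k.1) - s1 * E2 μ p n Ck)
        = E2 μ p n (fun k => (ta (m + 1) T ε 0 s1 - tb (m + 1) T ε 0 s1 * s1) * Ck k
          + tb (m + 1) T ε 0 s1 * (Ck k * k.1)) := by
      rw [E2_add h (mC.const_mul _) (continuousOn_const.mul cC) (mCs.const_mul _)
        (continuousOn_const.mul cCs), E2_mul, E2_mul]
      ring
    rw [e1, ← E2_mul]
    refine E2_mono h ((mC.const_mul _).add (mCs.const_mul _))
      ((continuousOn_const.mul cC).add (continuousOn_const.mul cCs))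
      ((m1.comp measurable_fst).mul mC |>.const_mul _)
      (continuousOn_const.mul (c1.mul cC)) fun q => ?_
    have hk := h.pr_mem q
    set k := SM2.pr p n q
    have h1 := comb_tangent (T := T) (s := k.1) (s0 := s1) (α := ε) (β := 0) (q := m + 1) hT.1.le
      hT.2 hk.1.2 hs1 hε0 (by
        rw [mul_zero]
        have : 0 < 1 - T := by linarith [hT.2]
        positivity)
    have hC : 0 ≤ Ck k := sq_nonneg _
    have h2 := mul_le_mul_of_nonneg_right h1 hC
    unfold ta tb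
    rw [zero_mul, sub_zero] at h2
    linarith
  have p2 : 0 ≤ E2 μ p n (fun k => Xk k * (α * ker T (m + 1) k.1 - β * ker T (m + 2) k.1)) := by
    refine integral_nonneg fun q => ?_
    have hk := h.pr_mem q
    have hv := one_sub_pos' hT' hk.1.2
    change 0 ≤ Xk (SM2.pr p n q) * (α * ker T (m + 1) (SM2.pr p n q).1
      - β * ker T (m + 2) (SM2.pr p n q).1)
    refine mul_nonneg (sq_nonneg _) ?_
    have e2 : ker T (m + 2) (SM2.pr p n q).1
        = ker T (m + 1) (SM2.pr p n q).1 / (1 - T * (SM2.pr p n q).1) := by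
      have := ker_succ_div T (SM2.pr p n q).1 (m + 1) 1
      rw [pow_one] at this
      rw [← this]
    rw [e2]
    have hk1 := ker_pos (m + 1) hv
    have h1 : 1 - T ≤ 1 - T * (SM2.pr p n q).1 := by nlinarith [hT.1, hk.1.2]
    have h2 : β / (1 - T * (SM2.pr p n q).1) ≤ α := by
      rw [div_le_iff₀ hv]
      exact hpos.trans (mul_le_mul_of_nonneg_left h1 hα0)
    have h3 := mul_le_mul_of_nonneg_right h2 hk1.le
    have h4 : β * (ker T (m + 1) (SM2.pr p n q).1 / (1 - T * (SM2.pr p n q).1))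
        = β / (1 - T * (SM2.pr p n q).1) * ker T (m + 1) (SM2.pr p n q).1 := by
      field_simp
    linarith
  linarith

end

end Vale.Agent.P224.R2.H582
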