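import Vale.Agent.P224.R2.H582.Scal

/-!
Taylor bounds of the kernel at negative arguments.
-/

namespace Vale.Agent.P224.R2.H582

open Set Function Real Vale.Agent.P224.SM2

/-- lower Taylor polynomial of `(1 + x)^(-q)` -/
noncomputable def Lt (q x : ℝ) : ℝ :=
  1 - q * x + q * (q + 1) / 2 * x ^ 2 - q * (q + 1) * (q + 2) / 6 * x ^ 3

/-- upper Taylor polynomial of `(1 + x)^(-q)` -/
noncomputable def Ut (q x : ℝ) : ℝ := 1 - q * x + q * (q + 1) / 2 * x ^ 2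

lemma inv_pow_le_Ut (q : ℕ) {x : ℝ} (hx : 0 ≤ x) : ((1 + x) ^ q)⁻¹ ≤ Ut q x := by
  induction q with
  | zero => simp [Ut]
  | succ q ih =>
    have h1 : (0 : ℝ) < 1 + x := by linarith
    have h2 : ((1 + x) ^ (q + 1))⁻¹ ≤ Ut q x / (1 + x) := by
      rw [pow_succ, mul_inv, ← div_eq_mul_inv]
      exact (div_le_div_iff_of_pos_right h1).2 ih
    refine h2.trans ?_
    rw [div_le_iff₀ h1]
    unfold Ut
    push_cast
    have : 0 ≤ ((q : ℝ) + 1) * (q + 2) / 2 * x ^ 3 := by positivity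
    linarith

lemma Lt_le_inv_pow (q : ℕ) {x : ℝ} (hx : 0 ≤ x) : Lt q x ≤ ((1 + x) ^ q)⁻¹ := by
  induction q with
  | zero => simp [Lt]
  | succ q ih =>
    have h1 : (0 : ℝ) < 1 + x := by linarith
    have h2 : Lt q x / (1 + x) ≤ ((1 + x) ^ (q + 1))⁻¹ := by
      rw [pow_succ, mul_inv, ← div_eq_mul_inv]
      exact (div_le_div_iff_of_pos_right h1).2 ih
    refine le_trans ?_ h2
    rw [le_div_iff₀ h1]
    unfold Lt
    push_cast
    have : 0 ≤ ((q : ℝ) + 1) * (q + 2) * (q + 3) / 6 * x ^ 4 := by positivity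
    linarith

lemma ker_le_Ut (q : ℕ) {T σ : ℝ} (hT : 0 ≤ T) (hσ : 0 ≤ σ) : SM2.ker T q (-σ) ≤ Ut q (σ * T) := by
  have h := inv_pow_le_Ut q (mul_nonneg hσ hT)
  have e : SM2.ker T q (-σ) = ((1 + σ * T) ^ q)⁻¹ := by
    unfold SM2.ker
    rw [show 1 - T * -σ = 1 + σ * T by ring]
  rwa [e]

lemma Lt_le_ker (q : ℕ) {T σ : ℝ} (hT : 0 ≤ T) (hσ : 0 ≤ σ) : Lt q (σ * T) ≤ SM2.ker T q (-σ) := by
  have h := Lt_le_inv_pow q (mul_nonneg hσ hT)
  have e : SM2.ker T q (-σ) = ((1 + σ * T) ^ q)⁻¹ := by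
    unfold SM2.ker
    rw [show 1 - T * -σ = 1 + σ * T by ring]
  rwa [e]

end Vale.Agent.P224.R2.H582
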