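import Vale.Agent.P224.R2.H582.If
import Vale.Agent.P224.R2.H582.Tay

/-!
Polynomial bounds of the tangent coefficients.
-/

namespace Vale.Agent.P224.R2.H582

open MeasureTheory Set Filter Function Real Vale.Agent.P224.SM2 Vale.Agent.P224.R2.H820
open scoped Topology RealInnerProductSpace

set_option linter.unusedSectionVars false

/-- the coefficient of `v^(-m-1)` with threshold `(1 - T^2) lam` -/
noncomputable def al (m T y r lam : ℝ) : ℝ :=
  m * (T * y + m * r) - (m + 1) * (m + 2) * T ^ 2 * r * lam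

/-- minus the coefficient of `v^(-m-2)` -/
noncomputable def be (m κ T e r : ℝ) : ℝ :=
  m * (m + 1) * T * (2 * (1 - T) * r - e + κ * T ^ 4 * e)

/-- lower bound of half the tangent value at `-σ` -/
noncomputable def b0 (m κ σ T y e r lam : ℝ) : ℝ :=
  1 / 2 * (m * (T * y + m * r) * Lt (m + 1) (σ * T)
    - (m + 1) * (m + 2) * T ^ 2 * r * lam * Ut (m + 1) (σ * T)
    + m * (m + 1) * T * e * Lt (m + 2) (σ * T)
    - m * (m + 1) * κ * T ^ 5 * e * Ut (m + 2) (σ * T)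
    - 2 * m * (m + 1) * T * (1 - T) * r * Ut (m + 2) (σ * T))

/-- upper bound of half the tangent slope at `-σ` -/
noncomputable def b1 (m κ σ T y e r lam : ℝ) : ℝ :=
  1 / 2 * (T * ((m + 1) * (m * (T * y + m * r) * Ut (m + 2) (σ * T)
      - (m + 1) * (m + 2) * T ^ 2 * r * lam * Lt (m + 2) (σ * T))
    - (m + 2) * (m * (m + 1) * T * (2 * (1 - T) * r * Lt (m + 3) (σ * T)
      - e * Ut (m + 3) (σ * T) + κ * T ^ 4 * e * Lt (m + 3) (σ * T)))))

variable {m : ℕ} {κ σ T y e r lam : ℝ}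

lemma b0_le (hκ : 0 ≤ κ) (hσ : 0 ≤ σ) (hT0 : 0 ≤ T) (hT1 : T ≤ 1) (hy : 0 ≤ y) (he : 0 ≤ e) (hr : 0 ≤ r)
    (hl : 0 ≤ lam) :
    b0 m κ σ T y e r lam ≤ 1 / 2 * ta (m + 1) T (al m T y r lam) (be m κ T e r) (-σ) := by
  have u1 : SM2.ker T (m + 1) (-σ) ≤ Ut (m + 1) (σ * T) := by
    have := ker_le_Ut (m + 1) hT0 hσ
    push_cast at this
    exact this
  have u2 : SM2.ker T (m + 2) (-σ) ≤ Ut (m + 2) (σ * T) := by
    have := ker_le_Ut (m + 2) hT0 hσ
    push_cast at this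
    exact this
  have l1 : Lt (m + 1) (σ * T) ≤ SM2.ker T (m + 1) (-σ) := by
    have := Lt_le_ker (m + 1) hT0 hσ
    push_cast at this
    exact this
  have l2 : Lt (m + 2) (σ * T) ≤ SM2.ker T (m + 2) (-σ) := by
    have := Lt_le_ker (m + 2) hT0 hσ
    push_cast at this
    exact this
  have h1T : 0 ≤ 1 - T := by linarith
  have a1 : m * (T * y + m * r) * Lt (m + 1) (σ * T)
      ≤ m * (T * y + m * r) * SM2.ker T (m + 1) (-σ) :=
    mul_le_mul_of_nonneg_left l1 (by positivity)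
  have a2 : (m + 1) * (m + 2) * T ^ 2 * r * lam * SM2.ker T (m + 1) (-σ)
      ≤ (m + 1) * (m + 2) * T ^ 2 * r * lam * Ut (m + 1) (σ * T) :=
    mul_le_mul_of_nonneg_left u1 (by positivity)
  have a3 : m * (m + 1) * T * e * Lt (m + 2) (σ * T)
      ≤ m * (m + 1) * T * e * SM2.ker T (m + 2) (-σ) :=
    mul_le_mul_of_nonneg_left l2 (by positivity)
  have a5 : m * (m + 1) * κ * T ^ 5 * e * SM2.ker T (m + 2) (-σ)
      ≤ m * (m + 1) * κ * T ^ 5 * e * Ut (m + 2) (σ * T) :=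
    mul_le_mul_of_nonneg_left u2 (by positivity)
  have a4 : 2 * m * (m + 1) * T * (1 - T) * r * SM2.ker T (m + 2) (-σ)
      ≤ 2 * m * (m + 1) * T * (1 - T) * r * Ut (m + 2) (σ * T) :=
    mul_le_mul_of_nonneg_left u2 (by positivity)
  unfold b0 ta al be
  rw [show m + 1 + 1 = m + 2 from rfl]
  linarith

lemma le_b1 (hκ : 0 ≤ κ) (hσ : 0 ≤ σ) (hT0 : 0 ≤ T) (hT1 : T ≤ 1) (hy : 0 ≤ y) (he : 0 ≤ e) (hr : 0 ≤ r)
    (hl : 0 ≤ lam) :
    1 / 2 * tb (m + 1) T (al m T y r lam) (be m κ T e r) (-σ) ≤ b1 m κ σ T y e r lam := by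
  have u1 : SM2.ker T (m + 2) (-σ) ≤ Ut (m + 2) (σ * T) := by
    have := ker_le_Ut (m + 2) hT0 hσ
    push_cast at this
    exact this
  have u2 : SM2.ker T (m + 3) (-σ) ≤ Ut (m + 3) (σ * T) := by
    have := ker_le_Ut (m + 3) hT0 hσ
    push_cast at this
    exact this
  have l1 : Lt (m + 2) (σ * T) ≤ SM2.ker T (m + 2) (-σ) := by
    have := Lt_le_ker (m + 2) hT0 hσ
    push_cast at this
    exact this
  have l2 : Lt (m + 3) (σ * T) ≤ SM2.ker T (m + 3) (-σ) := by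
    have := Lt_le_ker (m + 3) hT0 hσ
    push_cast at this
    exact this
  have h1T : 0 ≤ 1 - T := by linarith
  have a1 : (m + 1) * (m * (T * y + m * r)) * SM2.ker T (m + 2) (-σ)
      ≤ (m + 1) * (m * (T * y + m * r)) * Ut (m + 2) (σ * T) :=
    mul_le_mul_of_nonneg_left u1 (by positivity)
  have a2 : (m + 1) * ((m + 1) * (m + 2) * T ^ 2 * r * lam) * Lt (m + 2) (σ * T)
      ≤ (m + 1) * ((m + 1) * (m + 2) * T ^ 2 * r * lam) * SM2.ker T (m + 2) (-σ) :=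
    mul_le_mul_of_nonneg_left l1 (by positivity)
  have a3 : (m + 2) * (m * (m + 1) * T * (2 * (1 - T) * r)) * Lt (m + 3) (σ * T)
      ≤ (m + 2) * (m * (m + 1) * T * (2 * (1 - T) * r)) * SM2.ker T (m + 3) (-σ) :=
    mul_le_mul_of_nonneg_left l2 (by positivity)
  have a4 : (m + 2) * (m * (m + 1) * T * e) * SM2.ker T (m + 3) (-σ)
      ≤ (m + 2) * (m * (m + 1) * T * e) * Ut (m + 3) (σ * T) :=
    mul_le_mul_of_nonneg_left u2 (by positivity)
  have a5 : (m + 2) * (m * (m + 1) * T * (κ * T ^ 4 * e)) * Lt (m + 3) (σ * T)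
      ≤ (m + 2) * (m * (m + 1) * T * (κ * T ^ 4 * e)) * SM2.ker T (m + 3) (-σ) :=
    mul_le_mul_of_nonneg_left l2 (by positivity)
  have key : (m + 1) * (al m T y r lam) * SM2.ker T (m + 2) (-σ)
      - (m + 2) * (be m κ T e r) * SM2.ker T (m + 3) (-σ)
      ≤ (m + 1) * (m * (T * y + m * r) * Ut (m + 2) (σ * T)
      - (m + 1) * (m + 2) * T ^ 2 * r * lam * Lt (m + 2) (σ * T))
    - (m + 2) * (m * (m + 1) * T * (2 * (1 - T) * r * Lt (m + 3) (σ * T)
      - e * Ut (m + 3) (σ * T) + κ * T ^ 4 * e * Lt (m + 3) (σ * T))) := by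
    unfold al be
    linarith
  have key2 := mul_le_mul_of_nonneg_left key hT0
  unfold b1 tb
  rw [show m + 1 + 1 = m + 2 from rfl, show m + 1 + 2 = m + 3 from rfl]
  push_cast
  rw [show ((m : ℝ) + 1 + 1) = m + 2 by ring]
  linarith

lemma tb_nonneg (hσ : 0 ≤ σ) (hT0 : 0 ≤ T) {α β : ℝ} (hα : 0 ≤ α)
    (hconv : (m + 3) * β ≤ (m + 1) * α * (1 - T)) : 0 ≤ tb (m + 1) T α β (-σ) := by
  unfold tb
  refine mul_nonneg hT0 ?_
  have hv : 0 < 1 - T * (-σ) := by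
    have := mul_nonneg hT0 hσ
    linarith
  have e2 : SM2.ker T (m + 1 + 1) (-σ) = SM2.ker T (m + 1 + 2) (-σ) * (1 - T * (-σ)) := by
    have h3 := ker_succ_div T (-σ) (m + 1 + 1) 1
    rw [pow_one] at h3
    rw [show m + 1 + 2 = m + 1 + 1 + 1 from rfl, h3, div_mul_cancel₀ _ hv.ne']
  rw [e2]
  have hk := (ker_pos (m + 1 + 2) hv).le
  have h1 : ((m : ℝ) + 1) * α * (1 - T) ≤ (m + 1) * α * (1 - T * (-σ)) := by
    refine mul_le_mul_of_nonneg_left ?_ (by positivity)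
    have := mul_nonneg hT0 hσ
    linarith
  rcases le_or_gt 0 β with hβ | hβ
  · have h2 : ((m : ℝ) + 1 + 1) * β ≤ (m + 3) * β := by nlinarith
    have h3 : 0 ≤ ((m : ℝ) + 1) * α * (1 - T * (-σ)) - ((m : ℝ) + 1 + 1) * β := by linarith
    have h4 := mul_nonneg hk h3
    push_cast
    linarith
  · have h3 : 0 ≤ ((m : ℝ) + 1) * α * (1 - T * (-σ)) := by positivity
    have h5 : 0 ≤ -(((m : ℝ) + 1 + 1) * β) := by nlinarith
    have h4 := mul_nonneg hk (add_nonneg h3 h5)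
    push_cast
    linarith

end Vale.Agent.P224.R2.H582
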