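import Vale.Agent.P224.R2.H582.Nb
import Vale.Agent.P224.R2.H582.Min

/-!
The tangent weights with Taylor polynomials of any order, their integrals and rational bounds.
-/

namespace Vale.Agent.P224.R2.H582

open MeasureTheory Set Filter Function Real
open Vale.Agent.P224.R2.H627 Vale.Agent.P224.R2.H820 Vale.Agent.P224.SM2
open scoped Topology

set_option linter.unusedSectionVars false

/-- coefficients of y in the tangent value -/
def aY (m s : ℚ) (nL : ℕ) : List ℚ := psc (m / 2) (psh 1 (tl (m + 1) s nL 0 1))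

/-- coefficients of e in the tangent value -/
def aE (m s kap : ℚ) (nL nU : ℕ) : List ℚ :=
  padd (psc (m * (m + 1) / 2) (psh 1 (tl (m + 2) s nL 0 1)))
    (psc (-(m * (m + 1) * kap / 2)) (psh 5 (tl (m + 2) s nU 0 1)))

/-- coefficients of r in the tangent value, for the threshold polynomial with the list `la` -/
def aR (m s : ℚ) (la : List ℚ) (nL nU : ℕ) : List ℚ :=
  padd (psc (m ^ 2 / 2) (tl (m + 1) s nL 0 1))
    (padd (psc (-((m + 1) * (m + 2) / 2)) (psh 2 (pmul la (tl (m + 1) s nU 0 1))))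
      (padd (psc (-(m * (m + 1))) (psh 1 (tl (m + 2) s nU 0 1)))
        (psc (m * (m + 1)) (psh 2 (tl (m + 2) s nU 0 1)))))

/-- coefficients of y in the tangent slope -/
def cY (m s : ℚ) (nU : ℕ) : List ℚ := psc ((m + 1) * m / 2) (psh 2 (tl (m + 2) s nU 0 1))

/-- coefficients of e in the tangent slope -/
def cE (m s : ℚ) (nU : ℕ) : List ℚ :=
  psc ((m + 2) * (m * (m + 1)) / 2) (psh 2 (tl (m + 3) s nU 0 1))

/-- coefficients of r in the tangent slope -/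
def cR (m s : ℚ) (nU : ℕ) : List ℚ := psc ((m + 1) * m ^ 2 / 2) (psh 1 (tl (m + 2) s nU 0 1))

/-- combination of the three weights -/
noncomputable def cmb (lY lE lR : List ℚ) (y e r : ℝ → ℝ) (T : ℝ) : ℝ :=
  pe lY 0 T * y T + pe lE 0 T * e T + pe lR 0 T * r T

lemma contOn_cmb {y e r : ℝ → ℝ} (hy : ContinuousOn y (Icc 0 1)) (he : ContinuousOn e (Icc 0 1))
    (hr : ContinuousOn r (Icc 0 1)) (lY lE lR : List ℚ) :
    ContinuousOn (cmb lY lE lR y e r) (Icc 0 1) :=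
  (((continuous_pe lY 0).continuousOn.mul hy).add
    ((continuous_pe lE 0).continuousOn.mul he)).add ((continuous_pe lR 0).continuousOn.mul hr)

lemma int_cmb {y e r : ℝ → ℝ} (hy : ContinuousOn y (Icc 0 1)) (he : ContinuousOn e (Icc 0 1))
    (hr : ContinuousOn r (Icc 0 1)) (lY lE lR : List ℚ) :
    ∫ T in (0 : ℝ)..1, cmb lY lE lR y e r T = (pd lY 0 fun j => ∫ T in (0 : ℝ)..1, T ^ j * y T)
      + (pd lE 0 fun j => ∫ T in (0 : ℝ)..1, T ^ j * e T)
      + pd lR 0 fun j => ∫ T in (0 : ℝ)..1, T ^ j * r T := by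
  have i1 : IntervalIntegrable (fun T => pe lY 0 T * y T) volume 0 1 :=
    intble ((continuous_pe lY 0).continuousOn.mul hy)
  have i2 : IntervalIntegrable (fun T => pe lE 0 T * e T) volume 0 1 :=
    intble ((continuous_pe lE 0).continuousOn.mul he)
  have i3 : IntervalIntegrable (fun T => pe lR 0 T * r T) volume 0 1 :=
    intble ((continuous_pe lR 0).continuousOn.mul hr)
  unfold cmb
  rw [intervalIntegral.integral_add (i1.add i2) i3, intervalIntegral.integral_add i1 i2,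
    int_pe hy, int_pe he, int_pe hr]

lemma ker_neg (q : ℕ) (T σ : ℝ) : SM2.ker T q (-σ) = ((1 + σ * T) ^ q)⁻¹ := by
  unfold SM2.ker
  rw [show 1 - T * -σ = 1 + σ * T by ring]

variable {m : ℕ} {s kap : ℚ} {la : List ℚ} {nL nU : ℕ} {T lam y e r : ℝ}

lemma cmb_a (y e r : ℝ → ℝ) (T : ℝ) : cmb (aY m s nL) (aE m s kap nL nU) (aR m s la nL nU) y e r T
    = 1 / 2 * (m * (T * y T + m * r T) * Tp (m + 1) nL (s * T)
      - (m + 1) * (m + 2) * T ^ 2 * r T * pe la 0 T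
        * Tp (m + 1) nU (s * T)
      + m * (m + 1) * T * e T * Tp (m + 2) nL (s * T)
      - m * (m + 1) * kap * T ^ 5 * e T * Tp (m + 2) nU (s * T)
      - 2 * m * (m + 1) * T * (1 - T) * r T * Tp (m + 2) nU (s * T)) := by
  have h1 := pe_tl_zero (m + 1) s nL T
  have h2 := pe_tl_zero (m + 2) s nL T
  have h3 := pe_tl_zero (m + 1) s nU T
  have h4 := pe_tl_zero (m + 2) s nU T
  push_cast at h1 h2 h3 h4
  simp only [cmb, aY, aE, aR, pe_add, pe_sc, pe_sh, zero_add]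
  rw [pe_shift _ 1, pe_shift _ 1, pe_shift _ 5, pe_shift _ 2, pe_shift _ 1, pe_shift _ 2, pe_mul,
    h1, h2, h3, h4]
  push_cast
  ring

lemma cmb_c (y e r : ℝ → ℝ) (T : ℝ) : cmb (cY m s nU) (cE m s nU) (cR m s nU) y e r T
    = 1 / 2 * (T * ((m + 1) * (m * (T * y T + m * r T)) * Tp (m + 2) nU (s * T)
      + (m + 2) * (m * (m + 1) * T * e T) * Tp (m + 3) nU (s * T))) := by
  have h1 := pe_tl_zero (m + 2) s nU T
  have h2 := pe_tl_zero (m + 3) s nU T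
  push_cast at h1 h2
  simp only [cmb, cY, cE, cR, pe_sc, pe_sh, zero_add]
  rw [pe_shift _ 2, pe_shift _ 2, pe_shift _ 1, h1, h2]
  push_cast
  ring

lemma Tp_le_ker (hn : Odd nL) (q : ℕ) (hs : 0 ≤ s) (hT : 0 ≤ T) :
    Tp q nL (s * T) ≤ SM2.ker T q (-(s : ℝ)) := by
  have hs' : (0 : ℝ) ≤ s := by exact_mod_cast hs
  rw [ker_neg]
  exact Tp_le nL hn q (mul_nonneg hs' hT)

lemma ker_le_Tp (hn : Even nU) (q : ℕ) (hs : 0 ≤ s) (hT : 0 ≤ T) :
    SM2.ker T q (-(s : ℝ)) ≤ Tp q nU (s * T) := by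
  have hs' : (0 : ℝ) ≤ s := by exact_mod_cast hs
  rw [ker_neg]
  exact le_Tp nU hn q (mul_nonneg hs' hT)

lemma Tp_nonneg (hn : Even nU) (q : ℕ) (hs : 0 ≤ s) (hT : 0 ≤ T) : 0 ≤ Tp q nU (s * T) := by
  have hs' : (0 : ℝ) ≤ s := by exact_mod_cast hs
  have h := ker_le_Tp hn q hs hT
  refine le_trans (ker_pos q ?_).le h
  have := mul_nonneg hT hs'
  linarith

/-- the tangent value from below -/
lemma cmb_a_le (hnL : Odd nL) (hnU : Even nU) (hs : 0 ≤ s) (hk : 0 ≤ kap) (hT0 : 0 ≤ T)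
    (hT1 : T ≤ 1) {y e r : ℝ → ℝ} (hy : 0 ≤ y T) (he : 0 ≤ e T) (hr : 0 ≤ r T) (hl : 0 ≤ lam)
    (hlam : lam ≤ pe la 0 T) :
    cmb (aY m s nL) (aE m s kap nL nU) (aR m s la nL nU) y e r T
      ≤ 1 / 2 * ta (m + 1) T (al m T (y T) (r T) lam) (be m kap T (e T) (r T)) (-(s : ℝ)) := by
  have hk' : (0 : ℝ) ≤ kap := by exact_mod_cast hk
  have u1 := ker_le_Tp hnU (m + 1) hs hT0
  have u2 := ker_le_Tp hnU (m + 2) hs hT0
  have l1 := Tp_le_ker hnL (m + 1) hs hT0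
  have l2 := Tp_le_ker hnL (m + 2) hs hT0
  have n1 := Tp_nonneg hnU (m + 1) hs hT0
  push_cast at u1 u2 l1 l2 n1
  rw [cmb_a]
  set L1 := Tp (m + 1) nL (s * T)
  set L2 := Tp (m + 2) nL (s * T)
  set U1 := Tp (m + 1) nU (s * T)
  set U2 := Tp (m + 2) nU (s * T)
  set Lam := pe la 0 T
  have h1T : 0 ≤ 1 - T := by linarith
  have a1 : m * (T * y T + m * r T) * L1
      ≤ m * (T * y T + m * r T) * SM2.ker T (m + 1) (-(s : ℝ)) :=
    mul_le_mul_of_nonneg_left l1 (by positivity)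
  have a2 : (m + 1) * (m + 2) * T ^ 2 * r T * lam * SM2.ker T (m + 1) (-(s : ℝ))
      ≤ (m + 1) * (m + 2) * T ^ 2 * r T * Lam * U1 := by
    have q1 : (m + 1) * (m + 2) * T ^ 2 * r T * lam * SM2.ker T (m + 1) (-(s : ℝ))
        ≤ (m + 1) * (m + 2) * T ^ 2 * r T * lam * U1 :=
      mul_le_mul_of_nonneg_left u1 (by positivity)
    have q2 : (m + 1) * (m + 2) * T ^ 2 * r T * lam * U1
        ≤ (m + 1) * (m + 2) * T ^ 2 * r T * Lam * U1 :=
      mul_le_mul_of_nonneg_right (mul_le_mul_of_nonneg_left hlam (by positivity)) n1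
    exact q1.trans q2
  have a3 : m * (m + 1) * T * e T * L2 ≤ m * (m + 1) * T * e T * SM2.ker T (m + 2) (-(s : ℝ)) :=
    mul_le_mul_of_nonneg_left l2 (by positivity)
  have a5 : m * (m + 1) * kap * T ^ 5 * e T * SM2.ker T (m + 2) (-(s : ℝ))
      ≤ m * (m + 1) * kap * T ^ 5 * e T * U2 :=
    mul_le_mul_of_nonneg_left u2 (by positivity)
  have a4 : 2 * m * (m + 1) * T * (1 - T) * r T * SM2.ker T (m + 2) (-(s : ℝ))
      ≤ 2 * m * (m + 1) * T * (1 - T) * r T * U2 :=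
    mul_le_mul_of_nonneg_left u2 (by positivity)
  unfold ta al be
  rw [show m + 1 + 1 = m + 2 from rfl]
  linarith

/-- the tangent slope from above -/
lemma le_cmb_c (hnU : Even nU) (hs : 0 ≤ s) (hk : 0 ≤ kap) (hT0 : 0 ≤ T)
    (hT1 : T ≤ 1) {y e r : ℝ → ℝ} (hy : 0 ≤ y T) (he : 0 ≤ e T) (hr : 0 ≤ r T) (hl : 0 ≤ lam) :
    1 / 2 * tb (m + 1) T (al m T (y T) (r T) lam) (be m kap T (e T) (r T)) (-(s : ℝ))
      ≤ cmb (cY m s nU) (cE m s nU) (cR m s nU) y e r T := by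
  have hk' : (0 : ℝ) ≤ kap := by exact_mod_cast hk
  have hs' : (0 : ℝ) ≤ s := by exact_mod_cast hs
  have u1 := ker_le_Tp hnU (m + 2) hs hT0
  have u2 := ker_le_Tp hnU (m + 3) hs hT0
  push_cast at u1 u2
  have hv : 0 < 1 - T * (-(s : ℝ)) := by
    have := mul_nonneg hT0 hs'
    linarith
  have p1 := (ker_pos (m + 2) hv).le
  have p2 := (ker_pos (m + 3) hv).le
  rw [cmb_c]
  set U1 := Tp (m + 2) nU (s * T)
  set U2 := Tp (m + 3) nU (s * T)
  have h1T : 0 ≤ 1 - T := by linarith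
  have a1 : (m + 1) * (m * (T * y T + m * r T)) * SM2.ker T (m + 2) (-(s : ℝ))
      ≤ (m + 1) * (m * (T * y T + m * r T)) * U1 :=
    mul_le_mul_of_nonneg_left u1 (by positivity)
  have a2 : 0 ≤ (m + 1) * ((m + 1) * (m + 2) * T ^ 2 * r T * lam)
      * SM2.ker T (m + 2) (-(s : ℝ)) := by positivity
  have a3 : (m + 2) * (m * (m + 1) * T * e T) * SM2.ker T (m + 3) (-(s : ℝ))
      ≤ (m + 2) * (m * (m + 1) * T * e T) * U2 :=
    mul_le_mul_of_nonneg_left u2 (by positivity)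
  have a4 : 0 ≤ (m + 2) * (m * (m + 1) * T * (2 * (1 - T) * r T + kap * T ^ 4 * e T))
      * SM2.ker T (m + 3) (-(s : ℝ)) := by positivity
  have key : (m + 1) * (al m T (y T) (r T) lam) * SM2.ker T (m + 2) (-(s : ℝ))
      - (m + 2) * (be m kap T (e T) (r T)) * SM2.ker T (m + 3) (-(s : ℝ))
      ≤ (m + 1) * (m * (T * y T + m * r T)) * U1 + (m + 2) * (m * (m + 1) * T * e T) * U2 := by
    unfold al be
    linarith
  have key2 := mul_le_mul_of_nonneg_left key hT0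
  unfold tb
  rw [show m + 1 + 1 = m + 2 from rfl, show m + 1 + 2 = m + 3 from rfl]
  push_cast
  rw [show ((m : ℝ) + 1 + 1) = m + 2 by ring]
  linarith

lemma cmb_c_nonneg (hnU : Even nU) (hs : 0 ≤ s) (hT0 : 0 ≤ T) {y e r : ℝ → ℝ} (hy : 0 ≤ y T)
    (he : 0 ≤ e T) (hr : 0 ≤ r T) : 0 ≤ cmb (cY m s nU) (cE m s nU) (cR m s nU) y e r T := by
  have u1 := Tp_nonneg hnU (m + 2) hs hT0
  have u2 := Tp_nonneg hnU (m + 3) hs hT0
  push_cast at u1 u2
  rw [cmb_c]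
  positivity

lemma cmb_padd (a a' b b' c c' : List ℚ) (y e r : ℝ → ℝ) (T : ℝ) :
    cmb (padd a a') (padd b b') (padd c c') y e r T = cmb a b c y e r T + cmb a' b' c' y e r T := by
  simp only [cmb, pe_add]
  ring

lemma cmb_psc (q : ℚ) (a b c : List ℚ) (y e r : ℝ → ℝ) (T : ℝ) :
    cmb (psc q a) (psc q b) (psc q c) y e r T = q * cmb a b c y e r T := by
  simp only [cmb, pe_sc]
  ring

lemma cmb_psh (p : ℕ) (a b c : List ℚ) (y e r : ℝ → ℝ) (T : ℝ) :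
    cmb (psh p a) (psh p b) (psh p c) y e r T = T ^ p * cmb a b c y e r T := by
  simp only [cmb, pe_sh, zero_add]
  rw [pe_shift a p, pe_shift b p, pe_shift c p]
  ring

/-- positive part of the tangent value -/
def posE (m s : ℚ) (nL : ℕ) : List ℚ := psc (m * (m + 1) / 2) (psh 1 (tl (m + 2) s nL 0 1))

/-- positive part of the tangent value -/
def posR (m s : ℚ) (nL : ℕ) : List ℚ := psc (m ^ 2 / 2) (tl (m + 1) s nL 0 1)

/-- negative part of the tangent slope -/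
def negE (m s kap : ℚ) (nL : ℕ) : List ℚ :=
  psc ((m + 2) * (m * (m + 1)) * kap / 2) (psh 6 (tl (m + 3) s nL 0 1))

/-- negative part of the tangent slope -/
def negR (m s : ℚ) (lb : List ℚ) (nL : ℕ) : List ℚ :=
  padd (psc ((m + 1) ^ 2 * (m + 2) / 2) (psh 3 (pmul lb (tl (m + 2) s nL 0 1))))
    (psc ((m + 2) * (m * (m + 1))) (psh 2 (pmul [1, -1] (tl (m + 3) s nL 0 1))))

lemma cmb_pos (y e r : ℝ → ℝ) (T : ℝ) : cmb (aY m s nL) (posE m s nL) (posR m s nL) y e r T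
    = 1 / 2 * (m * (T * y T + m * r T) * Tp (m + 1) nL (s * T)
      + m * (m + 1) * T * e T * Tp (m + 2) nL (s * T)) := by
  have h1 := pe_tl_zero (m + 1) s nL T
  have h2 := pe_tl_zero (m + 2) s nL T
  push_cast at h1 h2
  simp only [cmb, aY, posE, posR, pe_sc, pe_sh, zero_add]
  rw [pe_shift _ 1, pe_shift _ 1, h1, h2]
  push_cast
  ring

lemma cmb_neg {lb : List ℚ} (y e r : ℝ → ℝ) (T : ℝ) :
    cmb [] (negE m s kap nL) (negR m s lb nL) y e r T
    = 1 / 2 * (T * ((m + 1) * ((m + 1) * (m + 2) * T ^ 2 * r T * pe lb 0 T)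
          * Tp (m + 2) nL (s * T)
        + (m + 2) * (m * (m + 1) * T * (2 * (1 - T) * r T + kap * T ^ 4 * e T))
          * Tp (m + 3) nL (s * T))) := by
  have h1 := pe_tl_zero (m + 2) s nL T
  have h2 := pe_tl_zero (m + 3) s nL T
  push_cast at h1 h2
  simp only [cmb, negE, negR, pe_add, pe_sc, pe_sh, zero_add]
  rw [pe_shift _ 6, pe_shift _ 3, pe_shift _ 2, pe_mul, pe_mul, h1, h2]
  simp only [pe]
  push_cast
  ring

/-- the tangent value is at most its positive part -/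
lemma cmb_a_le_pos (hnU : Even nU) (hs : 0 ≤ s) (hk : 0 ≤ kap) (hT0 : 0 ≤ T) (hT1 : T ≤ 1)
    (hla : 0 ≤ pe la 0 T) {y e r : ℝ → ℝ} (he : 0 ≤ e T) (hr : 0 ≤ r T) :
    cmb (aY m s nL) (aE m s kap nL nU) (aR m s la nL nU) y e r T
      ≤ cmb (aY m s nL) (posE m s nL) (posR m s nL) y e r T := by
  have hk' : (0 : ℝ) ≤ kap := by exact_mod_cast hk
  have n1 := Tp_nonneg hnU (m + 1) hs hT0
  have n2 := Tp_nonneg hnU (m + 2) hs hT0
  push_cast at n1 n2
  have h1T : 0 ≤ 1 - T := by linarith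
  rw [cmb_a, cmb_pos]
  set U1 := Tp (m + 1) nU (s * T)
  set U2 := Tp (m + 2) nU (s * T)
  have a2 : 0 ≤ (m + 1) * (m + 2) * T ^ 2 * r T * pe la 0 T * U1 := by positivity
  have a5 : 0 ≤ m * (m + 1) * kap * T ^ 5 * e T * U2 := by positivity
  have a4 : 0 ≤ 2 * m * (m + 1) * T * (1 - T) * r T * U2 := by positivity
  linarith

/-- the tangent slope from above, with the negative part -/
lemma le_cmb_c2 (hnL : Odd nL) (hnU : Even nU) (hs : 0 ≤ s) (hk : 0 ≤ kap) (hT0 : 0 ≤ T)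
    (hT1 : T ≤ 1) {y e r : ℝ → ℝ} (hy : 0 ≤ y T) (he : 0 ≤ e T) (hr : 0 ≤ r T) {lb : List ℚ}
    (hlb0 : 0 ≤ pe lb 0 T) (hlb : pe lb 0 T ≤ lam)
    (p1 : 0 ≤ Tp (m + 2) nL (s * T)) :
    1 / 2 * tb (m + 1) T (al m T (y T) (r T) lam) (be m kap T (e T) (r T)) (-(s : ℝ))
      ≤ cmb (cY m s nU) (cE m s nU) (cR m s nU) y e r T
        - cmb [] (negE m s kap nL) (negR m s lb nL) y e r T := by
  have hk' : (0 : ℝ) ≤ kap := by exact_mod_cast hk
  have u1 := ker_le_Tp hnU (m + 2) hs hT0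
  have u2 := ker_le_Tp hnU (m + 3) hs hT0
  have l1 := Tp_le_ker hnL (m + 2) hs hT0
  have l2 := Tp_le_ker hnL (m + 3) hs hT0
  push_cast at u1 u2 l1 l2
  rw [cmb_c, cmb_neg]
  set U1 := Tp (m + 2) nU (s * T)
  set U2 := Tp (m + 3) nU (s * T)
  set L1 := Tp (m + 2) nL (s * T)
  set L2 := Tp (m + 3) nL (s * T)
  set K1 := SM2.ker T (m + 2) (-(s : ℝ))
  set K2 := SM2.ker T (m + 3) (-(s : ℝ))
  have h1T : 0 ≤ 1 - T := by linarith
  have a1 : (m + 1) * (m * (T * y T + m * r T)) * K1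
      ≤ (m + 1) * (m * (T * y T + m * r T)) * U1 :=
    mul_le_mul_of_nonneg_left u1 (by positivity)
  have a2 : (m + 1) * ((m + 1) * (m + 2) * T ^ 2 * r T * pe lb 0 T) * L1
      ≤ (m + 1) * ((m + 1) * (m + 2) * T ^ 2 * r T * lam) * K1 := by
    have q1 : (m + 1) * ((m + 1) * (m + 2) * T ^ 2 * r T * pe lb 0 T)
        ≤ (m + 1) * ((m + 1) * (m + 2) * T ^ 2 * r T * lam) := by gcongr
    have q2 : 0 ≤ (m + 1) * ((m + 1) * (m + 2) * T ^ 2 * r T * lam) := by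
      have := hlb0.trans hlb
      positivity
    exact mul_le_mul q1 l1 p1 q2
  have a3 : (m + 2) * (m * (m + 1) * T * e T) * K2
      ≤ (m + 2) * (m * (m + 1) * T * e T) * U2 :=
    mul_le_mul_of_nonneg_left u2 (by positivity)
  have a4 : (m + 2) * (m * (m + 1) * T * (2 * (1 - T) * r T + kap * T ^ 4 * e T)) * L2
      ≤ (m + 2) * (m * (m + 1) * T * (2 * (1 - T) * r T + kap * T ^ 4 * e T)) * K2 :=
    mul_le_mul_of_nonneg_left l2 (by positivity)
  have key : (m + 1) * (al m T (y T) (r T) lam) * K1 - (m + 2) * (be m kap T (e T) (r T)) * K2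
      ≤ (m + 1) * (m * (T * y T + m * r T)) * U1 + (m + 2) * (m * (m + 1) * T * e T) * U2
        - ((m + 1) * ((m + 1) * (m + 2) * T ^ 2 * r T * pe lb 0 T) * L1
          + (m + 2) * (m * (m + 1) * T * (2 * (1 - T) * r T + kap * T ^ 4 * e T)) * L2) := by
    unfold al be
    linarith
  have key2 := mul_le_mul_of_nonneg_left key hT0
  unfold tb
  rw [show m + 1 + 1 = m + 2 from rfl, show m + 1 + 2 = m + 3 from rfl]
  push_cast
  rw [show ((m : ℝ) + 1 + 1) = m + 2 by ring]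
  linarith

lemma cmb_neg_nonneg {lb : List ℚ} (hk : 0 ≤ kap) (hT0 : 0 ≤ T) (hT1 : T ≤ 1) {y e r : ℝ → ℝ}
    (he : 0 ≤ e T) (hr : 0 ≤ r T) (hlb0 : 0 ≤ pe lb 0 T)
    (p1 : 0 ≤ Tp (m + 2) nL (s * T)) (p2 : 0 ≤ Tp (m + 3) nL (s * T)) :
    0 ≤ cmb [] (negE m s kap nL) (negR m s lb nL) y e r T := by
  have hk' : (0 : ℝ) ≤ kap := by exact_mod_cast hk
  have h1T : 0 ≤ 1 - T := by linarith
  rw [cmb_neg]
  positivity

lemma cmb_pos_nonneg (hT0 : 0 ≤ T) {y e r : ℝ → ℝ} (hy : 0 ≤ y T)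
    (he : 0 ≤ e T) (hr : 0 ≤ r T)
    (p1 : 0 ≤ Tp (m + 1) nL (s * T)) (p2 : 0 ≤ Tp (m + 2) nL (s * T)) :
    0 ≤ cmb (aY m s nL) (posE m s nL) (posR m s nL) y e r T := by
  rw [cmb_pos]
  positivity

/-- `q (q + 1) ... (q + j - 1) / j!` over the rationals -/
def aqQ (q : ℚ) : ℕ → ℚ
  | 0 => 1
  | j + 1 => aqQ q j * (q + j) / (j + 1)

lemma aqQ_cast (q : ℚ) (j : ℕ) : ((aqQ q j : ℚ) : ℝ) = Aq q j := by
  induction j with
  | zero => simp [aqQ, Aq]
  | succ j ih =>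
    rw [aqQ, Aq]
    push_cast
    rw [ih]

/-- condition for the positivity of the Taylor polynomial of odd order on `[0, s]` -/
def posOK (q : ℕ) (s : ℚ) (n : ℕ) : Bool :=
  decide (aqQ q (n + 1) * s ^ (n + 1) * (1 + s) ^ q ≤ 1)

lemma Tp_pos {n q : ℕ} {s : ℚ} (hn : Odd n) (hs : 0 ≤ s) (h : posOK q s n = true) {x : ℝ}
    (hx : 0 ≤ x) (hx1 : x ≤ s) : 0 ≤ Tp q n x := by
  have hs' : (0 : ℝ) ≤ s := by exact_mod_cast hs
  have hne : Even (n + 1) := hn.add_one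
  have h1 := le_Tp (n + 1) hne q hx
  rw [Tp_succ, hne.neg_pow] at h1
  have h2 : ((aqQ q (n + 1) * s ^ (n + 1) * (1 + s) ^ q : ℚ) : ℝ) ≤ 1 := by
    unfold posOK at h
    exact_mod_cast of_decide_eq_true h
  push_cast at h2
  rw [aqQ_cast] at h2
  push_cast at h2
  have hA : 0 ≤ Aq q (n + 1) := Aq_nonneg (Nat.cast_nonneg q) _
  have h3 : x ^ (n + 1) ≤ (s : ℝ) ^ (n + 1) := pow_le_pow_left₀ hx hx1 _
  have h4 : (1 + x) ^ q ≤ (1 + (s : ℝ)) ^ q := pow_le_pow_left₀ (by linarith) (by linarith) _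
  have h5 : 0 < (1 + x) ^ q := by positivity
  have h6 : Aq q (n + 1) * x ^ (n + 1) * (1 + x) ^ q ≤ 1 := by
    refine le_trans ?_ h2
    gcongr
  have h7 : x ^ (n + 1) * Aq q (n + 1) ≤ ((1 + x) ^ q)⁻¹ := by
    rw [← one_div, le_div_iff₀ h5]
    linarith
  linarith

end Vale.Agent.P224.R2.H582
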