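import Vale.Agent.P224.R2.H582.Tq
import Vale.Agent.P224.R2.H627.Mom

/-!
Linear combinations of the exact moments of the weights, evaluated over the rationals.
-/

namespace Vale.Agent.P224.R2.H582

open MeasureTheory Set Filter Function Real
open Vale.Agent.P224.R2.H627 Vale.Agent.P224.R2.H820
open scoped Topology

/-- next factor of the moments of y -/
def ny (m k a : ℚ) : ℚ := (k + 1) * (m + 2 * k) / ((m + k) * (m + 2 * k + 2)) * a

/-- factor of the moments of e from the next moment of y -/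
def fe (m k a : ℚ) : ℚ := m * a / ((m + 2 * k + 4) * (m + 2 * k + 2))

/-- pairing with the moments of y -/
def dY (m : ℚ) : List ℚ → ℚ → ℚ → ℚ → ℚ × ℚ
  | [], _, _, _ => (0, 0)
  | c :: l, k, a, b =>
    let r := dY m l (k + 1) b (ny m k a)
    (c * a + r.2, r.1)

/-- pairing with the moments of e -/
def dE (m : ℚ) : List ℚ → ℚ → ℚ → ℚ → ℚ × ℚ
  | [], _, _, _ => (0, 0)
  | c :: l, k, a, b =>
    let r := dE m l (k + 1) b (ny m (k + 1) a)
    (c * fe m k a + r.2, r.1)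

/-- pairing with the moments of r -/
def dR (m : ℚ) : List ℚ → ℚ → ℚ → ℚ → ℚ → ℚ → ℚ → ℚ → (ℚ × ℚ) × (ℚ × ℚ)
  | [], _, _, _, _, _, _, _ => ((0, 0), (0, 0))
  | c :: l, k, ra, ra', rb, rb', a, b =>
    let r := dR m l (k + 1) ra' ((k + 1) * ra / (m + k + 1)) rb'
      (((k + 1) * rb + fe m k a) / (m + k + 1)) b (ny m (k + 1) a)
    ((c * ra + r.1.2, r.1.1), (c * rb + r.2.2, r.2.1))

/-- the two bases of the moments of y -/
noncomputable def XY (m : ℕ) (j : ℕ) : ℝ := if Even j then YM m 0 else 1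

/-- the two bases of the moments of r -/
noncomputable def ZR (m : ℕ) (j : ℕ) : ℝ := if Even j then RM m 0 else rM m 0

variable {m : ℕ}

lemma XY_two (j : ℕ) : XY m (j + 2) = XY m j := by
  unfold XY
  simp [Nat.even_add]

lemma ZR_two (j : ℕ) : ZR m (j + 2) = ZR m j := by
  unfold ZR
  simp [Nat.even_add]

lemma XY_zero : XY m 0 = YM m 0 := by simp [XY]

lemma XY_one : XY m 1 = 1 := by simp [XY]

lemma ZR_zero : ZR m 0 = RM m 0 := by simp [ZR]

lemma ZR_one : ZR m 1 = rM m 0 := by simp [ZR]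

lemma step_y (h4 : 4 ≤ m) {k : ℕ} {a : ℚ} (ha : YM m k = a * XY m k) :
    YM m (k + 2) = (ny m k a : ℚ) * XY m (k + 2) := by
  have hm := m_pos h4
  have h := YM_rec h4 k
  rw [XY_two]
  unfold ny
  push_cast
  have h1 : ((m : ℝ) + k) ≠ 0 := by positivity
  have h2 : ((m : ℝ) + 2 * k + 2) ≠ 0 := by positivity
  rw [ha] at h
  field_simp
  linear_combination h

lemma val_e (h4 : 4 ≤ m) {k : ℕ} {a : ℚ} (ha : YM m (k + 1) = a * XY m (k + 1)) :
    EM m k = (fe m k a : ℚ) * XY m (k + 1) := by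
  have hm := m_pos h4
  have h := EM_eq h4 k
  have h' := ZZM_eq h4 (k + 1)
  unfold fe
  push_cast at h' ⊢
  have h1 : ((m : ℝ) + 2 * k + 4) ≠ 0 := by positivity
  have h2 : ((m : ℝ) + 2 * k + 2) ≠ 0 := by positivity
  rw [ha] at h'
  field_simp
  linear_combination ((m : ℝ) + 2 * k + 4) * h + h'

theorem pd_Y (h4 : 4 ≤ m) (l : List ℚ) (k : ℕ) (a b : ℚ) (ha : YM m k = a * XY m k)
    (hb : YM m (k + 1) = b * XY m (k + 1)) :
    pd l k (YM m) = (dY m l k a b).1 * XY m k + (dY m l k a b).2 * XY m (k + 1) := by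
  induction l generalizing k a b with
  | nil => simp [pd, dY]
  | cons c l ih =>
    have h := ih (k + 1) b (ny m k a) hb (step_y h4 ha)
    rw [show k + 1 + 1 = k + 2 from rfl, XY_two] at h
    simp only [pd, dY]
    push_cast at h ⊢
    rw [h, ha]
    ring

theorem pd_E (h4 : 4 ≤ m) (l : List ℚ) (k : ℕ) (a b : ℚ) (ha : YM m (k + 1) = a * XY m (k + 1))
    (hb : YM m (k + 2) = b * XY m (k + 2)) :
    pd l k (EM m) = (dE m l k a b).1 * XY m (k + 1) + (dE m l k a b).2 * XY m k := by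
  induction l generalizing k a b with
  | nil => simp [pd, dE]
  | cons c l ih =>
    have h := ih (k + 1) b (ny m (k + 1 : ℕ) a) hb (step_y h4 ha)
    rw [show k + 1 + 1 = k + 2 from rfl, XY_two] at h
    simp only [pd, dE]
    push_cast at h ⊢
    rw [h, val_e h4 ha]
    ring

theorem pd_R (h4 : 4 ≤ m) (l : List ℚ) (k : ℕ) (ra ra' rb rb' a b : ℚ)
    (ha : YM m (k + 1) = a * XY m (k + 1)) (hb : YM m (k + 2) = b * XY m (k + 2))
    (hr : RM m k = ra * ZR m k - rb * XY m (k + 1))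
    (hr' : RM m (k + 1) = ra' * ZR m (k + 1) - rb' * XY m k) :
    pd l k (RM m) = (dR m l k ra ra' rb rb' a b).1.1 * ZR m k
      + (dR m l k ra ra' rb rb' a b).1.2 * ZR m (k + 1)
      - ((dR m l k ra ra' rb rb' a b).2.1 * XY m (k + 1)
        + (dR m l k ra ra' rb rb' a b).2.2 * XY m k) := by
  induction l generalizing k ra ra' rb rb' a b with
  | nil => simp [pd, dR]
  | cons c l ih =>
    have hm := m_pos h4
    have h2 : RM m (k + 2) = ((k + 1) * ra / (m + k + 1) : ℚ) * ZR m (k + 2)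
        - ((((k + 1) * rb + fe m k a) / (m + k + 1) : ℚ)) * XY m (k + 1) := by
      have h3 := RM_rec h4 k
      rw [val_e h4 ha, hr] at h3
      rw [ZR_two]
      push_cast
      have h5 : ((m : ℝ) + k + 1) ≠ 0 := by positivity
      field_simp
      linear_combination h3
    have h := ih (k + 1) ra' ((k + 1) * ra / (m + k + 1)) rb'
      (((k + 1) * rb + fe m k a) / (m + k + 1)) b (ny m (k + 1 : ℕ) a) hb (step_y h4 ha)
      (by rw [show k + 1 + 1 = k + 2 from rfl, XY_two]; exact hr') h2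
    rw [show k + 1 + 1 = k + 2 from rfl, XY_two, ZR_two] at h
    simp only [pd, dR]
    push_cast at h ⊢
    rw [h, hr]
    ring

/-- linear form in `1, Y_0, r (0), R_0` of the pairings with the three moment sequences -/
def lf (m : ℚ) (wY wE wR : List ℚ) : (ℚ × ℚ) × (ℚ × ℚ) :=
  let y := dY m wY 0 1 (1 / m)
  let e := dE m wE 0 (1 / m) (ny m 0 1)
  let r := dR m wR 0 1 (1 / m) 0 (1 / (m * (m + 2))) (1 / m) (ny m 0 1)
  ((y.2 + e.1 - r.2.1, y.1 + e.2 - r.2.2), (r.1.2, r.1.1))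

theorem lf_eq (h4 : 4 ≤ m) (wY wE wR : List ℚ) :
    pd wY 0 (YM m) + pd wE 0 (EM m) + pd wR 0 (RM m)
      = (lf m wY wE wR).1.1 + (lf m wY wE wR).1.2 * YM m 0 + (lf m wY wE wR).2.1 * rM m 0
        + (lf m wY wE wR).2.2 * RM m 0 := by
  have hm := m_pos h4
  have a0 : YM m 0 = (1 : ℚ) * XY m 0 := by rw [XY_zero]; simp
  have a1 : YM m (0 + 1) = (1 / m : ℚ) * XY m (0 + 1) := by
    rw [XY_one, YM_one h4]
    push_cast
    ring
  have a2 : YM m (0 + 2) = (ny m 0 1 : ℚ) * XY m (0 + 2) := by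
    have := step_y h4 a0
    simpa using this
  have r0 : RM m 0 = (1 : ℚ) * ZR m 0 - (0 : ℚ) * XY m (0 + 1) := by
    rw [ZR_zero]
    simp
  have r1 : RM m (0 + 1) = (1 / m : ℚ) * ZR m (0 + 1) - (1 / (m * (m + 2)) : ℚ) * XY m 0 := by
    rw [ZR_one, XY_zero]
    have h := RM_one h4
    push_cast
    have h1 : ((m : ℝ) + 2) ≠ 0 := by positivity
    field_simp at h ⊢
    linear_combination h
  have e1 := pd_Y h4 wY 0 1 (1 / m) a0 a1
  have e2 := pd_E h4 wE 0 (1 / m) (ny m 0 1) a1 a2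
  have e3 := pd_R h4 wR 0 1 (1 / m) 0 (1 / (m * (m + 2))) (1 / m) (ny m 0 1) a1 a2 r0 r1
  rw [e1, e2, e3]
  simp only [zero_add, XY_zero, XY_one, ZR_zero, ZR_one, lf, Nat.cast_zero]
  push_cast
  ring

end Vale.Agent.P224.R2.H582
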