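import Vale.Agent.P224.R2.H582.Conv
import Vale.Agent.P224.R2.H820.Geo
import Vale.Agent.P224.R2.H728.T0g

/-!
The two point law with a lower bound of the defect by the one point tensors.
-/

namespace Vale.Agent.P224.R2.H582

open MeasureTheory Set Filter Function Real Module Vale.Agent.P224 Vale.Agent.P224.FV
open Vale.Agent.P224.SM2 Vale.Agent.P224.R2.H820 Vale.Agent.P224.R2.H728
open scoped Topology RealInnerProductSpace ContDiff Manifold

set_option linter.unusedSectionVars false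

section

variable {ι Ω : Type*} [Fintype ι] [MeasurableSpace Ω]

/-- `E (p - t)^2` -/
noncomputable def Qpt (μ : Measure Ω) (m : ℝ) (x N : ι → Ω → ℝ) : ℝ :=
  2 * ((1 - ∑ i, ∑ j, m2 μ N N i j ^ 2) / (m + 1) - ∑ i, ∑ j, m2 μ N x i j ^ 2)

/-- `E (p - t)^2 s` -/
noncomputable def Qpts (μ : Measure Ω) (m : ℝ) (x N : ι → Ω → ℝ) : ℝ :=
  -((m + 2) * ∑ i, ∑ j, ∑ l, m3 μ x x x i j l ^ 2) - 2 * ∑ i, ∑ j, ∑ l, m3 μ N x x i j l ^ 2
    + 2 * (∑ i, m1 μ N i ^ 2) / (m + 1)

/-- `E (c - s)^2` -/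
noncomputable def Qcs (μ : Measure Ω) (x N : ι → Ω → ℝ) : ℝ :=
  ∑ i, ∑ j, m2 μ N N i j ^ 2 - 2 * ∑ i, ∑ j, m2 μ N x i j ^ 2 + ∑ i, ∑ j, m2 μ x x i j ^ 2

end

section

variable {V W M : Type*} [NormedAddCommGroup V] [InnerProductSpace ℝ V] [FiniteDimensional ℝ V]
  [NormedAddCommGroup W] [InnerProductSpace ℝ W] [FiniteDimensional ℝ W]
  [TopologicalSpace M] [ChartedSpace V M]
  [MeasurableSpace V] [BorelSpace V] [MeasurableSpace M] [BorelSpace M]
  [MeasurableSpace W] [BorelSpace W] [IsManifold 𝓘(ℝ, V) ∞ M]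
  [CompactSpace M] [T2Space M]

/-- the law: a lower bound of the defect at each level gives the integrated inequality between
the volume ratio, the means at level zero and the mean normal -/
theorem law_if [Nonempty M] (hm : 4 ≤ finrank ℝ V) (hW : finrank ℝ W = finrank ℝ V + 2)
    {F : M → W} (hF : SphImm V F) (hmin : ∀ x n, IsUnitNormal V F x n → meanCurv V F x n = 0)
    {N : M → W} (hNs : ContMDiff 𝓘(ℝ, V) 𝓘(ℝ, W) ∞ N) (hN : ∀ x, IsUnitNormal V F x (N x))
    (hinj : Injective F) {ι : Type*} [Fintype ι] [DecidableEq ι] (b : OrthonormalBasis ι ℝ W)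
    {B0 B1 Bc Bt : ℝ → ℝ} (i0 : IntervalIntegrable B0 volume 0 1)
    (i1 : IntervalIntegrable B1 volume 0 1) (ic : IntervalIntegrable Bc volume 0 1)
    (it : IntervalIntegrable Bt volume 0 1) {σ : ℝ}
    (hB : ∀ T ∈ Ioo (0 : ℝ) 1, B0 T * E2 (volM V F) F N Xk
      + B1 T * (E2 (volM V F) F N (fun k => Xk k * k.1) - σ * E2 (volM V F) F N Xk)
      + Bc T * E2 (volM V F) F N Ck - Bt T * (volM V F).real univ ^ 2 ≤ DM V F N T) :
    2 * lamM (finrank ℝ V) * (sphereVol (finrank ℝ V) / (volM V F).real univ)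
        + ((∫ T in (0 : ℝ)..1, B0 T) * Qpt (nrm (volM V F)) (finrank ℝ V) (co b F) (co b N)
        + (∫ T in (0 : ℝ)..1, B1 T) * (Qpts (nrm (volM V F)) (finrank ℝ V) (co b F) (co b N)
          - σ * Qpt (nrm (volM V F)) (finrank ℝ V) (co b F) (co b N))
        + (∫ T in (0 : ℝ)..1, Bc T) * Qcs (nrm (volM V F)) (co b F) (co b N)
        - ∫ T in (0 : ℝ)..1, Bt T)
      ≤ 1 + finrank ℝ V * rM (finrank ℝ V) 0 * ∑ i, m1 (nrm (volM V F)) (co b N) i ^ 2 := by
  have hfin : IsFiniteMeasure (volM V F) := isFiniteMeasure_volM hF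
  have hm1 : 1 ≤ finrank ℝ V := by omega
  have hpos : 0 < volM V F univ := volM_pos_of_isOpen hW hF isOpen_univ univ_nonempty
  have hnz : NeZero (volM V F) := ⟨fun h => by rw [h] at hpos; simp at hpos⟩
  have hA : 0 < (volM V F).real univ := ENNReal.toReal_pos hpos.ne' (measure_ne_top _ _)
  have hT0 : T0Data (nrm (volM V F)) (finrank ℝ V) (co b F) (co b N) :=
    t0Data_of_min hm1 hW hF hmin hNs hN b
  have hmR : (finrank ℝ V : ℝ) + 1 ≠ 0 := by positivity
  have hcN : Continuous N := hNs.continuous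
  set A := (volM V F).real univ with hAdef
  set X0 := E2 (volM V F) F N Xk with hX0
  set X1 := E2 (volM V F) F N (fun k => Xk k * k.1) with hX1
  set C0 := E2 (volM V F) F N Ck with hC0
  have iB : IntervalIntegrable (fun T => B0 T * X0 + B1 T * (X1 - σ * X0) + Bc T * C0
      - Bt T * A ^ 2) volume 0 1 :=
    (((i0.mul_const _).add (i1.mul_const _)).add (ic.mul_const _)).sub (it.mul_const _)
  have h1 := sharp_defect hm hW hF hmin hNs hN hinj iB hB
  have e1 : ∫ T in (0 : ℝ)..1, (B0 T * X0 + B1 T * (X1 - σ * X0) + Bc T * C0 - Bt T * A ^ 2)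
      = (∫ T in (0 : ℝ)..1, B0 T) * X0 + (∫ T in (0 : ℝ)..1, B1 T) * (X1 - σ * X0)
        + (∫ T in (0 : ℝ)..1, Bc T) * C0 - (∫ T in (0 : ℝ)..1, Bt T) * A ^ 2 := by
    rw [intervalIntegral.integral_sub (((i0.mul_const _).add (i1.mul_const _)).add
      (ic.mul_const _)) (it.mul_const _), intervalIntegral.integral_add
      ((i0.mul_const _).add (i1.mul_const _)) (ic.mul_const _), intervalIntegral.integral_add
      (i0.mul_const _) (i1.mul_const _)]
    simp only [intervalIntegral.integral_mul_const]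
  have e2 : X0 = A ^ 2 * Qpt (nrm (volM V F)) (finrank ℝ V) (co b F) (co b N) :=
    E2_Xk b hmR hT0
  have e3 : X1 = A ^ 2 * Qpts (nrm (volM V F)) (finrank ℝ V) (co b F) (co b N) :=
    E2_Xks b hmR hT0
  have e4 : C0 = A ^ 2 * Qcs (nrm (volM V F)) (co b F) (co b N) := E2_Ck b hT0
  have e5 : ‖∫ x, N x ∂(volM V F)‖ ^ 2 = A ^ 2 * ∑ i, m1 (nrm (volM V F)) (co b N) i ^ 2 :=
    sum_m1_sq b (hcN.integrable_of_hasCompactSupport (HasCompactSupport.of_compactSpace N))
  rw [e1, e2, e3, e4, e5] at h1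
  have hA2 : 0 < A ^ 2 := pow_pos hA 2
  refine le_of_mul_le_mul_left (a := A ^ 2) ?_ hA2
  refine le_trans (le_of_eq ?_) (h1.trans (le_of_eq ?_))
  · have e6 : A ^ 2 * (2 * lamM (finrank ℝ V) * (sphereVol (finrank ℝ V) / A))
        = 2 * lamM (finrank ℝ V) * (sphereVol (finrank ℝ V) * A) := by
      field_simp
    rw [mul_add, e6]
    ring
  · ring

end

end Vale.Agent.P224.R2.H582
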