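import Vale.Agent.P224.R2.H582.Min
import Vale.Agent.P224.R2.H582.Law
import Vale.Agent.P224.R2.H627.Mom

/-!
The integrals of the minorant by the exact moments.
-/

namespace Vale.Agent.P224.R2.H582

open MeasureTheory Set Filter Function Real Vale.Agent.P224.SM2 Vale.Agent.P224.R2.H820
open Vale.Agent.P224.R2.H627
open scoped Topology RealInnerProductSpace

set_option linter.unusedSectionVars false

/-- linear combination of the functions `T^j f` -/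
noncomputable def lc (l : List (ℝ × ℕ)) (f : ℝ → ℝ) (T : ℝ) : ℝ :=
  (l.map fun c => c.1 * (T ^ c.2 * f T)).sum

/-- linear combination of moments -/
noncomputable def lm (l : List (ℝ × ℕ)) (M : ℕ → ℝ) : ℝ := (l.map fun c => c.1 * M c.2).sum

lemma contOn_lc {f : ℝ → ℝ} (hf : ContinuousOn f (Icc 0 1)) (l : List (ℝ × ℕ)) :
    ContinuousOn (lc l f) (Icc 0 1) := by
  induction l with
  | nil =>
    have e : lc [] f = fun _ => (0 : ℝ) := by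
      funext T
      simp [lc]
    rw [e]
    exact continuousOn_const
  | cons c l ih =>
    have e : lc (c :: l) f = fun T => c.1 * (T ^ c.2 * f T) + lc l f T := by
      funext T
      simp [lc]
    rw [e]
    exact (continuousOn_const.mul ((continuous_pow c.2).continuousOn.mul hf)).add ih

lemma int_lc {f : ℝ → ℝ} (hf : ContinuousOn f (Icc 0 1)) (l : List (ℝ × ℕ)) :
    ∫ T in (0 : ℝ)..1, lc l f T = lm l fun j => ∫ T in (0 : ℝ)..1, T ^ j * f T := by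
  induction l with
  | nil => simp [lc, lm]
  | cons c l ih =>
    have e : (fun T => lc (c :: l) f T) = fun T => c.1 * (T ^ c.2 * f T) + lc l f T := by
      funext T
      simp [lc]
    have i1 : IntervalIntegrable (fun T => c.1 * (T ^ c.2 * f T)) volume 0 1 :=
      intble (continuousOn_const.mul ((continuous_pow c.2).continuousOn.mul hf))
    have i2 : IntervalIntegrable (fun T => lc l f T) volume 0 1 := intble (contOn_lc hf l)
    rw [e, intervalIntegral.integral_add i1 i2, ih, intervalIntegral.integral_const_mul]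
    simp [lm]

/-- the threshold polynomial -/
def lamP (l0 l1 l2 l3 l4 T : ℝ) : ℝ :=
  l0 + l1 * T ^ 2 + l2 * T ^ 4 + l3 * T ^ 6 + l4 * T ^ 8

/-- the integral of `b0` in terms of the moments -/
noncomputable def W0 (m κ σ l0 l1 l2 l3 l4 : ℝ) (Y E R : ℕ → ℝ) : ℝ :=
  1 / 2 * (m * (Y 1 - (m + 1) * σ * Y 2 + (m + 1) * (m + 2) / 2 * σ ^ 2 * Y 3
      - (m + 1) * (m + 2) * (m + 3) / 6 * σ ^ 3 * Y 4)
    + m ^ 2 * (R 0 - (m + 1) * σ * R 1 + (m + 1) * (m + 2) / 2 * σ ^ 2 * R 2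
      - (m + 1) * (m + 2) * (m + 3) / 6 * σ ^ 3 * R 3)
    - (m + 1) * (m + 2) * (
      (l0 * R 2 + l1 * R 4 + l2 * R 6 + l3 * R 8 + l4 * R 10)
      - (m + 1) * σ * (l0 * R 3 + l1 * R 5 + l2 * R 7 + l3 * R 9 + l4 * R 11)
      + (m + 1) * (m + 2) / 2 * σ ^ 2 * (l0 * R 4 + l1 * R 6 + l2 * R 8 + l3 * R 10 + l4 * R 12))
    + m * (m + 1) * (E 1 - (m + 2) * σ * E 2 + (m + 2) * (m + 3) / 2 * σ ^ 2 * E 3
      - (m + 2) * (m + 3) * (m + 4) / 6 * σ ^ 3 * E 4)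
    - m * (m + 1) * κ * (E 5 - (m + 2) * σ * E 6 + (m + 2) * (m + 3) / 2 * σ ^ 2 * E 7)
    - 2 * m * (m + 1) * ((R 1 - R 2) - (m + 2) * σ * (R 2 - R 3)
      + (m + 2) * (m + 3) / 2 * σ ^ 2 * (R 3 - R 4)))

/-- the integral of `b1` in terms of the moments -/
noncomputable def W1 (m κ σ l0 l1 l2 l3 l4 : ℝ) (Y E R : ℕ → ℝ) : ℝ :=
  1 / 2 * ((m + 1) * m * (Y 2 - (m + 2) * σ * Y 3 + (m + 2) * (m + 3) / 2 * σ ^ 2 * Y 4)
    + (m + 1) * m ^ 2 * (R 1 - (m + 2) * σ * R 2 + (m + 2) * (m + 3) / 2 * σ ^ 2 * R 3)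
    - (m + 1) ^ 2 * (m + 2) * (
      (l0 * R 3 + l1 * R 5 + l2 * R 7 + l3 * R 9 + l4 * R 11)
      - (m + 2) * σ * (l0 * R 4 + l1 * R 6 + l2 * R 8 + l3 * R 10 + l4 * R 12)
      + (m + 2) * (m + 3) / 2 * σ ^ 2 * (l0 * R 5 + l1 * R 7 + l2 * R 9 + l3 * R 11 + l4 * R 13)
      - (m + 2) * (m + 3) * (m + 4) / 6 * σ ^ 3
        * (l0 * R 6 + l1 * R 8 + l2 * R 10 + l3 * R 12 + l4 * R 14))
    - 2 * (m + 2) * (m * (m + 1)) * ((R 2 - R 3) - (m + 3) * σ * (R 3 - R 4)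
      + (m + 3) * (m + 4) / 2 * σ ^ 2 * (R 4 - R 5)
      - (m + 3) * (m + 4) * (m + 5) / 6 * σ ^ 3 * (R 5 - R 6))
    + (m + 2) * (m * (m + 1)) * (E 2 - (m + 3) * σ * E 3 + (m + 3) * (m + 4) / 2 * σ ^ 2 * E 4)
    - (m + 2) * (m * (m + 1)) * κ * (E 6 - (m + 3) * σ * E 7 + (m + 3) * (m + 4) / 2 * σ ^ 2 * E 8
      - (m + 3) * (m + 4) * (m + 5) / 6 * σ ^ 3 * E 9))

variable {m κ σ l0 l1 l2 l3 l4 : ℝ} {y e r : ℝ → ℝ}

lemma b0_eq_lc (T : ℝ) : b0 m κ σ T (y T) (e T) (r T) (lamP l0 l1 l2 l3 l4 T)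
    = lc [(m / 2, 1), (-(m / 2 * ((m + 1) * σ)), 2), (m / 2 * ((m + 1) * (m + 2) / 2 * σ ^ 2), 3),
        (-(m / 2 * ((m + 1) * (m + 2) * (m + 3) / 6 * σ ^ 3)), 4)] y T
      + lc [(m * (m + 1) / 2, 1), (-(m * (m + 1) / 2 * ((m + 2) * σ)), 2),
        (m * (m + 1) / 2 * ((m + 2) * (m + 3) / 2 * σ ^ 2), 3),
        (-(m * (m + 1) / 2 * ((m + 2) * (m + 3) * (m + 4) / 6 * σ ^ 3)), 4),
        (-(m * (m + 1) / 2 * κ), 5), (m * (m + 1) / 2 * κ * ((m + 2) * σ), 6),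
        (-(m * (m + 1) / 2 * κ * ((m + 2) * (m + 3) / 2 * σ ^ 2)), 7)] e T
      + lc [(m ^ 2 / 2, 0), (-(m ^ 2 / 2 * ((m + 1) * σ)), 1),
        (m ^ 2 / 2 * ((m + 1) * (m + 2) / 2 * σ ^ 2), 2),
        (-(m ^ 2 / 2 * ((m + 1) * (m + 2) * (m + 3) / 6 * σ ^ 3)), 3),
        (-((m + 1) * (m + 2) / 2 * l0), 2), (-((m + 1) * (m + 2) / 2 * l1), 4),
        (-((m + 1) * (m + 2) / 2 * l2), 6), (-((m + 1) * (m + 2) / 2 * l3), 8),
        (-((m + 1) * (m + 2) / 2 * l4), 10),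
        ((m + 1) * (m + 2) / 2 * ((m + 1) * σ) * l0, 3),
        ((m + 1) * (m + 2) / 2 * ((m + 1) * σ) * l1, 5),
        ((m + 1) * (m + 2) / 2 * ((m + 1) * σ) * l2, 7),
        ((m + 1) * (m + 2) / 2 * ((m + 1) * σ) * l3, 9),
        ((m + 1) * (m + 2) / 2 * ((m + 1) * σ) * l4, 11),
        (-((m + 1) * (m + 2) / 2 * ((m + 1) * (m + 2) / 2 * σ ^ 2) * l0), 4),
        (-((m + 1) * (m + 2) / 2 * ((m + 1) * (m + 2) / 2 * σ ^ 2) * l1), 6),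
        (-((m + 1) * (m + 2) / 2 * ((m + 1) * (m + 2) / 2 * σ ^ 2) * l2), 8),
        (-((m + 1) * (m + 2) / 2 * ((m + 1) * (m + 2) / 2 * σ ^ 2) * l3), 10),
        (-((m + 1) * (m + 2) / 2 * ((m + 1) * (m + 2) / 2 * σ ^ 2) * l4), 12),
        (-(m * (m + 1)), 1), (m * (m + 1), 2), (m * (m + 1) * ((m + 2) * σ), 2),
        (-(m * (m + 1) * ((m + 2) * σ)), 3),
        (-(m * (m + 1) * ((m + 2) * (m + 3) / 2 * σ ^ 2)), 3),
        (m * (m + 1) * ((m + 2) * (m + 3) / 2 * σ ^ 2), 4)] r T := by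
  simp only [lc, List.map_cons, List.map_nil, List.sum_cons, List.sum_nil, b0, Lt, Ut, lamP]
  ring

theorem int_b0 (hy : ContinuousOn y (Icc 0 1)) (he : ContinuousOn e (Icc 0 1))
    (hr : ContinuousOn r (Icc 0 1)) :
    IntervalIntegrable (fun T => b0 m κ σ T (y T) (e T) (r T) (lamP l0 l1 l2 l3 l4 T)) volume 0 1 ∧
    ∫ T in (0 : ℝ)..1, b0 m κ σ T (y T) (e T) (r T) (lamP l0 l1 l2 l3 l4 T)
      = W0 m κ σ l0 l1 l2 l3 l4 (fun j => ∫ T in (0 : ℝ)..1, T ^ j * y T)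
        (fun j => ∫ T in (0 : ℝ)..1, T ^ j * e T) (fun j => ∫ T in (0 : ℝ)..1, T ^ j * r T) := by
  simp only [b0_eq_lc]
  have i1 := fun l => intble (contOn_lc hy l)
  have i2 := fun l => intble (contOn_lc he l)
  have i3 := fun l => intble (contOn_lc hr l)
  refine ⟨((i1 _).add (i2 _)).add (i3 _), ?_⟩
  rw [intervalIntegral.integral_add ((i1 _).add (i2 _)) (i3 _),
    intervalIntegral.integral_add (i1 _) (i2 _), int_lc hy, int_lc he, int_lc hr]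
  simp only [lm, List.map_cons, List.map_nil, List.sum_cons, List.sum_nil, W0]
  ring

lemma b1_eq_lc (T : ℝ) : b1 m κ σ T (y T) (e T) (r T) (lamP l0 l1 l2 l3 l4 T)
    = lc [((m + 1) * m / 2, 2),
        (-((m + 1) * m / 2 * ((m + 2) * σ)), 3),
        ((m + 1) * m / 2 * ((m + 2) * (m + 3) / 2 * σ ^ 2), 4)] y T
      + lc [((m + 2) * (m * (m + 1)) / 2, 2),
        (-((m + 2) * (m * (m + 1)) / 2 * ((m + 3) * σ)), 3),
        ((m + 2) * (m * (m + 1)) / 2 * ((m + 3) * (m + 4) / 2 * σ ^ 2), 4),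
        (-((m + 2) * (m * (m + 1)) / 2 * κ), 6),
        ((m + 2) * (m * (m + 1)) / 2 * κ * ((m + 3) * σ), 7),
        (-((m + 2) * (m * (m + 1)) / 2 * κ * ((m + 3) * (m + 4) / 2 * σ ^ 2)), 8),
        ((m + 2) * (m * (m + 1)) / 2 * κ * ((m + 3) * (m + 4) * (m + 5) / 6 * σ ^ 3), 9)] e T
      + lc [((m + 1) * m ^ 2 / 2, 1),
        (-((m + 1) * m ^ 2 / 2 * ((m + 2) * σ)), 2),
        ((m + 1) * m ^ 2 / 2 * ((m + 2) * (m + 3) / 2 * σ ^ 2), 3),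
        (-((m + 1) ^ 2 * (m + 2) / 2 * l0), 3),
        ((m + 1) ^ 2 * (m + 2) / 2 * ((m + 2) * σ) * l0, 4),
        (-((m + 1) ^ 2 * (m + 2) / 2 * ((m + 2) * (m + 3) / 2 * σ ^ 2) * l0), 5),
        ((m + 1) ^ 2 * (m + 2) / 2 * ((m + 2) * (m + 3) * (m + 4) / 6 * σ ^ 3) * l0, 6),
        (-((m + 1) ^ 2 * (m + 2) / 2 * l1), 5),
        ((m + 1) ^ 2 * (m + 2) / 2 * ((m + 2) * σ) * l1, 6),
        (-((m + 1) ^ 2 * (m + 2) / 2 * ((m + 2) * (m + 3) / 2 * σ ^ 2) * l1), 7),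
        ((m + 1) ^ 2 * (m + 2) / 2 * ((m + 2) * (m + 3) * (m + 4) / 6 * σ ^ 3) * l1, 8),
        (-((m + 1) ^ 2 * (m + 2) / 2 * l2), 7),
        ((m + 1) ^ 2 * (m + 2) / 2 * ((m + 2) * σ) * l2, 8),
        (-((m + 1) ^ 2 * (m + 2) / 2 * ((m + 2) * (m + 3) / 2 * σ ^ 2) * l2), 9),
        ((m + 1) ^ 2 * (m + 2) / 2 * ((m + 2) * (m + 3) * (m + 4) / 6 * σ ^ 3) * l2, 10),
        (-((m + 1) ^ 2 * (m + 2) / 2 * l3), 9),
        ((m + 1) ^ 2 * (m + 2) / 2 * ((m + 2) * σ) * l3, 10),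
        (-((m + 1) ^ 2 * (m + 2) / 2 * ((m + 2) * (m + 3) / 2 * σ ^ 2) * l3), 11),
        ((m + 1) ^ 2 * (m + 2) / 2 * ((m + 2) * (m + 3) * (m + 4) / 6 * σ ^ 3) * l3, 12),
        (-((m + 1) ^ 2 * (m + 2) / 2 * l4), 11),
        ((m + 1) ^ 2 * (m + 2) / 2 * ((m + 2) * σ) * l4, 12),
        (-((m + 1) ^ 2 * (m + 2) / 2 * ((m + 2) * (m + 3) / 2 * σ ^ 2) * l4), 13),
        ((m + 1) ^ 2 * (m + 2) / 2 * ((m + 2) * (m + 3) * (m + 4) / 6 * σ ^ 3) * l4, 14),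
        (-((m + 2) * (m * (m + 1))), 2),
        ((m + 2) * (m * (m + 1)), 3),
        ((m + 2) * (m * (m + 1)) * ((m + 3) * σ), 3),
        (-((m + 2) * (m * (m + 1)) * ((m + 3) * σ)), 4),
        (-((m + 2) * (m * (m + 1)) * ((m + 3) * (m + 4) / 2 * σ ^ 2)), 4),
        ((m + 2) * (m * (m + 1)) * ((m + 3) * (m + 4) / 2 * σ ^ 2), 5),
        ((m + 2) * (m * (m + 1)) * ((m + 3) * (m + 4) * (m + 5) / 6 * σ ^ 3), 5),
        (-((m + 2) * (m * (m + 1)) * ((m + 3) * (m + 4) * (m + 5) / 6 * σ ^ 3)), 6)] r T := by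
  simp only [lc, List.map_cons, List.map_nil, List.sum_cons, List.sum_nil, b1, Lt, Ut, lamP]
  ring

theorem int_b1 (hy : ContinuousOn y (Icc 0 1)) (he : ContinuousOn e (Icc 0 1))
    (hr : ContinuousOn r (Icc 0 1)) :
    IntervalIntegrable (fun T => b1 m κ σ T (y T) (e T) (r T) (lamP l0 l1 l2 l3 l4 T)) volume 0 1 ∧
    ∫ T in (0 : ℝ)..1, b1 m κ σ T (y T) (e T) (r T) (lamP l0 l1 l2 l3 l4 T)
      = W1 m κ σ l0 l1 l2 l3 l4 (fun j => ∫ T in (0 : ℝ)..1, T ^ j * y T)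
        (fun j => ∫ T in (0 : ℝ)..1, T ^ j * e T) (fun j => ∫ T in (0 : ℝ)..1, T ^ j * r T) := by
  simp only [b1_eq_lc]
  have i1 := fun l => intble (contOn_lc hy l)
  have i2 := fun l => intble (contOn_lc he l)
  have i3 := fun l => intble (contOn_lc hr l)
  refine ⟨((i1 _).add (i2 _)).add (i3 _), ?_⟩
  rw [intervalIntegral.integral_add ((i1 _).add (i2 _)) (i3 _),
    intervalIntegral.integral_add (i1 _) (i2 _), int_lc hy, int_lc he, int_lc hr]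
  simp only [lm, List.map_cons, List.map_nil, List.sum_cons, List.sum_nil, W1]
  ring

end Vale.Agent.P224.R2.H582
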