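import Vale.Agent.P224.R2.H582.Wn
import Vale.Agent.P224.R2.H627.DCondM
import Vale.Agent.P224.R2.H627.LawR

/-!
The law with kernel checked rational bounds of the two tangent weights.
-/

namespace Vale.Agent.P224.R2.H582

open MeasureTheory Set Filter Function Real Module Vale.Agent.P224 Vale.Agent.P224.FV
open Vale.Agent.P224.SM2 Vale.Agent.P224.R2.H820 Vale.Agent.P224.R2.H728
open Vale.Agent.P224.R2.H627 Vale.Agent.P224.R2.H925
open scoped Topology RealInnerProductSpace ContDiff Manifold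

set_option linter.unusedSectionVars false

section

variable {V W M : Type*} [NormedAddCommGroup V] [InnerProductSpace ℝ V] [FiniteDimensional ℝ V]
  [NormedAddCommGroup W] [InnerProductSpace ℝ W] [FiniteDimensional ℝ W]
  [TopologicalSpace M] [ChartedSpace V M]
  [MeasurableSpace V] [BorelSpace V] [MeasurableSpace M] [BorelSpace M]
  [MeasurableSpace W] [BorelSpace W] [IsManifold 𝓘(ℝ, V) ∞ M]
  [CompactSpace M] [T2Space M]

/-- **the law with numerical weights**, general conditions -/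
theorem law_Nr [Nonempty M] (hW : finrank ℝ W = finrank ℝ V + 2)
    {F : M → W} (hF : SphImm V F) (hmin : ∀ x n, IsUnitNormal V F x n → meanCurv V F x n = 0)
    {N : M → W} (hNs : ContMDiff 𝓘(ℝ, V) 𝓘(ℝ, W) ∞ N) (hN : ∀ x, IsUnitNormal V F x (N x))
    (hinj : Injective F) {ι : Type*} [Fintype ι] [DecidableEq ι] (b : OrthonormalBasis ι ℝ W)
    {m : ℕ} (hm : 17 ≤ m) (hmm : m = finrank ℝ V)
    {P : NumP} {w0 w1 : ℚ} (h0 : chk0 m P w0 = true) (h1 : chk1 m P w1 = true) (hs1 : P.s ≤ 1)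
    {lam be' τ : ℝ → ℝ}
    (hβ : ∀ T ∈ Ioo (0 : ℝ) 1,
      m * (m + 1) * (T * |2 * rM m T - eM m T| - 2 * T ^ 2 * rM m T) ≤ be' T)
    (hrel : ∀ T ∈ Ioo (0 : ℝ) 1, be' T ≤ al m T (yM m T) (rM m T) (lam T) * (1 + T))
    (hconv : ∀ T ∈ Ioo (0 : ℝ) P.t1, (m + 3) * be' T
      ≤ (m + 1) * al m T (yM m T) (rM m T) (lam T) * (1 - T))
    (hpos : ∀ T ∈ Ico (P.t1 : ℝ) 1, be' T ≤ al m T (yM m T) (rM m T) (lam T) * (1 - T))
    (hbe : ∀ T ∈ Ioo (0 : ℝ) P.t1, be' T = be m P.kap T (eM m T) (rM m T))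
    (hla : ∀ T ∈ Ioo (0 : ℝ) P.t1, lam T ≤ pe P.la 0 T)
    (hlb : ∀ T ∈ Ioo (0 : ℝ) P.t1, pe P.lb 0 T ≤ lam T)
    (hτi : IntervalIntegrable τ volume 0 1)
    (hτ : ∀ T ∈ Ioo (0 : ℝ) 1, (m + 1) * (m + 2) * T ^ 2 * rM m T / (1 - T ^ 2) / 2
      * E2 (volM V F) F N (TK m T ((1 - T ^ 2) * lam T))
      ≤ τ T * (volM V F).real univ ^ 2) :
    ∃ W0 W1 : ℝ, (w0 : ℝ) ≤ W0 ∧ W1 ≤ w1 ∧
    2 * lamM m * (sphereVol m / (volM V F).real univ)
        + (W0 * Qpt (nrm (volM V F)) m (co b F) (co b N)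
        + W1 * min (Qpts (nrm (volM V F)) m (co b F) (co b N)
          + P.s * Qpt (nrm (volM V F)) m (co b F) (co b N)) 0
        + m / ((m + 2) * (m + 4)) * Qcs (nrm (volM V F)) (co b F) (co b N)
        + m * (m + 1) * EM m 1 * Qcss (nrm (volM V F)) m (co b F) (co b N)
        - ∫ T in (0 : ℝ)..1, τ T)
      ≤ 1 + m * rM m 0 * ∑ i, m1 (nrm (volM V F)) (co b N) i ^ 2 := by
  have h4 : 4 ≤ m := by omega
  have hP : OkP m P := by
    simp only [chk0, Bool.and_eq_true] at h0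
    exact okP_sound h0.1
  have ht0 : (0 : ℝ) < P.t1 := by exact_mod_cast hP.t0
  have ht1 : (P.t1 : ℝ) ≤ 1 := by exact_mod_cast hP.t1
  have hs0 : (0 : ℝ) ≤ P.s := by exact_mod_cast hP.s0
  refine ⟨WA m P, WC m P, chk0_sound hm h0, chk1_sound hm h1, ?_⟩
  refine law_T1r (by omega) hW hF hmin hNs hN hinj b hs0 (by exact_mod_cast hs1) ht0.le ht1 hmm hβ
    hrel hconv hpos (ii_fA h4 hP) (ii_fC h4 hP) ?_ ?_ hτi hτ
  · intro T hT
    have hT' : T ∈ Icc (0 : ℝ) P.t1 := ⟨hT.1.le, hT.2.le⟩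
    rw [hbe T hT]
    refine fA_le h4 hP hT' ?_ (hla T hT)
    exact (pe_nonneg hP.lb 0 hT.1.le).trans (hlb T hT)
  · intro T hT
    have hT' : T ∈ Icc (0 : ℝ) P.t1 := ⟨hT.1.le, hT.2.le⟩
    rw [hbe T hT]
    exact le_fC h4 hP hT' (hlb T hT)

/-- **the law with numerical weights**, for an admissible threshold `l` -/
theorem law_N [Nonempty M] (hW : finrank ℝ W = finrank ℝ V + 2)
    {F : M → W} (hF : SphImm V F) (hmin : ∀ x n, IsUnitNormal V F x n → meanCurv V F x n = 0)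
    {N : M → W} (hNs : ContMDiff 𝓘(ℝ, V) 𝓘(ℝ, W) ∞ N) (hN : ∀ x, IsUnitNormal V F x (N x))
    (hinj : Injective F) {ι : Type*} [Fintype ι] [DecidableEq ι] (b : OrthonormalBasis ι ℝ W)
    {m : ℕ} (hm : 17 ≤ m) (hmm : m = finrank ℝ V)
    {P : NumP} {w0 w1 : ℚ} (h0 : chk0 m P w0 = true) (h1 : chk1 m P w1 = true) (hs1 : P.s ≤ 1)
    (hk : P.kap = 31 / 10) {l τ : ℝ → ℝ}
    (hl : ∀ T ∈ Ioo (0 : ℝ) 1, Adm (2 / m) (1 - T ^ 2) (l T))
    (hla : ∀ T ∈ Ioo (0 : ℝ) P.t1, l T ≤ pe P.la 0 T * (1 - T ^ 2))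
    (hlb : ∀ T ∈ Ioo (0 : ℝ) P.t1, pe P.lb 0 T * (1 - T ^ 2) ≤ l T)
    (hτi : IntervalIntegrable τ volume 0 1)
    (hτ : ∀ T ∈ Ioo (0 : ℝ) 1, (m + 1) * (m + 2) * T ^ 2 * rM m T / (1 - T ^ 2) / 2
      * E2 (volM V F) F N (TK m T (l T)) ≤ τ T * (volM V F).real univ ^ 2) :
    ∃ W0 W1 : ℝ, (w0 : ℝ) ≤ W0 ∧ W1 ≤ w1 ∧
    2 * lamM m * (sphereVol m / (volM V F).real univ)
        + (W0 * Qpt (nrm (volM V F)) m (co b F) (co b N)
        + W1 * min (Qpts (nrm (volM V F)) m (co b F) (co b N)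
          + P.s * Qpt (nrm (volM V F)) m (co b F) (co b N)) 0
        + m / ((m + 2) * (m + 4)) * Qcs (nrm (volM V F)) (co b F) (co b N)
        + m * (m + 1) * EM m 1 * Qcss (nrm (volM V F)) m (co b F) (co b N)
        - ∫ T in (0 : ℝ)..1, τ T)
      ≤ 1 + m * rM m 0 * ∑ i, m1 (nrm (volM V F)) (co b N) i ^ 2 := by
  have hP : OkP m P := by
    simp only [chk0, Bool.and_eq_true] at h0
    exact okP_sound h0.1
  have ht0 : (0 : ℝ) < P.t1 := by exact_mod_cast hP.t0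
  have ht1 : (P.t1 : ℝ) ≤ 1 := by exact_mod_cast hP.t1
  have hkr : (P.kap : ℝ) = 31 / 10 := by rw [hk]; push_cast; rfl
  have hkp : ∀ T ∈ Ioo (0 : ℝ) 1, 0 < 1 - T ^ 2 := fun T hT => by nlinarith [hT.1, hT.2]
  have hsub : ∀ T ∈ Ioo (0 : ℝ) P.t1, T ∈ Ioo (0 : ℝ) 1 :=
    fun T hT => ⟨hT.1, hT.2.trans_le ht1⟩
  have ea : ∀ T ∈ Ioo (0 : ℝ) 1, al m T (yM m T) (rM m T) (l T / (1 - T ^ 2))
      = m * (T * yM m T + m * rM m T) - (m + 1) * (m + 2) * T ^ 2 * rM m T / (1 - T ^ 2) * l T := by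
    intro T _
    unfold al
    ring
  have eb : ∀ T : ℝ, be m (31 / 10) T (eM m T) (rM m T)
      = m * (m + 1) * T * (2 * (1 - T) * rM m T - eM m T + 31 / 10 * T ^ 4 * eM m T) := by
    intro T
    unfold be
    ring
  have cc : ∀ T ∈ Ioo (0 : ℝ) 1, (m + 3) * be m (31 / 10) T (eM m T) (rM m T)
      ≤ (m + 1) * al m T (yM m T) (rM m T) (l T / (1 - T ^ 2)) * (1 - T) := by
    intro T hT
    rw [ea T hT, eb]
    exact conv_cond2 hm hT (hl T hT)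
  have aa : ∀ T ∈ Ioo (0 : ℝ) 1, 0 ≤ al m T (yM m T) (rM m T) (l T / (1 - T ^ 2)) := by
    intro T hT
    rw [ea T hT]
    exact alpha_nonneg2 hm hT (hl T hT)
  have hb1 : ∀ T ∈ Ioo (0 : ℝ) 1, be m (31 / 10) T (eM m T) (rM m T)
      ≤ al m T (yM m T) (rM m T) (l T / (1 - T ^ 2)) * (1 - T) := by
    intro T hT
    have q1 := cc T hT
    have q2 := aa T hT
    have q3 : 0 ≤ al m T (yM m T) (rM m T) (l T / (1 - T ^ 2)) * (1 - T) :=
      mul_nonneg q2 (by linarith [hT.2])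
    have hm0 : (0 : ℝ) < (m : ℝ) + 3 := by positivity
    rcases le_total 0 (be m (31 / 10) T (eM m T) (rM m T)) with hneg | hneg
    · have q4 : ((m : ℝ) + 1) * be m (31 / 10) T (eM m T) (rM m T)
          ≤ ((m : ℝ) + 1) * (al m T (yM m T) (rM m T) (l T / (1 - T ^ 2)) * (1 - T)) := by
        linarith
      exact le_of_mul_le_mul_left q4 (by positivity)
    · exact hneg.trans q3
  refine law_Nr hW hF hmin hNs hN hinj b hm hmm h0 h1 hs1
    (lam := fun T => l T / (1 - T ^ 2)) (be' := fun T => be m (31 / 10) T (eM m T) (rM m T))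
    ?_ ?_ ?_ ?_ ?_ ?_ ?_ hτi ?_
  · intro T hT
    have := abs_le_beta2 hm hT
    rw [eb]
    exact this
  · intro T hT
    refine (hb1 T hT).trans ?_
    exact mul_le_mul_of_nonneg_left (by linarith [hT.1]) (aa T hT)
  · exact fun T hT => cc T (hsub T hT)
  · exact fun T hT => hb1 T ⟨ht0.trans_le hT.1, hT.2⟩
  · intro T _
    rw [hkr]
  · intro T hT
    rw [div_le_iff₀ (hkp T (hsub T hT))]
    exact hla T hT
  · intro T hT
    rw [le_div_iff₀ (hkp T (hsub T hT))]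
    exact hlb T hT
  · intro T hT
    have e : (1 - T ^ 2) * (l T / (1 - T ^ 2)) = l T := mul_div_cancel₀ _ (hkp T hT).ne'
    rw [e]
    exact hτ T hT

end

end Vale.Agent.P224.R2.H582
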