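import Vale.Agent.P224.R2.H582.Dot
import Vale.Agent.P224.R2.H627.Const

/-!
Rational lower bounds of linear forms in the basic constants of the weights.
-/

namespace Vale.Agent.P224.R2.H582

open MeasureTheory Set Filter Function Real
open Vale.Agent.P224.R2.H627 Vale.Agent.P224.R2.H820
open scoped Topology

/-- `π / b^2` from below -/
def t1q (m : ℚ) : ℚ := 2 * m - 1 + 1 / (4 * m - 1)

/-- `π / b^2` from above -/
def t2q (m : ℚ) : ℚ := 2 * m - 1 + 1 / (4 * m - 2)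

/-- `Y_0 / b` from below -/
def ylq (m : ℚ) : ℚ := t1q m / 2 / (m - 1 + 1 / (2 * m - 2))

/-- `Y_0 / b` from above -/
def yuq (m : ℚ) : ℚ := t2q m / 2 / (m - 1 + 1 / (2 * m - 1))

/-- the defect of `m R_0` from below -/
def dlq (m : ℚ) : ℚ := (1 + 2 / 3 / m - 14 / 5 / m ^ 2) / m

/-- the defect of `m R_0` from above -/
def duq (m : ℚ) : ℚ := (1 + 2 / 3 / m + 19 / 100 / m ^ 2) / m

/-- `m r (0)` from below -/
def rlq (m : ℚ) : ℚ := (2 / 3 + 7 / 10 / m - 105134 / 86625 / m ^ 2) * (70710678 / 100000000)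

/-- `m r (0)` from above -/
def ruq (m : ℚ) : ℚ := (2 / 3 + 7 / 10 / m + 51118 / 86625 / m ^ 2) * (70710679 / 100000000)

/-- positivity of `α + β b` -/
def chkL (m al be : ℚ) : Bool :=
  if 0 ≤ be then decide (0 ≤ al) || decide (al ^ 2 * t2q m ≤ be ^ 2 * (3141592 / 1000000))
  else decide (0 ≤ al) && decide (be ^ 2 * (3141593 / 1000000) ≤ al ^ 2 * t1q m)

/-- constant part -/
def alq (m k0 kr kR rho : ℚ) : ℚ :=
  k0 + kr * rho / m - kR * (if 0 ≤ kR then duq m else dlq m) / m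

/-- part linear in b -/
def beq (m kY kR rho : ℚ) : ℚ := kY * (if 0 ≤ kY then ylq m else yuq m) + kR * rho / m

/-- the check of `0 ≤ k0 + kY Y_0 + kr r (0) + kR R_0` -/
def chkF (m k0 kY kr kR : ℚ) : Bool :=
  chkL m (alq m k0 kr kR (rlq m)) (beq m kY kR (rlq m))
    && chkL m (alq m k0 kr kR (ruq m)) (beq m kY kR (ruq m))

variable {m : ℕ}

lemma t1_pos (hm : 17 ≤ m) : (0 : ℝ) < (t1q m : ℚ) := by
  have h : (17 : ℝ) ≤ m := by exact_mod_cast hm
  unfold t1q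
  push_cast
  have : (0 : ℝ) ≤ 1 / (4 * m - 1) := div_nonneg zero_le_one (by linarith)
  linarith

lemma t2_pos (hm : 17 ≤ m) : (0 : ℝ) < (t2q m : ℚ) := by
  have h : (17 : ℝ) ≤ m := by exact_mod_cast hm
  unfold t2q
  push_cast
  have : (0 : ℝ) ≤ 1 / (4 * m - 2) := div_nonneg zero_le_one (by linarith)
  linarith

lemma b_sq_ge (hm : 17 ≤ m) : 3141592 / 1000000 ≤ BM m ^ 2 * (t2q m : ℚ) := by
  have h := BM_sq_ge (m := m) (by omega)
  have h2 := t2_pos hm
  have e : ((t2q m : ℚ) : ℝ) = 2 * m - 1 + 1 / (4 * m - 2) := by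
    unfold t2q
    push_cast
    ring
  rw [← e, div_le_iff₀ h2] at h
  have h3 := Real.pi_gt_d6
  have e2 : (3141592 : ℝ) / 1000000 = 3.141592 := by norm_num
  rw [e2]
  linarith

lemma b_sq_le (hm : 17 ≤ m) : BM m ^ 2 * (t1q m : ℚ) ≤ 3141593 / 1000000 := by
  have h := BM_sq_le (m := m) (by omega)
  have h2 := t1_pos hm
  have e : ((t1q m : ℚ) : ℝ) = 2 * m - 1 + 1 / (4 * m - 1) := by
    unfold t1q
    push_cast
    ring
  rw [← e, le_div_iff₀ h2] at h
  have h3 := Real.pi_lt_d6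
  have e2 : (3141593 : ℝ) / 1000000 = 3.141593 := by norm_num
  rw [e2]
  linarith

lemma Y_ge (hm : 17 ≤ m) : (ylq m : ℚ) * BM m ≤ YM m 0 := by
  have h17 : (17 : ℝ) ≤ m := by exact_mod_cast hm
  have hb := BM_pos (m := m) (by omega)
  have h1 := YB_ge (m := m) (by omega)
  have h2 := BM_sq_le (m := m) (by omega)
  have h3 := t1_pos hm
  have e : ((t1q m : ℚ) : ℝ) = 2 * m - 1 + 1 / (4 * m - 1) := by
    unfold t1q
    push_cast
    ring
  rw [← e, le_div_iff₀ h3] at h2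
  have hq : (0 : ℝ) < m - 1 + 1 / (2 * m - 2) := by
    have : (0 : ℝ) ≤ 1 / (2 * m - 2) := div_nonneg zero_le_one (by linarith)
    linarith
  have e2 : ((ylq m : ℚ) : ℝ) = (t1q m : ℚ) / 2 / (m - 1 + 1 / (2 * m - 2)) := by
    unfold ylq
    push_cast
    ring
  rw [e2]
  refine le_of_mul_le_mul_right ?_ hb
  refine le_trans ?_ h1
  set Q : ℝ := m - 1 + 1 / (2 * m - 2) with hQ
  rw [le_div_iff₀ hq]
  have e3 : ((t1q m : ℚ) : ℝ) / 2 / Q * BM m * BM m * Q = BM m ^ 2 * (t1q m : ℚ) / 2 := by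
    field_simp
  rw [e3]
  linarith

lemma Y_le (hm : 17 ≤ m) : YM m 0 ≤ (yuq m : ℚ) * BM m := by
  have h17 : (17 : ℝ) ≤ m := by exact_mod_cast hm
  have hb := BM_pos (m := m) (by omega)
  have h1 := YB_le (m := m) (by omega)
  have h2 := BM_sq_ge (m := m) (by omega)
  have h3 := t2_pos hm
  have e : ((t2q m : ℚ) : ℝ) = 2 * m - 1 + 1 / (4 * m - 2) := by
    unfold t2q
    push_cast
    ring
  rw [← e, div_le_iff₀ h3] at h2
  have hq : (0 : ℝ) < m - 1 + 1 / (2 * m - 1) := by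
    have : (0 : ℝ) ≤ 1 / (2 * m - 1) := div_nonneg zero_le_one (by linarith)
    linarith
  have e2 : ((yuq m : ℚ) : ℝ) = (t2q m : ℚ) / 2 / (m - 1 + 1 / (2 * m - 1)) := by
    unfold yuq
    push_cast
    ring
  rw [e2]
  refine le_of_mul_le_mul_right ?_ hb
  refine h1.trans ?_
  set Q : ℝ := m - 1 + 1 / (2 * m - 1) with hQ
  rw [div_le_iff₀ hq]
  have e3 : ((t2q m : ℚ) : ℝ) / 2 / Q * BM m * BM m * Q = BM m ^ 2 * (t2q m : ℚ) / 2 := by
    field_simp
  rw [e3]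
  linarith

lemma sqrt2_bd : (70710678 / 100000000 : ℝ) ≤ (√2)⁻¹ ∧ (√2)⁻¹ ≤ 70710679 / 100000000 := by
  have h1 : (0 : ℝ) < √2 := sqrt_pos.2 (by norm_num)
  have h2 : (√2)⁻¹ * √2 = 1 := inv_mul_cancel₀ h1.ne'
  have h3 : √2 * √2 = 2 := mul_self_sqrt (by norm_num)
  have h4 : (√2)⁻¹ ^ 2 = 1 / 2 := by
    rw [inv_pow, sq, h3]
    norm_num
  have h5 : 0 < (√2)⁻¹ := inv_pos.2 h1
  constructor
  · exact le_of_sq_le_sq (by rw [h4]; norm_num) h5.le
  · exact le_of_sq_le_sq (by rw [h4]; norm_num) (by norm_num)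

lemma r_ge (hm : 17 ≤ m) : ((rlq m : ℚ) : ℝ) ≤ m * rM m 0 := by
  have h17 : (17 : ℝ) ≤ m := by exact_mod_cast hm
  have h := rM_zero_ge2 hm
  have h1 : (0 : ℝ) < √2 := sqrt_pos.2 (by norm_num)
  have h2 := sqrt2_bd.1
  have h3 : (0 : ℝ) ≤ 2 / 3 + 7 / 10 / m - 105134 / 86625 / m ^ 2 := by
    have q1 : (105134 / 86625 : ℝ) / m ^ 2 ≤ 105134 / 86625 / 17 ^ 2 :=
      div_le_div_of_nonneg_left (by norm_num) (by norm_num) (pow_le_pow_left₀ (by norm_num) h17 2)
    have q2 : (0 : ℝ) ≤ 7 / 10 / m := by positivity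
    have q3 : (105134 / 86625 / 17 ^ 2 : ℝ) ≤ 1 / 2 := by norm_num
    linarith
  have e : ((rlq m : ℚ) : ℝ) = (2 / 3 + 7 / 10 / m - 105134 / 86625 / m ^ 2)
      * (70710678 / 100000000) := by
    unfold rlq
    push_cast
    ring
  rw [e]
  refine (mul_le_mul_of_nonneg_left h2 h3).trans ?_
  rw [← div_eq_mul_inv, div_le_iff₀ h1]
  linarith

lemma r_le (hm : 17 ≤ m) : m * rM m 0 ≤ ((ruq m : ℚ) : ℝ) := by
  have h17 : (17 : ℝ) ≤ m := by exact_mod_cast hm
  have h := rM_zero_le2 hm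
  have h1 : (0 : ℝ) < √2 := sqrt_pos.2 (by norm_num)
  have h2 := sqrt2_bd.2
  have h3 : (0 : ℝ) ≤ 2 / 3 + 7 / 10 / m + 51118 / 86625 / m ^ 2 := by positivity
  have e : ((ruq m : ℚ) : ℝ) = (2 / 3 + 7 / 10 / m + 51118 / 86625 / m ^ 2)
      * (70710679 / 100000000) := by
    unfold ruq
    push_cast
    ring
  rw [e]
  refine le_trans ?_ (mul_le_mul_of_nonneg_left h2 h3)
  rw [← div_eq_mul_inv, le_div_iff₀ h1]
  linarith

lemma R_ge (hm : 17 ≤ m) : m * rM m 0 * BM m - (duq m : ℚ) ≤ m * RM m 0 := by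
  have h := mRM_ge hm
  have e : ((duq m : ℚ) : ℝ) = (1 + 2 / 3 / m + 19 / 100 / m ^ 2) / m := by
    unfold duq
    push_cast
    ring
  rw [e]
  exact h

lemma R_le (hm : 17 ≤ m) : m * RM m 0 ≤ m * rM m 0 * BM m - (dlq m : ℚ) := by
  have h := mRM_le hm
  have e : ((dlq m : ℚ) : ℝ) = (1 + 2 / 3 / m - 14 / 5 / m ^ 2) / m := by
    unfold dlq
    push_cast
    ring
  rw [e]
  exact h

lemma chkL_sound (hm : 17 ≤ m) {al be : ℚ} (h : chkL m al be = true) :
    0 ≤ (al : ℝ) + be * BM m := by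
  have hb := BM_pos (m := m) (by omega)
  have h1 := b_sq_ge hm
  have h2 := b_sq_le hm
  have p1 := t1_pos hm
  have p2 := t2_pos hm
  unfold chkL at h
  split_ifs at h with hbe
  · rw [Bool.or_eq_true, decide_eq_true_eq, decide_eq_true_eq] at h
    have hbe' : (0 : ℝ) ≤ be := by exact_mod_cast hbe
    rcases h with h | h
    · have h' : (0 : ℝ) ≤ al := by exact_mod_cast h
      positivity
    · have h' := (Rat.cast_le (K := ℝ)).2 h
      push_cast at h'
      have h3 : (al : ℝ) ^ 2 * (t2q m : ℚ) ≤ (be * BM m) ^ 2 * (t2q m : ℚ) := by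
        refine h'.trans ?_
        have := mul_le_mul_of_nonneg_left h1 (sq_nonneg (be : ℝ))
        linarith
      have h4 := abs_le_of_sq_le_sq (le_of_mul_le_mul_right h3 p2) (by positivity)
      linarith [(abs_le.1 h4).1]
  · rw [Bool.and_eq_true, decide_eq_true_eq, decide_eq_true_eq] at h
    obtain ⟨h3, h4⟩ := h
    have hbe' : (be : ℝ) < 0 := by exact_mod_cast not_le.1 hbe
    have h3' : (0 : ℝ) ≤ al := by exact_mod_cast h3
    have h4' := (Rat.cast_le (K := ℝ)).2 h4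
    push_cast at h4'
    have h5 : (be * BM m) ^ 2 * ((t1q m : ℚ) : ℝ) ≤ (al : ℝ) ^ 2 * (t1q m : ℚ) := by
      refine le_trans ?_ h4'
      have := mul_le_mul_of_nonneg_left h2 (sq_nonneg (be : ℝ))
      linarith
    have h6 := abs_le_of_sq_le_sq (le_of_mul_le_mul_right h5 p1) h3'
    linarith [(abs_le.1 h6).1]

lemma chk_end (hm : 17 ≤ m) {k0 kY kr kR rho : ℚ}
    (h : chkL m (alq m k0 kr kR rho) (beq m kY kR rho) = true) :
    0 ≤ (k0 : ℝ) + kY * YM m 0 + kr * rho / m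
      + kR * (rho * BM m + (m * RM m 0 - m * rM m 0 * BM m)) / m := by
  have h17 : (17 : ℝ) ≤ m := by exact_mod_cast hm
  have hb := BM_pos (m := m) (by omega)
  have h1 := chkL_sound hm h
  have hY1 := Y_ge hm
  have hY2 := Y_le hm
  have hR1 := R_ge hm
  have hR2 := R_le hm
  have q1 : (kY : ℝ) * ((if 0 ≤ kY then ylq m else yuq m : ℚ) : ℝ) * BM m ≤ kY * YM m 0 := by
    split_ifs with hk
    · have hk' : (0 : ℝ) ≤ kY := by exact_mod_cast hk
      have := mul_le_mul_of_nonneg_left hY1 hk'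
      linarith
    · have hk' : (kY : ℝ) ≤ 0 := by exact_mod_cast (not_le.1 hk).le
      have := mul_le_mul_of_nonpos_left hY2 hk'
      linarith
  have q2 : -((kR : ℝ) * ((if 0 ≤ kR then duq m else dlq m : ℚ) : ℝ))
      ≤ kR * (m * RM m 0 - m * rM m 0 * BM m) := by
    split_ifs with hk
    · have hk' : (0 : ℝ) ≤ kR := by exact_mod_cast hk
      have := mul_le_mul_of_nonneg_left (a := (kR : ℝ))
        (show -((duq m : ℚ) : ℝ) ≤ m * RM m 0 - m * rM m 0 * BM m by linarith) hk'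
      linarith
    · have hk' : (kR : ℝ) ≤ 0 := by exact_mod_cast (not_le.1 hk).le
      have := mul_le_mul_of_nonpos_left (c := (kR : ℝ))
        (show m * RM m 0 - m * rM m 0 * BM m ≤ -((dlq m : ℚ) : ℝ) by linarith) hk'
      linarith
  have q3 : -((kR : ℝ) * ((if 0 ≤ kR then duq m else dlq m : ℚ) : ℝ)) / m
      ≤ kR * (m * RM m 0 - m * rM m 0 * BM m) / m :=
    div_le_div_of_nonneg_right q2 (by positivity)
  unfold alq beq at h1
  push_cast at h1
  have e1 : (k0 : ℝ) + kY * YM m 0 + kr * rho / m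
      + kR * (rho * BM m + (m * RM m 0 - m * rM m 0 * BM m)) / m
      = (k0 + kr * rho / m + kR * rho / m * BM m) + kY * YM m 0
        + kR * (m * RM m 0 - m * rM m 0 * BM m) / m := by ring
  rw [e1]
  have e2 : (k0 : ℝ) + kr * rho / m - kR * ((if 0 ≤ kR then duq m else dlq m : ℚ) : ℝ) / m
      + (kY * ((if 0 ≤ kY then ylq m else yuq m : ℚ) : ℝ) + kR * rho / m) * BM m
      = (k0 + kr * rho / m + kR * rho / m * BM m)
        + kY * ((if 0 ≤ kY then ylq m else yuq m : ℚ) : ℝ) * BM m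
        + -(kR * ((if 0 ≤ kR then duq m else dlq m : ℚ) : ℝ)) / m := by ring
  have h2 : 0 ≤ (k0 : ℝ) + kr * rho / m
      - kR * ((if 0 ≤ kR then duq m else dlq m : ℚ) : ℝ) / m
      + (kY * ((if 0 ≤ kY then ylq m else yuq m : ℚ) : ℝ) + kR * rho / m) * BM m := by
    refine h1.trans (le_of_eq ?_)
    split_ifs <;> ring
  rw [e2] at h2
  linarith

theorem chkF_sound (hm : 17 ≤ m) {k0 kY kr kR : ℚ} (h : chkF m k0 kY kr kR = true) :
    0 ≤ (k0 : ℝ) + kY * YM m 0 + kr * rM m 0 + kR * RM m 0 := by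
  have h17 : (17 : ℝ) ≤ m := by exact_mod_cast hm
  have hb := BM_pos (m := m) (by omega)
  unfold chkF at h
  rw [Bool.and_eq_true] at h
  have h1 := chk_end hm h.1
  have h2 := chk_end hm h.2
  have hr1 := r_ge hm
  have hr2 := r_le hm
  have hm0 : (m : ℝ) ≠ 0 := by linarith
  set D := m * RM m 0 - m * rM m 0 * BM m with hD
  have e : ∀ rho : ℝ, (k0 : ℝ) + kY * YM m 0 + kr * rho / m + kR * (rho * BM m + D) / m
      = (k0 + kY * YM m 0 + kR * D / m) + rho * ((kr + kR * BM m) / m) := by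
    intro rho
    ring
  have e3 : (k0 : ℝ) + kY * YM m 0 + kr * rM m 0 + kR * RM m 0
      = (k0 + kY * YM m 0 + kR * D / m) + m * rM m 0 * ((kr + kR * BM m) / m) := by
    rw [hD]
    field_simp
    ring
  rw [e] at h1 h2
  rw [e3]
  rcases le_or_gt 0 (((kr : ℝ) + kR * BM m) / m) with hs | hs
  · have := mul_le_mul_of_nonneg_right hr1 hs
    linarith
  · have := mul_le_mul_of_nonpos_right hr2 hs.le
    linarith

end Vale.Agent.P224.R2.H582
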