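import Vale.Agent.P224.SM2.Anti

/-!
Scalar inequalities for the defect at level T.
-/

namespace Vale.Agent.P224.R2.H582

open MeasureTheory Set Filter Function Real Vale.Agent.P224.SM2
open scoped Topology RealInnerProductSpace

set_option linter.unusedSectionVars false

lemma ker_pos {T s : ℝ} (q : ℕ) (h : 0 < 1 - T * s) : 0 < ker T q s :=
  inv_pos.2 (pow_pos h q)

/-- the tangent line of the kernel -/
lemma ker_tangent {T s s0 : ℝ} (q : ℕ) (h : 0 < 1 - T * s) (h0 : 0 < 1 - T * s0) :
    ker T q s0 * (1 + q * (T * (s - s0) / (1 - T * s0))) ≤ ker T q s := by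
  unfold SM2.ker
  set v := 1 - T * s with hv
  set w := 1 - T * s0 with hw
  have e1 : T * (s - s0) / w = 1 - v / w := by
    rw [eq_sub_iff_add_eq, ← add_div, hv, hw]
    rw [div_eq_one_iff_eq h0.ne']
    ring
  have hx : 0 < v / w := div_pos h h0
  have h1 : 1 - v / w ≤ (v / w)⁻¹ - 1 := by
    have h2 : 0 ≤ (v / w - 1) ^ 2 / (v / w) := by positivity
    have h3 : (v / w - 1) ^ 2 / (v / w) = v / w - 2 + (v / w)⁻¹ := by
      field_simp
      ring
    linarith
  have h2 : 1 + (q : ℝ) * ((v / w)⁻¹ - 1) ≤ (1 + ((v / w)⁻¹ - 1)) ^ q := by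
    refine one_add_mul_le_pow ?_ q
    have : 0 < (v / w)⁻¹ := inv_pos.2 hx
    linarith
  have h3 : (1 + ((v / w)⁻¹ - 1)) ^ q = w ^ q * (v ^ q)⁻¹ := by
    rw [add_sub_cancel, inv_div, div_pow, div_eq_mul_inv]
  have h4 : 1 + (q : ℝ) * (T * (s - s0) / w) ≤ w ^ q * (v ^ q)⁻¹ := by
    rw [e1, ← h3]
    refine le_trans ?_ h2
    have := mul_le_mul_of_nonneg_left h1 (Nat.cast_nonneg (α := ℝ) q)
    linarith
  have hwq : 0 < w ^ q := pow_pos h0 q
  calc (w ^ q)⁻¹ * (1 + q * (T * (s - s0) / w)) ≤ (w ^ q)⁻¹ * (w ^ q * (v ^ q)⁻¹) :=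
        mul_le_mul_of_nonneg_left h4 (inv_nonneg.2 hwq.le)
    _ = (v ^ q)⁻¹ := by field_simp

/-- tangent line of a combination `α ker (q) - β ker (q+1)` which is convex on `s ≤ 1` -/
lemma comb_tangent {T s s0 α β : ℝ} {q : ℕ} (hT0 : 0 ≤ T) (hT1 : T < 1) (hs : s ≤ 1)
    (hs0 : s0 < 1) (hα : 0 ≤ α) (hconv : (q + 2) * β ≤ q * α * (1 - T)) :
    (α * ker T q s0 - β * ker T (q + 1) s0)
      + T * (q * α * ker T (q + 1) s0 - (q + 1) * β * ker T (q + 2) s0) * (s - s0)
      ≤ α * ker T q s - β * ker T (q + 1) s := by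
  set f : ℝ → ℝ := fun s => α * ker T q s - β * ker T (q + 1) s with hf
  set f' : ℝ → ℝ := fun s => T * (q * α * ker T (q + 1) s - (q + 1) * β * ker T (q + 2) s) with hf'
  set f'' : ℝ → ℝ := fun s => T ^ 2 * (q + 1) * ker T (q + 3) s * (q * α * (1 - T * s) - (q + 2) * β)
    with hf''
  have hv : ∀ s ≤ 1, 0 < 1 - T * s := fun s hs => by nlinarith
  have hd : ∀ s ≤ 1, HasDerivAt f (f' s) s := by
    intro s hs
    have h0 := (hv s hs).ne'
    have h1 := (hasDerivAt_ker (q := q) h0).const_mul α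
    have h2 := (hasDerivAt_ker (q := q + 1) h0).const_mul β
    refine (h1.sub h2).congr_deriv ?_
    simp only [hf']
    push_cast
    ring
  have hd' : ∀ s ≤ 1, HasDerivAt f' (f'' s) s := by
    intro s hs
    have h0 := (hv s hs).ne'
    have h1 := ((hasDerivAt_ker (q := q + 1) h0).const_mul (q * α))
    have h2 := ((hasDerivAt_ker (q := q + 2) h0).const_mul ((q + 1) * β))
    refine ((h1.sub h2).const_mul T).congr_deriv ?_
    simp only [hf'']
    have e : ker T (q + 2) s = ker T (q + 3) s * (1 - T * s) := by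
      unfold SM2.ker
      rw [pow_succ (1 - T * s) (q + 2)]
      field_simp
    push_cast
    rw [show q + 1 + 1 = q + 2 from rfl, show q + 2 + 1 = q + 3 from rfl, e]
    ring
  have hpos : ∀ s ≤ 1, 0 ≤ f'' s := by
    intro s hs
    have h0 := hv s hs
    have h1 := (ker_pos (q + 3) h0).le
    have h2 : (q + 2) * β ≤ q * α * (1 - T * s) := by
      refine hconv.trans ?_
      have : 1 - T ≤ 1 - T * s := by nlinarith
      exact mul_le_mul_of_nonneg_left this (by positivity)
    simp only [hf'']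
    exact mul_nonneg (by positivity) (by linarith)
  have hcv : ConvexOn ℝ (Iic 1) f := by
    refine convexOn_of_hasDerivWithinAt2_nonneg (convex_Iic 1) (f' := f') (f'' := f'') ?_ ?_ ?_ ?_
    · exact fun s hs => (hd s hs).continuousAt.continuousWithinAt
    · intro s hs
      rw [interior_Iic] at hs
      exact (hd s hs.le).hasDerivWithinAt
    · intro s hs
      rw [interior_Iic] at hs
      exact (hd' s hs.le).hasDerivWithinAt
    · intro s hs
      rw [interior_Iic] at hs
      exact hpos s hs.le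
  have key : f s0 + f' s0 * (s - s0) ≤ f s := by
    rcases lt_trichotomy s s0 with h | h | h
    · have h1 := hcv.slope_le_of_hasDerivAt (x := s) (y := s0) hs hs0.le h (hd s0 hs0.le)
      rw [slope_def_field, div_le_iff₀ (by linarith)] at h1
      linarith
    · rw [h]; simp
    · have h1 := hcv.le_slope_of_hasDerivAt (x := s0) (y := s) hs0.le hs h (hd s0 hs0.le)
      rw [slope_def_field, le_div_iff₀ (by linarith)] at h1
      linarith
  exact key

end Vale.Agent.P224.R2.H582
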