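import Mathlib.Data.Real.Basic
import Vale.Agent.P224.R2.H106.UniA

/-!
Definitions of the integer check of the pointwise inequality: polynomials with natural
coefficients, a check of an inequality in one variable by bisection, boxes in two variables, the
box at the origin and the unbounded part.
-/

namespace Vale.Agent.P224.R2.H582

/-- value of a polynomial (lowest coefficient first) at a natural number -/
def pv (l : List ℕ) (x : ℕ) : ℕ := List.rec 0 (fun a _ ih => Nat.add a (Nat.mul x ih)) l

/-- coefficients of the derivative: `der 1 l` for `c :: l` -/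
def der (k : ℕ) (l : List ℕ) : List ℕ :=
  List.rec (fun _ => []) (fun a _ ih k => Nat.mul k a :: ih (Nat.succ k)) l k

/-- sum of polynomials -/
def addL (l : List ℕ) : List ℕ → List ℕ :=
  List.rec (fun b => b) (fun x l' ih b => List.rec (x :: l') (fun y b' _ => Nat.add x y :: ih b') b) l

/-- multiple of a polynomial -/
def smulL (k : ℕ) (l : List ℕ) : List ℕ := List.rec [] (fun a _ ih => Nat.mul k a :: ih) l

theorem pv_nil (x : ℕ) : pv [] x = 0 := rfl

theorem pv_cons (a : ℕ) (l : List ℕ) (x : ℕ) : pv (a :: l) x = a + x * pv l x := rfl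

theorem der_nil (k : ℕ) : der k [] = [] := rfl

theorem der_cons (k a : ℕ) (l : List ℕ) : der k (a :: l) = (k * a) :: der (k + 1) l := rfl

theorem addL_nil (b : List ℕ) : addL [] b = b := rfl

theorem addL_cons_nil (x : ℕ) (l : List ℕ) : addL (x :: l) [] = x :: l := rfl

theorem addL_cons (x y : ℕ) (l b : List ℕ) : addL (x :: l) (y :: b) = (x + y) :: addL l b := rfl

theorem smulL_nil (k : ℕ) : smulL k [] = [] := rfl

theorem smulL_cons (k a : ℕ) (l : List ℕ) : smulL k (a :: l) = (k * a) :: smulL k l := rfl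

/-- value of a polynomial at a real number -/
noncomputable def ev : List ℕ → ℝ → ℝ
  | [], _ => 0
  | a :: l, x => a + x * ev l x

/-- evaluation of a number before use -/
def fN (n : ℕ) (f : ℕ → Bool) : Bool := Nat.rec (f 0) (fun k _ => f k) (Nat.succ n)

/-- evaluation of a list of numbers before use -/
def fL (l : List ℕ) : (List ℕ → Bool) → Bool :=
  List.rec (fun f => f []) (fun a _ ih f => fN a fun a' => ih fun l' => f (a' :: l')) l

theorem fL_nil (f : List ℕ → Bool) : fL [] f = f [] := rfl

theorem fL_cons (a : ℕ) (l : List ℕ) (f : List ℕ → Bool) :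
    fL (a :: l) f = fN a fun a' => fL l fun l' => f (a' :: l') := rfl

/-- evaluation of a list of lists of numbers before use -/
def fLL (l : List (List ℕ)) : (List (List ℕ) → Bool) → Bool :=
  List.rec (fun f => f []) (fun a _ ih f => fL a fun a' => ih fun l' => f (a' :: l')) l

theorem fLL_nil (f : List (List ℕ) → Bool) : fLL [] f = f [] := rfl

theorem fLL_cons (a : List ℕ) (l : List (List ℕ)) (f : List (List ℕ) → Bool) :
    fLL (a :: l) f = fL a fun a' => fLL l fun l' => f (a' :: l') := rfl

/-! ### one variable -/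

/-- one cell: tangent of `P` at `m`, chord of `N`; `D` is the derivative of `P` -/
def cellU (P D N : List ℕ) (a m b : ℕ) : Bool :=
  Nat.ble (pv N a + pv D m * (m - a)) (pv P m) && Nat.ble (pv N b) (pv P m + pv D m * (b - m))

/-- bisection of the cell with left end `a` and width `w` -/
def bisU (P D N : List ℕ) : ℕ → ℕ → ℕ → Bool
  | 0, a, w => cellU P D N a (a + w / 2) (a + w)
  | n + 1, a, w => cellU P D N a (a + w / 2) (a + w) ||
      (bisU P D N n a (w / 2) && bisU P D N n (a + w / 2) (w - w / 2))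

/-- the cells one after the other, then the part beyond the last one -/
def nodU (P D N : List ℕ) : List (ℕ × ℕ) → ℕ → Bool
  | [], a => Nat.ble 1 a &&
      Nat.ble (pv N a) (pv (P.drop (N.length - 1)) a * a ^ (N.length - 1))
  | (w, n) :: l, a => bisU P D N n a w && nodU P D N l (a + w)

/-- the common powers of the variable are dropped -/
def strip : List ℕ → List ℕ → (List ℕ → List ℕ → Bool) → Bool
  | 0 :: P, 0 :: N, f => strip P N f
  | P, N, f => f P N

/-- the check of `N ≤ P` on the half line -/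
def uniB (nodes : List (ℕ × ℕ)) (P N : List ℕ) : Bool :=
  fL P fun P => fL N fun N => H106.uniA nodes P N

/-! ### two variables and `φ`

`N` is a list over the power of `φ` of lists over the power of `y` of lists over the power of `x`;
`PX` a list over the power of `φ` of polynomials in `x`, `PY` one of polynomials in `y`, and `e` the
coefficient of `y ^ 2 * (s + x) ^ 2`. All the variables are multiplied by `s`. For the large values
of `r = s + x`: `NT` is a list over the power of `φ` of polynomials in `r`, and `PT` a list of terms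
`(c, g, k, l)` for `c * φ ^ g * (r ^ 2 - s ^ 2) ^ k * r ^ (2 * l)`. -/

/-- the data of the inequality -/
structure HD where
  s : ℕ
  N : List (List (List ℕ))
  PX : List (List ℕ)
  PY : List (List ℕ)
  e : ℕ
  NT : List (List ℕ)
  PT : List (ℕ × ℕ × ℕ × ℕ)

/-- value of the coefficients at `x` -/
def evX (l : List (List ℕ)) (x : ℕ) : List ℕ := l.map fun r => pv r x

/-- derivative of the coefficients -/
def derX (l : List (List ℕ)) : List (List ℕ) := l.map fun r => der 1 r.tail

/-- value of the coefficients at `x` -/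
def evN (l : List (List (List ℕ))) (x : ℕ) : List (List ℕ) := l.map fun r => evX r x

/-- values at a real number -/
noncomputable def evR (l : List (List ℕ)) (x φ : ℝ) : ℝ :=
  match l with
  | [] => 0
  | r :: l => ev r x + φ * evR l x φ

/-- values at real numbers -/
noncomputable def evR3 (l : List (List (List ℕ))) (x y φ : ℝ) : ℝ :=
  match l with
  | [] => 0
  | r :: l => evR r x y + φ * evR3 l x y φ

namespace HD

variable (H : HD)

/-- the negative part -/
noncomputable def neg (x y φ : ℝ) : ℝ := evR3 H.N x y φ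

/-- the positive part -/
noncomputable def pos (x y φ : ℝ) : ℝ :=
  evR H.PX x φ + evR H.PY y φ + H.e * y ^ 2 * (H.s + x) ^ 2

/-- the negative part for large values, as a function of `r = s + x` and `φ` -/
noncomputable def negT (r φ : ℝ) : ℝ := evR H.NT r φ

/-- the positive part for large values, as a function of `r = s + x` and `φ` -/
noncomputable def posT (r φ : ℝ) : ℝ :=
  (H.PT.map fun t => (t.1 : ℝ) * φ ^ t.2.1 * (r ^ 2 - (H.s : ℝ) ^ 2) ^ t.2.2.1
    * r ^ (2 * t.2.2.2)).sum

/-- the polynomials in `y` with the term `e * (s + x1) ^ 2 * y ^ 2` -/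
def PY1 (x1 : ℕ) : List (List ℕ) :=
  match H.PY with
  | [] => [[0, 0, H.e * (H.s + x1) ^ 2]]
  | r :: l => addL r [0, 0, H.e * (H.s + x1) ^ 2] :: l

/-- the boxes of a column: `N1`, `N2` the negative part at the ends `x1`, `x2`, and `P1`, `E1`,
`P2`, `E2` the tangent of the part in `x` at the ends -/
def boxes (nodes : List (ℕ × ℕ)) (Q Q' N1 N2 : List (List ℕ)) (P1 E1 P2 E2 : List ℕ) :
    ℕ → List ℕ → Bool
  | _, [] => true
  | y1, y2 :: ys =>
    Nat.blt y1 y2 &&
    (fL (evX Q ((y1 + y2) / 2)) fun Qm => fL (evX Q' ((y1 + y2) / 2)) fun Dm =>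
      fL (smulL ((y1 + y2) / 2 - y1) Dm) fun F1 =>
      fL (addL Qm (smulL (y2 - (y1 + y2) / 2) Dm)) fun Q2 =>
      uniB nodes (addL P1 Qm) (addL (evX N1 y1) (addL E1 F1)) &&
      uniB nodes (addL P1 Q2) (addL (evX N1 y2) E1) &&
      uniB nodes (addL P2 Qm) (addL (evX N2 y1) (addL E2 F1)) &&
      uniB nodes (addL P2 Q2) (addL (evX N2 y2) E2)) &&
    boxes nodes Q Q' N1 N2 P1 E1 P2 E2 y2 ys

/-- a column: `x1 ≤ x ≤ x2`, the nodes of `y` from `y0` on, and the last one is at least
`4 * (s + x2)` -/
def colOK (nodes : List (ℕ × ℕ)) (x1 x2 y0 : ℕ) (ys : List ℕ) : Bool :=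
  fLL (evN H.N x1) fun N1 => fLL (evN H.N x2) fun N2 =>
  fL (evX H.PX ((x1 + x2) / 2)) fun Pm => fL (evX (derX H.PX) ((x1 + x2) / 2)) fun Dm =>
  fL (smulL ((x1 + x2) / 2 - x1) Dm) fun E1 =>
  fL (addL Pm (smulL (x2 - (x1 + x2) / 2) Dm)) fun P2 =>
  fLL (H.PY1 x1) fun Q => fLL (derX Q) fun Q' =>
    boxes nodes Q Q' N1 N2 Pm E1 P2 [] y0 ys

/-- the part of the coefficients which is affine in `x` and constant in `y` -/
def low (l : List (List (List ℕ))) (x : ℕ) : List ℕ :=
  l.map fun r => pv ((r.headD []).take 2) x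

/-- the box `[0, x0] × [0, y0]` at the origin -/
def smallOK (nodes : List (ℕ × ℕ)) (x0 y0 : ℕ) : Bool :=
  fLL (evN H.N x0) fun N1 => fL (low H.N x0) fun B =>
  fL (evX N1 0) fun N10 => fL (evX N1 y0) fun N11 =>
  fL (addL (evX H.PX 0) (evX H.PY 0)) fun P0 =>
  fN ((H.PX.headD []).getD 2 0) fun cX => fN ((H.PY.headD []).getD 1 0) fun cY =>
    uniB nodes P0 B && uniB nodes (addL P0 [cX * x0 ^ 2]) N10 &&
    uniB nodes (addL P0 (addL [cY * y0] N10)) (addL B N11) &&
    uniB nodes (addL P0 [cX * x0 ^ 2 + cY * y0]) N11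

/-- the terms of degree at least `e` -/
def trL : ℕ → List ℕ → List ℕ
  | 0, l => l
  | _, [] => []
  | e + 1, _ :: l => 0 :: trL e l

/-- the terms of total degree at least `e` -/
def trLL : ℕ → List (List ℕ) → List (List ℕ)
  | _, [] => []
  | e, r :: l => trL e r :: trLL (e - 1) l

/-- one term of the positive part for large values at `r`, as a polynomial in `φ` -/
def termT (s r : ℕ) (t : ℕ × ℕ × ℕ × ℕ) : List ℕ :=
  List.replicate t.2.1 0 ++ [t.1 * (r ^ 2 - s ^ 2) ^ t.2.2.1 * r ^ (2 * t.2.2.2)]

/-- the positive part for large values at `r`: the terms of degree at least `e` -/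
def posE (s r e : ℕ) : List (ℕ × ℕ × ℕ × ℕ) → List ℕ
  | [] => []
  | t :: l => if Nat.ble e (t.2.1 + 2 * t.2.2.1 + 2 * t.2.2.2) then
      addL (termT s r t) (posE s r e l) else posE s r e l

/-- the comparison of the terms of degree at least `e`, for all `e` from `d` down to `0` -/
def tailE (nodes : List (ℕ × ℕ)) (r : ℕ) : ℕ → Bool
  | 0 => uniB nodes (posE H.s r 0 H.PT) (evX H.NT r)
  | e + 1 => uniB nodes (posE H.s r (e + 1) H.PT) (evX (trLL (e + 1) H.NT) r) &&
      tailE nodes r e

/-- total degree less than `d` -/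
def degL : ℕ → List ℕ → Bool
  | _, [] => true
  | 0, _ :: _ => false
  | d + 1, _ :: l => degL d l

/-- total degree less than `d` -/
def degLL : ℕ → List (List ℕ) → Bool
  | _, [] => true
  | d, r :: l => degL d r && degLL (d - 1) l

/-- the part `x ≥ x2`: `d + 1` bounds the total degrees of the negative part -/
def tailOK (nodes : List (ℕ × ℕ)) (x2 d : ℕ) : Bool :=
  degLL (d + 1) H.NT && Nat.ble 1 H.s && H.tailE nodes (H.s + x2) d

/-- all the columns, from `x1` on; every column is the next node in `x`, the first node in `y` and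
the further nodes in `y` -/
def cols (nodes : List (ℕ × ℕ)) (X0 Y0 : ℕ) : ℕ → List (ℕ × ℕ × List ℕ) → ℕ → Bool
  | x1, [], xt => Nat.beq x1 xt
  | x1, (x2, y0, ys) :: l, xt =>
    Nat.blt x1 x2 && (Nat.beq y0 0 || (Nat.ble x2 X0 && Nat.ble y0 Y0)) &&
    Nat.ble (4 * (H.s + x2)) (ys.getLastD 0) && H.colOK nodes x1 x2 y0 ys &&
    cols nodes X0 Y0 x2 l xt

/-- the certificate -/
structure Cert where
  nodes : List (ℕ × ℕ)
  X0 : ℕ
  Y0 : ℕ
  cs : List (ℕ × ℕ × List ℕ)
  xt : ℕ
  dt : ℕ

/-- the whole check -/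
def check (C : Cert) : Bool :=
  Nat.ble 1 C.X0 && Nat.ble 1 C.Y0 && H.smallOK C.nodes C.X0 C.Y0 && H.cols C.nodes C.X0 C.Y0 0 C.cs C.xt &&
    H.tailOK C.nodes C.xt C.dt

end HD

end Vale.Agent.P224.R2.H582
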