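import Mathlib

/-!
Taylor polynomials of `(1 + x)^(-q)` of any order and lists of rational coefficients.
-/

namespace Vale.Agent.P224.R2.H582

open MeasureTheory Set Filter Function Real
open scoped Topology

/-- `q (q + 1) ... (q + j - 1) / j!` -/
noncomputable def Aq (q : ℝ) : ℕ → ℝ
  | 0 => 1
  | j + 1 => Aq q j * (q + j) / (j + 1)

lemma Aq_mul (q : ℝ) (j : ℕ) : q * Aq (q + 1) j = (q + j) * Aq q j := by
  induction j with
  | zero => simp [Aq]
  | succ j ih =>
    have h1 : ((j : ℝ) + 1) ≠ 0 := by positivity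
    have h2 : q * Aq (q + 1) (j + 1) = q * Aq (q + 1) j * (q + 1 + j) / (j + 1) := by
      rw [Aq]
      ring
    rw [h2, ih, Aq]
    push_cast
    field_simp
    ring

lemma Aq_succ (q : ℝ) (j : ℕ) : Aq (q + 1) (j + 1) = Aq q (j + 1) + Aq (q + 1) j := by
  have h1 : ((j : ℝ) + 1) ≠ 0 := by positivity
  have h2 : Aq q (j + 1) = q * Aq (q + 1) j / (j + 1) := by
    rw [Aq_mul, Aq]
    ring
  rw [h2, Aq]
  field_simp
  ring

lemma Aq_zero (j : ℕ) : Aq 0 (j + 1) = 0 := by
  induction j with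
  | zero => simp [Aq]
  | succ j ih =>
    rw [Aq, ih]
    simp

lemma Aq_nonneg {q : ℝ} (hq : 0 ≤ q) (j : ℕ) : 0 ≤ Aq q j := by
  induction j with
  | zero => simp [Aq]
  | succ j ih =>
    rw [Aq]
    positivity

/-- Taylor polynomial of `(1 + x)^(-q)` -/
noncomputable def Tp (q : ℝ) (n : ℕ) (x : ℝ) : ℝ := ∑ j ∈ Finset.range (n + 1), (-x) ^ j * Aq q j

lemma Tp_zero (q x : ℝ) : Tp q 0 x = 1 := by simp [Tp, Aq]

lemma Tp_succ (q : ℝ) (n : ℕ) (x : ℝ) :
    Tp q (n + 1) x = Tp q n x + (-x) ^ (n + 1) * Aq q (n + 1) := by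
  unfold Tp
  rw [Finset.sum_range_succ]

lemma Tp_q0 (n : ℕ) (x : ℝ) : Tp 0 n x = 1 := by
  induction n with
  | zero => exact Tp_zero 0 x
  | succ n ih => rw [Tp_succ, ih, Aq_zero]; ring

lemma Tp_mul (q : ℝ) (n : ℕ) (x : ℝ) :
    (1 + x) * Tp (q + 1) n x = Tp q n x - (-x) ^ (n + 1) * Aq (q + 1) n := by
  induction n with
  | zero => rw [Tp_zero, Tp_zero]; simp [Aq]
  | succ n ih =>
    rw [Tp_succ, Tp_succ, mul_add, ih, Aq_succ]
    ring

lemma Tp_le (n : ℕ) (hn : Odd n) (q : ℕ) {x : ℝ} (hx : 0 ≤ x) : Tp q n x ≤ ((1 + x) ^ q)⁻¹ := by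
  induction q with
  | zero => simp [Tp_q0]
  | succ q ih =>
    have h1 : (0 : ℝ) < 1 + x := by linarith
    have h2 : ((1 + x) ^ (q + 1))⁻¹ = ((1 + x) ^ q)⁻¹ / (1 + x) := by
      rw [pow_succ, mul_inv, ← div_eq_mul_inv]
    rw [h2, le_div_iff₀ h1, mul_comm]
    push_cast
    rw [Tp_mul]
    have h3 : (0 : ℝ) ≤ (-x) ^ (n + 1) * Aq (q + 1) n :=
      mul_nonneg ((Odd.add_one hn).pow_nonneg _) (Aq_nonneg (by positivity) n)
    linarith

lemma le_Tp (n : ℕ) (hn : Even n) (q : ℕ) {x : ℝ} (hx : 0 ≤ x) : ((1 + x) ^ q)⁻¹ ≤ Tp q n x := by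
  induction q with
  | zero => simp [Tp_q0]
  | succ q ih =>
    have h1 : (0 : ℝ) < 1 + x := by linarith
    have h2 : ((1 + x) ^ (q + 1))⁻¹ = ((1 + x) ^ q)⁻¹ / (1 + x) := by
      rw [pow_succ, mul_inv, ← div_eq_mul_inv]
    rw [h2, div_le_iff₀ h1, mul_comm (Tp _ _ _)]
    push_cast
    rw [Tp_mul]
    have h3 : (0 : ℝ) ≤ -((-x) ^ (n + 1)) := by
      rw [(Even.add_one hn).neg_pow]
      simpa using pow_nonneg hx (n + 1)
    have h4 := mul_nonneg h3 (Aq_nonneg (q := (q : ℝ) + 1) (by positivity) n)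
    linarith

/-- evaluation of a list of coefficients, starting with the power k -/
noncomputable def pe : List ℚ → ℕ → ℝ → ℝ
  | [], _, _ => 0
  | c :: l, k, T => c * T ^ k + pe l (k + 1) T

/-- pairing with a sequence, starting with the index k -/
noncomputable def pd : List ℚ → ℕ → (ℕ → ℝ) → ℝ
  | [], _, _ => 0
  | c :: l, k, M => c * M k + pd l (k + 1) M

/-- sum of lists -/
def padd : List ℚ → List ℚ → List ℚ
  | [], r => r
  | a :: l, [] => a :: l
  | a :: l, b :: r => (a + b) :: padd l r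

/-- multiple of a list -/
def psc (a : ℚ) : List ℚ → List ℚ
  | [] => []
  | b :: l => (a * b) :: psc a l

/-- product of lists -/
def pmul : List ℚ → List ℚ → List ℚ
  | [], _ => []
  | a :: l, r => padd (psc a r) (0 :: pmul l r)

/-- shift of a list -/
def psh : ℕ → List ℚ → List ℚ
  | 0, l => l
  | n + 1, l => 0 :: psh n l

/-- coefficients in T of the Taylor polynomial of `(1 + s T)^(-q)` -/
def tl (q s : ℚ) : ℕ → ℕ → ℚ → List ℚ
  | 0, _, c => [c]
  | n + 1, j, c => c :: tl q s n (j + 1) (-(c * s * (q + j) / (j + 1)))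

lemma pe_add (l r : List ℚ) (k : ℕ) (T : ℝ) : pe (padd l r) k T = pe l k T + pe r k T := by
  induction l generalizing r k with
  | nil => simp [padd, pe]
  | cons a l ih =>
    cases r with
    | nil => simp [padd, pe]
    | cons b r =>
      simp only [padd, pe, ih]
      push_cast
      ring

lemma pe_sc (a : ℚ) (l : List ℚ) (k : ℕ) (T : ℝ) : pe (psc a l) k T = a * pe l k T := by
  induction l generalizing k with
  | nil => simp [psc, pe]
  | cons b l ih =>
    simp only [psc, pe, ih]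
    push_cast
    ring

lemma pe_shift (l : List ℚ) (k : ℕ) (T : ℝ) : pe l k T = T ^ k * pe l 0 T := by
  induction l generalizing k with
  | nil => simp [pe]
  | cons b l ih =>
    simp only [pe]
    rw [ih (k + 1), ih (0 + 1)]
    ring

lemma pe_sh (n : ℕ) (l : List ℚ) (k : ℕ) (T : ℝ) : pe (psh n l) k T = pe l (k + n) T := by
  induction n generalizing k with
  | zero => simp [psh]
  | succ n ih =>
    simp only [psh, pe, ih]
    push_cast
    rw [show k + 1 + n = k + (n + 1) by ring]
    ring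

lemma pe_mul (l r : List ℚ) (T : ℝ) : pe (pmul l r) 0 T = pe l 0 T * pe r 0 T := by
  induction l with
  | nil => simp [pmul, pe]
  | cons a l ih =>
    simp only [pmul, pe_add, pe_sc, pe]
    rw [pe_shift _ (0 + 1), ih, pe_shift l (0 + 1)]
    push_cast
    ring

lemma pe_tl (q s : ℚ) (T : ℝ) (n j : ℕ) (c : ℚ) (hc : (c : ℝ) = (-(s : ℝ)) ^ j * Aq q j) :
    pe (tl q s n j c) j T
      = ∑ i ∈ Finset.range (n + 1), (-((s : ℝ) * T)) ^ (j + i) * Aq q (j + i) := by
  induction n generalizing j c with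
  | zero =>
    simp only [tl, pe, hc, Finset.range_one, Finset.sum_singleton, zero_add, add_zero]
    rw [neg_mul_eq_neg_mul, mul_pow]
    ring
  | succ n ih =>
    simp only [tl, pe]
    rw [Finset.sum_range_succ', ih (j + 1)]
    · rw [hc, add_comm]
      congr 1
      · refine Finset.sum_congr rfl fun i _ => ?_
        rw [show j + 1 + i = j + (i + 1) by ring]
      · rw [add_zero, neg_mul_eq_neg_mul, mul_pow]
        ring
    · push_cast
      rw [hc, Aq]
      ring

lemma pe_tl_zero (q s : ℚ) (n : ℕ) (T : ℝ) : pe (tl q s n 0 1) 0 T = Tp q n (s * T) := by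
  rw [pe_tl q s T n 0 1 (by simp [Aq])]
  unfold Tp
  simp

lemma pd_add (l r : List ℚ) (k : ℕ) (M : ℕ → ℝ) : pd (padd l r) k M = pd l k M + pd r k M := by
  induction l generalizing r k with
  | nil => simp [padd, pd]
  | cons a l ih =>
    cases r with
    | nil => simp [padd, pd]
    | cons b r =>
      simp only [padd, pd, ih]
      push_cast
      ring

lemma pd_sc (a : ℚ) (l : List ℚ) (k : ℕ) (M : ℕ → ℝ) : pd (psc a l) k M = a * pd l k M := by
  induction l generalizing k with
  | nil => simp [psc, pd]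
  | cons b l ih =>
    simp only [psc, pd, ih]
    push_cast
    ring

lemma continuous_pe (l : List ℚ) (k : ℕ) : Continuous (pe l k) := by
  induction l generalizing k with
  | nil => exact continuous_const
  | cons c l ih => exact (continuous_const.mul (continuous_pow k)).add (ih (k + 1))

lemma int_pe {f : ℝ → ℝ} (hf : ContinuousOn f (Icc 0 1)) (l : List ℚ) (k : ℕ) :
    ∫ T in (0 : ℝ)..1, pe l k T * f T = pd l k fun j => ∫ T in (0 : ℝ)..1, T ^ j * f T := by
  induction l generalizing k with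
  | nil => simp [pe, pd]
  | cons c l ih =>
    have i1 : IntervalIntegrable (fun T : ℝ => (c : ℝ) * (T ^ k * f T)) volume 0 1 := by
      refine ContinuousOn.intervalIntegrable ?_
      rw [uIcc_of_le zero_le_one]
      exact continuousOn_const.mul ((continuous_pow k).continuousOn.mul hf)
    have i2 : IntervalIntegrable (fun T : ℝ => pe l (k + 1) T * f T) volume 0 1 := by
      refine ContinuousOn.intervalIntegrable ?_
      rw [uIcc_of_le zero_le_one]
      exact (continuous_pe l (k + 1)).continuousOn.mul hf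
    have e : (fun T : ℝ => pe (c :: l) k T * f T)
        = fun T => (c : ℝ) * (T ^ k * f T) + pe l (k + 1) T * f T := by
      funext T
      simp only [pe]
      ring
    rw [e, intervalIntegral.integral_add i1 i2, intervalIntegral.integral_const_mul, ih]
    rfl

end Vale.Agent.P224.R2.H582
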