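import Vale.Agent.P224.R2.H582.Bw
import Vale.Agent.P224.R2.H582.LawT

/-!
Kernel checked rational bounds of the integrated tangent weights.
-/

namespace Vale.Agent.P224.R2.H582

open MeasureTheory Set Filter Function Real
open Vale.Agent.P224.R2.H627 Vale.Agent.P224.R2.H820 Vale.Agent.P224.SM2
open scoped Topology

set_option linter.unusedSectionVars false

/-- parameters: minus the base point `s`, lists of polynomials above and below the threshold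
`la`, `lb`, orders `nL` (odd) and `nU` (even) of the Taylor polynomials, level `t1`, `kap`, and
the power `p` of the price of the levels above `t1` -/
structure NumP where
  s : ℚ
  la : List ℚ
  lb : List ℚ
  nL : ℕ
  nU : ℕ
  t1 : ℚ
  kap : ℚ
  p : ℕ

/-- all entries are nonnegative -/
def nnL : List ℚ → Bool
  | [] => true
  | a :: l => decide (0 ≤ a) && nnL l

lemma pe_nonneg {l : List ℚ} (h : nnL l = true) (k : ℕ) {T : ℝ} (hT : 0 ≤ T) : 0 ≤ pe l k T := by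
  induction l generalizing k with
  | nil => exact le_rfl
  | cons a l ih =>
    simp only [nnL, Bool.and_eq_true, decide_eq_true_eq] at h
    have h1 : (0 : ℝ) ≤ a := by exact_mod_cast h.1
    have := ih h.2 (k + 1)
    simp only [pe]
    positivity

/-- side conditions -/
def okP (m : ℕ) (P : NumP) : Bool :=
  decide (0 ≤ P.s) && decide (P.nL % 2 = 1) && decide (P.nU % 2 = 0) && decide (0 < P.t1)
    && decide (P.t1 ≤ 1) && decide (0 ≤ P.kap) && nnL P.la && nnL P.lb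
    && posOK (m + 1) P.s P.nL && posOK (m + 2) P.s P.nL && posOK (m + 3) P.s P.nL

structure OkP (m : ℕ) (P : NumP) : Prop where
  s0 : 0 ≤ P.s
  nL : Odd P.nL
  nU : Even P.nU
  t0 : 0 < P.t1
  t1 : P.t1 ≤ 1
  kap : 0 ≤ P.kap
  la : nnL P.la = true
  lb : nnL P.lb = true
  p1 : posOK (m + 1) P.s P.nL = true
  p2 : posOK (m + 2) P.s P.nL = true
  p3 : posOK (m + 3) P.s P.nL = true

lemma okP_sound {m : ℕ} {P : NumP} (h : okP m P = true) : OkP m P := by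
  simp only [okP, Bool.and_eq_true, decide_eq_true_eq] at h
  obtain ⟨⟨⟨⟨⟨⟨⟨⟨⟨⟨h1, h2⟩, h3⟩, h4⟩, h5⟩, h6⟩, h7⟩, h8⟩, h9⟩, h10⟩, h11⟩ := h
  exact ⟨h1, Nat.odd_iff.2 h2, Nat.even_iff.2 h3, h4, h5, h6, h7, h8, h9, h10, h11⟩

section

variable (m : ℕ) (P : NumP)

/-- lists of the first weight, with the price of the levels above `t1` -/
def uY : List ℚ := padd (aY m P.s P.nL) (psc (-(1 / P.t1) ^ P.p) (psh P.p (aY m P.s P.nL)))
def uE : List ℚ := padd (aE m P.s P.kap P.nL P.nU)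
  (psc (-(1 / P.t1) ^ P.p) (psh P.p (posE m P.s P.nL)))
def uR : List ℚ := padd (aR m P.s P.la P.nL P.nU)
  (psc (-(1 / P.t1) ^ P.p) (psh P.p (posR m P.s P.nL)))

/-- lists of the second weight, with the price of the levels above `t1` -/
def vY : List ℚ := padd (cY m P.s P.nU) (padd (psc (-1) []) (psc ((1 / P.t1) ^ P.p) (psh P.p [])))
def vE : List ℚ := padd (cE m P.s P.nU) (padd (psc (-1) (negE m P.s P.kap P.nL))
  (psc ((1 / P.t1) ^ P.p) (psh P.p (negE m P.s P.kap P.nL))))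
def vR : List ℚ := padd (cR m P.s P.nU) (padd (psc (-1) (negR m P.s P.lb P.nL))
  (psc ((1 / P.t1) ^ P.p) (psh P.p (negR m P.s P.lb P.nL))))

/-- the integrand of the first weight -/
noncomputable def fA : ℝ → ℝ := cmb (uY m P) (uE m P) (uR m P) (yM m) (eM m) (rM m)

/-- the integrand of the second weight -/
noncomputable def fC : ℝ → ℝ := cmb (vY m P) (vE m P) (vR m P) (yM m) (eM m) (rM m)

/-- the first weight -/
noncomputable def WA : ℝ := ∫ T in (0 : ℝ)..P.t1, fA m P T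

/-- the second weight -/
noncomputable def WC : ℝ := ∫ T in (0 : ℝ)..P.t1, fC m P T

end

variable {m : ℕ} {P : NumP}

lemma contOn_fA (h4 : 4 ≤ m) (P : NumP) : ContinuousOn (fA m P) (Icc 0 1) :=
  contOn_cmb (contOn_yM h4) (contOn_eM h4) (contOn_rM h4) _ _ _

lemma contOn_fC (h4 : 4 ≤ m) (P : NumP) : ContinuousOn (fC m P) (Icc 0 1) :=
  contOn_cmb (contOn_yM h4) (contOn_eM h4) (contOn_rM h4) _ _ _

lemma ii_sub {f : ℝ → ℝ} (hf : ContinuousOn f (Icc 0 1)) {a b : ℝ} (ha : 0 ≤ a) (hab : a ≤ b)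
    (hb : b ≤ 1) : IntervalIntegrable f volume a b := by
  refine ContinuousOn.intervalIntegrable ?_
  rw [uIcc_of_le hab]
  exact hf.mono (Icc_subset_Icc ha hb)

lemma ii_fA (h4 : 4 ≤ m) (hP : OkP m P) : IntervalIntegrable (fA m P) volume 0 P.t1 :=
  ii_sub (contOn_fA h4 P) le_rfl (by exact_mod_cast hP.t0.le) (by exact_mod_cast hP.t1)

lemma ii_fC (h4 : 4 ≤ m) (hP : OkP m P) : IntervalIntegrable (fC m P) volume 0 P.t1 :=
  ii_sub (contOn_fC h4 P) le_rfl (by exact_mod_cast hP.t0.le) (by exact_mod_cast hP.t1)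

lemma wy (h4 : 4 ≤ m) {T : ℝ} (hT : T ∈ Icc (0 : ℝ) 1) :
    0 ≤ yM m T ∧ 0 ≤ eM m T ∧ 0 ≤ rM m T :=
  ⟨yM_nonneg h4 hT, eF_nonneg (cn_nonneg h4) hT, rF_nonneg (cn_nonneg h4) hT⟩

lemma sT_le (hP : OkP m P) {T : ℝ} (hT : T ∈ Icc (0 : ℝ) 1) :
    0 ≤ (P.s : ℝ) * T ∧ (P.s : ℝ) * T ≤ P.s := by
  have hs : (0 : ℝ) ≤ P.s := by exact_mod_cast hP.s0
  exact ⟨mul_nonneg hs hT.1, mul_le_of_le_one_right hs hT.2⟩

lemma tp1 (hP : OkP m P) {T : ℝ} (hT : T ∈ Icc (0 : ℝ) 1) :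
    0 ≤ Tp (m + 1) P.nL (P.s * T) := by
  have h := Tp_pos hP.nL hP.s0 hP.p1 (sT_le hP hT).1 (sT_le hP hT).2
  push_cast at h
  exact h

lemma tp2 (hP : OkP m P) {T : ℝ} (hT : T ∈ Icc (0 : ℝ) 1) :
    0 ≤ Tp (m + 2) P.nL (P.s * T) := by
  have h := Tp_pos hP.nL hP.s0 hP.p2 (sT_le hP hT).1 (sT_le hP hT).2
  push_cast at h
  exact h

lemma tp3 (hP : OkP m P) {T : ℝ} (hT : T ∈ Icc (0 : ℝ) 1) :
    0 ≤ Tp (m + 3) P.nL (P.s * T) := by
  have h := Tp_pos hP.nL hP.s0 hP.p3 (sT_le hP hT).1 (sT_le hP hT).2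
  push_cast at h
  exact h

lemma fA_eq (T : ℝ) : fA m P T
    = cmb (aY m P.s P.nL) (aE m P.s P.kap P.nL P.nU) (aR m P.s P.la P.nL P.nU) (yM m) (eM m)
        (rM m) T
      - ((1 / P.t1) ^ P.p * T ^ P.p)
        * cmb (aY m P.s P.nL) (posE m P.s P.nL) (posR m P.s P.nL) (yM m) (eM m) (rM m) T := by
  unfold fA uY uE uR
  rw [cmb_padd, cmb_psc, cmb_psh]
  push_cast
  ring

lemma fC_eq (T : ℝ) : fC m P T
    = cmb (cY m P.s P.nU) (cE m P.s P.nU) (cR m P.s P.nU) (yM m) (eM m) (rM m) T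
      - (1 - (1 / P.t1) ^ P.p * T ^ P.p)
        * cmb [] (negE m P.s P.kap P.nL) (negR m P.s P.lb P.nL) (yM m) (eM m) (rM m) T := by
  unfold fC vY vE vR
  rw [cmb_padd, cmb_padd, cmb_psc, cmb_psc, cmb_psh]
  push_cast
  ring

lemma ratio_le (hP : OkP m P) {T : ℝ} (h0 : 0 ≤ T) (h1 : T ≤ P.t1) :
    0 ≤ (1 / (P.t1 : ℝ)) ^ P.p * T ^ P.p ∧ (1 / (P.t1 : ℝ)) ^ P.p * T ^ P.p ≤ 1 := by
  have ht0 : (0 : ℝ) < P.t1 := by exact_mod_cast hP.t0
  refine ⟨by positivity, ?_⟩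
  rw [← mul_pow]
  refine pow_le_one₀ (by positivity) ?_
  rw [one_div, inv_mul_le_iff₀ ht0]
  linarith

lemma le_ratio (hP : OkP m P) {T : ℝ} (h1 : (P.t1 : ℝ) ≤ T) :
    1 ≤ (1 / (P.t1 : ℝ)) ^ P.p * T ^ P.p := by
  have ht0 : (0 : ℝ) < P.t1 := by exact_mod_cast hP.t0
  rw [← mul_pow]
  refine one_le_pow₀ ?_
  rw [one_div, ← div_eq_inv_mul, le_div_iff₀ ht0]
  linarith

lemma mem01 (hP : OkP m P) {T : ℝ} (hT : T ∈ Icc (0 : ℝ) P.t1) : T ∈ Icc (0 : ℝ) 1 := by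
  have ht1 : (P.t1 : ℝ) ≤ 1 := by exact_mod_cast hP.t1
  exact ⟨hT.1, hT.2.trans ht1⟩

/-- the tangent value from below on `(0, t1)` -/
lemma fA_le (h4 : 4 ≤ m) (hP : OkP m P) {T lam : ℝ} (hT : T ∈ Icc (0 : ℝ) P.t1) (hl : 0 ≤ lam)
    (hlam : lam ≤ pe P.la 0 T) :
    fA m P T ≤ 1 / 2 * ta (m + 1) T (al m T (yM m T) (rM m T) lam)
      (be m P.kap T (eM m T) (rM m T)) (-(P.s : ℝ)) := by
  have hT' := mem01 hP hT
  obtain ⟨hy, he, hr⟩ := wy h4 hT'
  rw [fA_eq]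
  have h1 := cmb_a_le (m := m) hP.nL hP.nU hP.s0 hP.kap hT'.1 hT'.2 hy he hr hl hlam
  have h2 := cmb_pos_nonneg (m := m) (s := P.s) (nL := P.nL) hT'.1 hy he hr (tp1 hP hT')
    (tp2 hP hT')
  have h3 := mul_nonneg (ratio_le hP hT.1 hT.2).1 h2
  linarith

/-- the tangent slope from above on `(0, t1)` -/
lemma le_fC (h4 : 4 ≤ m) (hP : OkP m P) {T lam : ℝ} (hT : T ∈ Icc (0 : ℝ) P.t1)
    (hlam : pe P.lb 0 T ≤ lam) :
    1 / 2 * tb (m + 1) T (al m T (yM m T) (rM m T) lam)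
      (be m P.kap T (eM m T) (rM m T)) (-(P.s : ℝ)) ≤ fC m P T := by
  have hT' := mem01 hP hT
  obtain ⟨hy, he, hr⟩ := wy h4 hT'
  rw [fC_eq]
  have h0 := pe_nonneg hP.lb 0 hT'.1
  have h1 := le_cmb_c2 (m := m) hP.nL hP.nU hP.s0 hP.kap hT'.1 hT'.2 hy he hr h0 hlam
    (tp2 hP hT')
  have h2 := cmb_neg_nonneg (m := m) (s := P.s) (nL := P.nL) hP.kap hT'.1 hT'.2 he hr h0
    (tp2 hP hT') (tp3 hP hT') (y := yM m)
  have h3 := mul_nonneg (ratio_le hP hT.1 hT.2).1 h2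
  linarith

/-- the first weight is at least a combination of the exact moments -/
lemma WA_ge (h4 : 4 ≤ m) (hP : OkP m P) :
    pd (uY m P) 0 (YM m) + pd (uE m P) 0 (EM m) + pd (uR m P) 0 (RM m) ≤ WA m P := by
  have ht0 : (0 : ℝ) < P.t1 := by exact_mod_cast hP.t0
  have ht1 : (P.t1 : ℝ) ≤ 1 := by exact_mod_cast hP.t1
  have e1 := int_cmb (contOn_yM h4) (contOn_eM h4) (contOn_rM h4) (uY m P) (uE m P) (uR m P)
  have s1 := intervalIntegral.integral_add_adjacent_intervals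
    (ii_sub (contOn_fA h4 P) le_rfl ht0.le ht1) (ii_sub (contOn_fA h4 P) ht0.le ht1 le_rfl)
  have b1 : 0 ≤ ∫ T in (P.t1 : ℝ)..1, -fA m P T := by
    refine intervalIntegral.integral_nonneg ht1 fun T hT => ?_
    have hT' : T ∈ Icc (0 : ℝ) 1 := ⟨ht0.le.trans hT.1, hT.2⟩
    obtain ⟨hy, he, hr⟩ := wy h4 hT'
    rw [fA_eq]
    have h1 := cmb_a_le_pos (m := m) (nL := P.nL) hP.nU hP.s0 hP.kap hT'.1 hT'.2
      (pe_nonneg hP.la 0 hT'.1) (y := yM m) he hr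
    have h2 := cmb_pos_nonneg (m := m) (s := P.s) (nL := P.nL) hT'.1 hy he hr (tp1 hP hT')
      (tp2 hP hT')
    have h3 := mul_le_mul_of_nonneg_right (le_ratio hP hT.1) h2
    linarith
  rw [intervalIntegral.integral_neg] at b1
  unfold WA
  have e1' : ∫ T in (0 : ℝ)..1, fA m P T
      = pd (uY m P) 0 (YM m) + pd (uE m P) 0 (EM m) + pd (uR m P) 0 (RM m) := e1
  linarith

/-- the second weight is at most a combination of the exact moments -/
lemma WC_le (h4 : 4 ≤ m) (hP : OkP m P) :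
    WC m P ≤ pd (vY m P) 0 (YM m) + pd (vE m P) 0 (EM m) + pd (vR m P) 0 (RM m) := by
  have ht0 : (0 : ℝ) < P.t1 := by exact_mod_cast hP.t0
  have ht1 : (P.t1 : ℝ) ≤ 1 := by exact_mod_cast hP.t1
  have e1 := int_cmb (contOn_yM h4) (contOn_eM h4) (contOn_rM h4) (vY m P) (vE m P) (vR m P)
  have s1 := intervalIntegral.integral_add_adjacent_intervals
    (ii_sub (contOn_fC h4 P) le_rfl ht0.le ht1) (ii_sub (contOn_fC h4 P) ht0.le ht1 le_rfl)
  have b2 : 0 ≤ ∫ T in (P.t1 : ℝ)..1, fC m P T := by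
    refine intervalIntegral.integral_nonneg ht1 fun T hT => ?_
    have hT' : T ∈ Icc (0 : ℝ) 1 := ⟨ht0.le.trans hT.1, hT.2⟩
    obtain ⟨hy, he, hr⟩ := wy h4 hT'
    rw [fC_eq]
    have h0 := pe_nonneg hP.lb 0 hT'.1
    have h1 := cmb_c_nonneg (m := m) hP.nU hP.s0 hT'.1 hy he hr
    have h2 := cmb_neg_nonneg (m := m) (s := P.s) (nL := P.nL) hP.kap hT'.1 hT'.2 he hr h0
      (tp2 hP hT') (tp3 hP hT') (y := yM m)
    have h3 := mul_le_mul_of_nonneg_right (le_ratio hP hT.1) h2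
    linarith
  unfold WC
  have e1' : ∫ T in (0 : ℝ)..1, fC m P T
      = pd (vY m P) 0 (YM m) + pd (vE m P) 0 (EM m) + pd (vR m P) 0 (RM m) := e1
  linarith

/-- lower bound of the first weight -/
def chk0 (m : ℕ) (P : NumP) (w : ℚ) : Bool :=
  okP m P && (match lf m (uY m P) (uE m P) (uR m P) with
    | ((k0, kY), (kr, kR)) => chkF m (k0 - w) kY kr kR)

/-- upper bound of the second weight -/
def chk1 (m : ℕ) (P : NumP) (w : ℚ) : Bool :=
  okP m P && (match lf m (vY m P) (vE m P) (vR m P) with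
    | ((k0, kY), (kr, kR)) => chkF m (w - k0) (-kY) (-kr) (-kR))

/-- bounds of the weight of the second term of the first square -/
def chkE (m : ℕ) (lo hi : ℚ) : Bool :=
  match lf m [] [0, m * (m + 1)] [] with
    | ((k0, kY), (kr, kR)) => chkF m (k0 - lo) kY kr kR && chkF m (hi - k0) (-kY) (-kr) (-kR)

theorem chk0_sound (hm : 17 ≤ m) {w : ℚ} (h : chk0 m P w = true) : (w : ℝ) ≤ WA m P := by
  have h4 : 4 ≤ m := by omega
  simp only [chk0, Bool.and_eq_true] at h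
  have hP := okP_sound h.1
  have h1 := chkF_sound hm h.2
  have h2 := WA_ge h4 hP
  have h3 := lf_eq h4 (uY m P) (uE m P) (uR m P)
  push_cast at h1 h3
  linarith

theorem chk1_sound (hm : 17 ≤ m) {w : ℚ} (h : chk1 m P w = true) : WC m P ≤ w := by
  have h4 : 4 ≤ m := by omega
  simp only [chk1, Bool.and_eq_true] at h
  have hP := okP_sound h.1
  have h1 := chkF_sound hm h.2
  have h2 := WC_le h4 hP
  have h3 := lf_eq h4 (vY m P) (vE m P) (vR m P)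
  push_cast at h1 h3
  linarith

theorem chkE_sound (hm : 17 ≤ m) {lo hi : ℚ} (h : chkE m lo hi = true) :
    (lo : ℝ) ≤ m * (m + 1) * EM m 1 ∧ m * (m + 1) * EM m 1 ≤ hi := by
  have h4 : 4 ≤ m := by omega
  simp only [chkE, Bool.and_eq_true] at h
  have h1 := chkF_sound hm h.1
  have h2 := chkF_sound hm h.2
  have h3 := lf_eq h4 [] [0, (m : ℚ) * (m + 1)] []
  simp only [pd] at h3
  push_cast at h1 h2 h3
  constructor <;> linarith

/-- the constant of the mean normal -/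
theorem gam_le (hm : 17 ≤ m) : m * rM m 0 ≤ ((ruq m : ℚ) : ℝ) := r_le hm

end Vale.Agent.P224.R2.H582
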