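import Vale.Agent.P224.R2.H582.Wn
import Vale.Agent.P224.R2.H925.In

/-!
The kernel checked bounds of the weights in the format of the near law.
-/

namespace Vale.Agent.P224.R2.H582

open MeasureTheory Set Filter Function Real
open Vale.Agent.P224.R2.H627 Vale.Agent.P224.R2.H820 Vale.Agent.P224.SM2
open Vale.Agent.P224.R2.H925
open scoped Topology

/-- the numbers of the law from the two kernel checks: `P.la` and `P.lb` are polynomials above and
below `lam` on `(0, P.t1)` -/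
theorem wnum_of {m : ℕ} (hm : 17 ≤ m) {P : NumP} {w0 w1 : ℚ} (h0 : chk0 m P w0 = true)
    (h1 : chk1 m P w1 = true) {lam be' : ℝ → ℝ}
    (hbe : ∀ T ∈ Ioo (0 : ℝ) P.t1, be' T = be m P.kap T (eM m T) (rM m T))
    (hla : ∀ T ∈ Ioo (0 : ℝ) P.t1, lam T ≤ pe P.la 0 T)
    (hlb : ∀ T ∈ Ioo (0 : ℝ) P.t1, pe P.lb 0 T ≤ lam T) :
    WNum m lam be' P.t1 P.s w0 w1 := by
  have h4 : 4 ≤ m := by omega
  have hP : OkP m P := by
    simp only [chk0, Bool.and_eq_true] at h0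
    exact okP_sound h0.1
  refine ⟨fA m P, fC m P, ii_fA h4 hP, ii_fC h4 hP, ?_, ?_, chk0_sound hm h0, chk1_sound hm h1⟩
  · intro T hT
    have hT' : T ∈ Icc (0 : ℝ) P.t1 := ⟨hT.1.le, hT.2.le⟩
    rw [hbe T hT]
    refine fA_le h4 hP hT' ?_ (hla T hT)
    exact (pe_nonneg hP.lb 0 hT.1.le).trans (hlb T hT)
  · intro T hT
    have hT' : T ∈ Icc (0 : ℝ) P.t1 := ⟨hT.1.le, hT.2.le⟩
    rw [hbe T hT]
    exact le_fC h4 hP hT' (hlb T hT)

end Vale.Agent.P224.R2.H582
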